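import Crest.Agent.R118.Defs

/-!
Basic API for `avg`, `n2`, `sg`, `fc`.
-/

set_option autoImplicit false

namespace Crest.Agent.R118

open Matrix Finset

section avg
variable {α β E F : Type*} [Fintype α] [Fintype β] [AddCommGroup E] [Module ℝ E]
  [AddCommGroup F] [Module ℝ F]

theorem avg_add (f g : α → E) : avg (fun a => f a + g a) = avg f + avg g := by
  simp [avg, sum_add_distrib, smul_add]

theorem avg_sub (f g : α → E) : avg (fun a => f a - g a) = avg f - avg g := by
  simp [avg, sum_sub_distrib, smul_sub]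

theorem avg_smul (c : ℝ) (f : α → E) : avg (fun a => c • f a) = c • avg f := by
  simp only [avg, ← smul_sum]; rw [smul_comm]

theorem avg_mul_left (c : ℝ) (f : α → ℝ) : avg (fun a => c * f a) = c * avg f :=
  avg_smul c f

theorem avg_mul_right (c : ℝ) (f : α → ℝ) : avg (fun a => f a * c) = avg f * c := by
  simp only [mul_comm _ c]; exact avg_mul_left c f

theorem avg_smul_const (f : α → ℝ) (v : E) : avg (fun a => f a • v) = avg f • v := by
  simp only [avg, ← sum_smul, smul_eq_mul, mul_smul]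

theorem avg_sum {ι : Type*} (s : Finset ι) (f : α → ι → E) :
    avg (fun a => ∑ i ∈ s, f a i) = ∑ i ∈ s, avg (fun a => f a i) := by
  simp only [avg, ← smul_sum]; rw [sum_comm]

theorem avg_comm (f : α → β → E) :
    avg (fun a => avg fun b => f a b) = avg (fun b => avg fun a => f a b) := by
  simp only [avg, ← smul_sum]; rw [sum_comm, smul_comm]

theorem avg_prod (f : α × β → E) : avg f = avg (fun a => avg fun b => f (a, b)) := by
  simp only [avg, ← smul_sum, Fintype.card_prod, Fintype.sum_prod_type, smul_smul, Nat.cast_mul,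
    mul_inv]

theorem avg_equiv (e : α ≃ β) (f : β → E) : avg (fun a => f (e a)) = avg f := by
  simp only [avg, Fintype.card_congr e, Equiv.sum_comp e f]

theorem avg_add_right {γ : Type*} [Fintype γ] [AddCommGroup γ] (f : γ → E) (c : γ) :
    avg (fun a => f (a + c)) = avg f := avg_equiv (Equiv.addRight c) f

theorem avg_add_left {γ : Type*} [Fintype γ] [AddCommGroup γ] (f : γ → E) (c : γ) :
    avg (fun a => f (c + a)) = avg f := avg_equiv (Equiv.addLeft c) f

theorem avg_const [Nonempty α] (v : E) : avg (fun _ : α => v) = v := by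
  have : (Fintype.card α : ℝ) ≠ 0 := by exact_mod_cast Fintype.card_ne_zero
  simp only [avg, sum_const, card_univ]
  rw [← Nat.cast_smul_eq_nsmul ℝ, smul_smul, inv_mul_cancel₀ this, one_smul]

theorem avg_zero : avg (fun _ : α => (0 : E)) = 0 := by simp [avg]

theorem map_avg (L : E →ₗ[ℝ] F) (f : α → E) : L (avg f) = avg fun a => L (f a) := by
  simp [avg, map_sum]

theorem avg_mono {f g : α → ℝ} (h : ∀ a, f a ≤ g a) : avg f ≤ avg g := by
  simp only [avg, smul_eq_mul]
  exact mul_le_mul_of_nonneg_left (sum_le_sum fun a _ => h a) (by positivity)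

theorem avg_nonneg {f : α → ℝ} (h : ∀ a, 0 ≤ f a) : 0 ≤ avg f := by
  simp only [avg, smul_eq_mul]
  exact mul_nonneg (by positivity) (sum_nonneg fun a _ => h a)

theorem abs_avg_le (f : α → ℝ) : |avg f| ≤ avg fun a => |f a| := by
  simp only [avg, smul_eq_mul, abs_mul]
  rw [abs_of_nonneg (by positivity)]
  exact mul_le_mul_of_nonneg_left (abs_sum_le_sum_abs _ _) (by positivity)

theorem abs_avg_le_of_le [Nonempty α] {f : α → ℝ} {c : ℝ} (h : ∀ a, |f a| ≤ c) : |avg f| ≤ c :=
  (abs_avg_le f).trans ((avg_mono h).trans (avg_const c).le)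

end avg

section n2
variable {α β E F : Type*} [Fintype α] [Fintype β] [NormedAddCommGroup E] [NormedAddCommGroup F]

theorem clm_avg [NormedSpace ℝ E] [NormedSpace ℝ F] (L : E →L[ℝ] F) (f : α → E) :
    L (avg f) = avg fun a => L (f a) := map_avg (L : E →ₗ[ℝ] F) f

theorem avg_apply [NormedSpace ℝ E] (g : α → StrongDual ℝ E) (v : E) :
    avg g v = avg fun a => g a v := by
  simp [avg, ContinuousLinearMap.sum_apply]

theorem norm_avg_le [NormedSpace ℝ E] (f : α → E) : ‖avg f‖ ≤ avg fun a => ‖f a‖ := by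
  simp only [avg, norm_smul, smul_eq_mul, Real.norm_eq_abs]
  rw [abs_of_nonneg (by positivity)]
  exact mul_le_mul_of_nonneg_left (norm_sum_le _ _) (by positivity)

theorem n2_nonneg (f : α → E) : 0 ≤ n2 f := Real.sqrt_nonneg _

theorem n2_sq (f : α → E) : n2 f ^ 2 = avg fun a => ‖f a‖ ^ 2 :=
  Real.sq_sqrt (avg_nonneg fun _ => by positivity)

theorem n2_le_of_sq_le {f : α → E} {c : ℝ} (hc : 0 ≤ c) (h : (avg fun a => ‖f a‖ ^ 2) ≤ c ^ 2) :
    n2 f ≤ c := by
  rw [n2, Real.sqrt_le_left hc]; exact h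

theorem n2_mono {f : α → E} {g : α → F} (h : ∀ a, ‖f a‖ ≤ ‖g a‖) : n2 f ≤ n2 g :=
  Real.sqrt_le_sqrt (avg_mono fun a => pow_le_pow_left₀ (norm_nonneg _) (h a) 2)

theorem n2_congr {f : α → E} {g : α → F} (h : ∀ a, ‖f a‖ = ‖g a‖) : n2 f = n2 g := by
  simp only [n2, h]

theorem n2_equiv (e : α ≃ β) (f : β → E) : n2 (fun a => f (e a)) = n2 f := by
  simp only [n2]; rw [avg_equiv e (fun b => ‖f b‖ ^ 2)]

theorem n2_mul_left {f : α → E} {g : α → F} {c : ℝ} (hc : 0 ≤ c) (h : ∀ a, ‖f a‖ ≤ c * ‖g a‖) :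
    n2 f ≤ c * n2 g := by
  apply n2_le_of_sq_le (mul_nonneg hc (n2_nonneg g))
  rw [mul_pow, n2_sq, ← avg_mul_left]
  exact avg_mono fun a => by
    rw [← mul_pow]; exact pow_le_pow_left₀ (norm_nonneg _) (h a) 2

/-- Cauchy–Schwarz for averages -/
theorem avg_cs (f g : α → ℝ) : |avg fun a => f a * g a| ≤ n2 f * n2 g := by
  rw [n2, n2, ← Real.sqrt_mul (avg_nonneg fun _ => by positivity)]
  apply Real.abs_le_sqrt
  simp only [avg, smul_eq_mul, Real.norm_eq_abs, sq_abs, mul_pow]
  have h := sum_mul_sq_le_sq_mul_sq univ f g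
  have h2 : (0 : ℝ) ≤ ((Fintype.card α : ℝ)⁻¹) ^ 2 := by positivity
  calc _ ≤ ((Fintype.card α : ℝ)⁻¹) ^ 2 * ((∑ a, f a ^ 2) * ∑ a, g a ^ 2) :=
        mul_le_mul_of_nonneg_left h h2
    _ = _ := by ring

/-- Cauchy–Schwarz, norm form -/
theorem avg_norm_mul_le (f : α → E) (g : α → F) : avg (fun a => ‖f a‖ * ‖g a‖) ≤ n2 f * n2 g := by
  have := avg_cs (fun a => ‖f a‖) (fun a => ‖g a‖)
  rw [n2_congr (f := fun a => ‖f a‖) (g := f) (by simp), n2_congr (f := fun a => ‖g a‖) (g := g) (by simp)] at this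
  exact (le_abs_self _).trans this

theorem avg_norm_le_n2 [Nonempty α] (f : α → E) : avg (fun a => ‖f a‖) ≤ n2 f := by
  have := avg_norm_mul_le f (fun _ : α => (1 : ℝ))
  have h1 : n2 (fun _ : α => (1 : ℝ)) = 1 := by simp [n2, avg_const]
  simpa [h1] using this

/-- `n2` of a function on a product is the `n2` of the fibrewise `n2` -/
theorem n2_prod (f : α × β → E) : n2 f = n2 (fun a => n2 fun b => f (a, b)) := by
  simp only [n2] at *
  congr 1
  rw [avg_prod]
  congr 1; ext a
  rw [Real.norm_eq_abs, sq_abs, Real.sq_sqrt (avg_nonneg fun _ => by positivity)]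

theorem n2_add_le (f g : α → E) : n2 (fun a => f a + g a) ≤ n2 f + n2 g := by
  apply n2_le_of_sq_le (add_nonneg (n2_nonneg f) (n2_nonneg g))
  have h := avg_norm_mul_le f g
  have h1 : (avg fun a => ‖f a + g a‖ ^ 2) ≤
      avg fun a => ‖f a‖ ^ 2 + (2 * (‖f a‖ * ‖g a‖) + ‖g a‖ ^ 2) :=
    avg_mono fun a => by
      have := norm_add_le (f a) (g a)
      nlinarith [norm_nonneg (f a + g a), norm_nonneg (f a), norm_nonneg (g a)]
  rw [avg_add, avg_add, avg_mul_left] at h1
  rw [← n2_sq f, ← n2_sq g] at h1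
  nlinarith

theorem n2_smul [NormedSpace ℝ E] (c : ℝ) (f : α → E) : n2 (fun a => c • f a) = |c| * n2 f := by
  simp only [n2, norm_smul, mul_pow, Real.norm_eq_abs]
  rw [avg_mul_left, Real.sqrt_mul (by positivity), Real.sqrt_sq (abs_nonneg c)]

end n2

section sg

theorem zmod2_cases (z : ZMod 2) : z = 0 ∨ z = 1 := by revert z; decide

@[simp] theorem sg_zero : sg 0 = 1 := by simp [sg]

@[simp] theorem sg_one : sg 1 = -1 := by simp [sg]

theorem zmod2_add_self (z : ZMod 2) : z + z = 0 := by revert z; decide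

theorem Z_add_self {n : ℕ} (a : Z n) : a + a = 0 := by
  ext i; exact zmod2_add_self _

theorem sg_add (y z : ZMod 2) : sg (y + z) = sg y * sg z := by
  rcases zmod2_cases y with rfl | rfl <;> rcases zmod2_cases z with rfl | rfl <;>
    simp [zmod2_add_self]

theorem sg_mul_self (z : ZMod 2) : sg z * sg z = 1 := by
  rw [← sg_add, zmod2_add_self, sg_zero]

@[simp] theorem abs_sg (z : ZMod 2) : |sg z| = 1 := by
  rcases zmod2_cases z with rfl | rfl <;> simp

theorem sg_cases (z : ZMod 2) : sg z = 1 ∨ sg z = -1 := by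
  rcases zmod2_cases z with rfl | rfl <;> simp

theorem sg_sum {ι : Type*} (s : Finset ι) (f : ι → ZMod 2) :
    sg (∑ i ∈ s, f i) = ∏ i ∈ s, sg (f i) := by
  classical
  induction s using Finset.induction_on with
  | empty => simp
  | insert a s ha ih => rw [sum_insert ha, prod_insert ha, sg_add, ih]

theorem sum_zmod2 {M : Type*} [AddCommMonoid M] (f : ZMod 2 → M) : ∑ z, f z = f 0 + f 1 := by
  have : (univ : Finset (ZMod 2)) = {0, 1} := by decide
  rw [this, sum_pair (by decide)]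

theorem card_Z (n : ℕ) : Fintype.card (Z n) = 2 ^ n := by simp [ZMod.card]

theorem norm_sg_smul {E : Type*} [NormedAddCommGroup E] [NormedSpace ℝ E] (z : ZMod 2) (v : E) :
    ‖sg z • v‖ = ‖v‖ := by simp [norm_smul]

theorem sg_smul_mem {E : Type*} [AddCommGroup E] [Module ℝ E] {V : Set E}
    (hV : ∀ v ∈ V, -v ∈ V) (z : ZMod 2) {v : E} (hv : v ∈ V) : sg z • v ∈ V := by
  rcases sg_cases z with h | h <;> simp [h, hv, hV v hv]

/-- orthogonality of characters (sum form) -/
theorem sum_sg_dot {n : ℕ} (A : Z n) : ∑ θ : Z n, sg (θ ⬝ᵥ A) = if A = 0 then (2 : ℝ) ^ n else 0 := by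
  have h1 : ∑ θ : Z n, sg (θ ⬝ᵥ A) = ∏ i, ∑ z : ZMod 2, sg (z * A i) := by
    rw [Finset.prod_univ_sum]
    simp only [dotProduct, sg_sum, Fintype.piFinset_univ]
  rw [h1]
  split_ifs with h
  · subst h; simp [sum_zmod2]
  · obtain ⟨i, hi⟩ := Function.ne_iff.mp h
    apply Finset.prod_eq_zero (mem_univ i)
    rcases zmod2_cases (A i) with h0 | h0
    · exact absurd h0 hi
    · simp [sum_zmod2, h0]

theorem avg_sg_dot {n : ℕ} (A : Z n) : avg (fun θ : Z n => sg (θ ⬝ᵥ A)) = if A = 0 then 1 else 0 := by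
  rw [avg, sum_sg_dot, card_Z]
  split_ifs <;> simp

/-- orthogonality for the matrix pairing -/
theorem sum_sg_ip {n m : ℕ} (β : Fin m → Z n) :
    ∑ γ : Fin m → Z n, sg (ip γ β) = if β = 0 then (2 : ℝ) ^ (m * n) else 0 := by
  have h1 : ∑ γ : Fin m → Z n, sg (ip γ β) = ∏ l, ∑ θ : Z n, sg (θ ⬝ᵥ β l) := by
    rw [Finset.prod_univ_sum]
    simp only [ip, sg_sum, Fintype.piFinset_univ]
  rw [h1]
  simp only [sum_sg_dot]
  split_ifs with h
  · subst h; simp [← pow_mul, mul_comm]
  · obtain ⟨l, hl⟩ := Function.ne_iff.mp h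
    apply Finset.prod_eq_zero (mem_univ l)
    exact if_neg hl

/-- Walsh inversion -/
theorem fc_inv {n : ℕ} {E : Type*} [AddCommGroup E] [Module ℝ E] (f : Z n → E) (θ : Z n) :
    ∑ A, sg (θ ⬝ᵥ A) • fc f A = f θ := by
  have h1 : ∑ A, sg (θ ⬝ᵥ A) • fc f A = avg fun η => (∑ A : Z n, sg (A ⬝ᵥ (θ + η))) • f η := by
    simp only [fc, ← avg_smul, sum_smul]
    rw [avg_sum]
    refine sum_congr rfl fun A _ => ?_
    congr 1; ext η
    rw [smul_smul, ← sg_add, dotProduct_add, dotProduct_comm θ, dotProduct_comm η]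
  rw [h1]
  simp only [sum_sg_dot]
  have h2 : ∀ η : Z n, (θ + η = 0) ↔ η = θ := fun η => by
    constructor
    · intro h
      have : θ + (θ + η) = θ := by rw [h, add_zero]
      rwa [← add_assoc, Z_add_self, zero_add] at this
    · rintro rfl; exact Z_add_self _
  simp only [h2, avg, ite_smul, zero_smul, sum_ite_eq', mem_univ, if_true, card_Z, smul_smul]
  simp

theorem norm_fc_le {n : ℕ} {E : Type*} [NormedAddCommGroup E] [NormedSpace ℝ E] (f : Z n → E)
    (A : Z n) : ‖fc f A‖ ≤ n2 f := by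
  refine (norm_avg_le _).trans ?_
  simp only [norm_sg_smul]
  exact avg_norm_le_n2 f

theorem fc_const {n : ℕ} {E : Type*} [AddCommGroup E] [Module ℝ E] (v : E) (A : Z n) :
    fc (fun _ => v) A = if A = 0 then v else 0 := by
  rw [fc, avg_smul_const, avg_sg_dot]; split_ifs <;> simp

end sg

end Crest.Agent.R118
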