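import Crest.Agent.R118.Basic

/-!
Closed chains of finite sets and the approximating operator.
`exists_chain`: choose `Φ x` for every tuple `x`; `next V = W ∪ -W` with
`W = V ∪ ⋃_{x : Fin n → X, ∀ i, x i ∈ V} (range (Φ x) ∪ range (fc (Φ x)))`, finite because `{x | ∀ i, x i ∈ V}` is finite
(`Set.Finite.pi'`); `V d = next^[d] V₀` (`Nat.rec`).
`exists_approx`: `K = {0} ∪ ⋃ d, (fun v => ((1/2)^d * ‖v‖⁻¹) • v) '' V d` is compact (e.g. `isCompact_of_finite_subcover`, or
closed + totally bounded / `Metric.isCompact_iff..`: outside any ball around `0` there are finitely many points;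
`IsCompact` via `isCompact_iff_ultrafilter_le_nhds`, or: `Metric.totallyBounded_iff` + closedness, or
`Filter.Tendsto.isCompact_insert_range_of_cofinite` for the family indexed by `Σ d, V d`); apply AP with `δ = ε`
and rescale (`v = 0` trivial).
-/

set_option autoImplicit false

namespace Crest.Agent.R118

open Matrix Finset

variable {X : Type*} [NormedAddCommGroup X] [NormedSpace ℝ X]


theorem exists_chain {n : ℕ} {c : ℝ} (h : ∀ x : Fin n → X, ∃ Φ : Z n → X, IsCorr x Φ c)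
    {V₀ : Set X} (h₀ : V₀.Finite) :
    ∃ V : ℕ → Set X, V 0 = V₀ ∧ (∀ d, (V d).Finite) ∧ ∀ d, Cl n c (V d) (V (d + 1)) := by
  choose Φ hΦ using h
  let W : Set X → Set X := fun V =>
    V ∪ ⋃ x ∈ {x : Fin n → X | ∀ i, x i ∈ V}, (Set.range (Φ x) ∪ Set.range (fc (Φ x)))
  let nx : Set X → Set X := fun V => W V ∪ (fun v => -v) '' W V
  have hWf : ∀ V : Set X, V.Finite → (W V).Finite := by
    intro V hV
    refine hV.union (Set.Finite.biUnion (Set.Finite.pi' fun _ => hV) fun x _ => ?_)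
    exact (Set.finite_range _).union (Set.finite_range _)
  have hnf : ∀ V : Set X, V.Finite → (nx V).Finite := fun V hV =>
    (hWf V hV).union ((hWf V hV).image _)
  have hcl : ∀ V : Set X, Cl n c V (nx V) := by
    intro V
    refine ⟨fun v hv => Or.inl (Or.inl hv), ?_, ?_⟩
    · rintro v (hv | ⟨w, hw, rfl⟩)
      · exact Or.inr ⟨v, hv, rfl⟩
      · exact Or.inl (by simpa using hw)
    · intro x hx
      refine ⟨Φ x, hΦ x, fun θ => Or.inl (Or.inr ?_), fun A => Or.inl (Or.inr ?_)⟩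
      · exact Set.mem_biUnion (s := {x : Fin n → X | ∀ i, x i ∈ V}) hx (Or.inl ⟨θ, rfl⟩)
      · exact Set.mem_biUnion (s := {x : Fin n → X | ∀ i, x i ∈ V}) hx (Or.inr ⟨A, rfl⟩)
  refine ⟨fun d => nx^[d] V₀, rfl, ?_, ?_⟩
  · intro d
    induction d with
    | zero => exact h₀
    | succ d ih =>
      simp only [Function.iterate_succ_apply']
      exact hnf _ ih
  · intro d
    simp only [Function.iterate_succ_apply']
    exact hcl _

theorem exists_approx (hAP : Crest.AnalysisR.HasApproximationProperty X) (V : ℕ → Set X)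
    (hV : ∀ d, (V d).Finite) {ε : ℝ} (hε : 0 < ε) :
    ∃ u : X →L[ℝ] X, FiniteDimensional ℝ (LinearMap.range (u : X →ₗ[ℝ] X)) ∧
      ∀ d, ∀ v ∈ V d, ‖u v - v‖ ≤ ε * 2 ^ d * ‖v‖ := by
  let g : (Σ d : ℕ, V d) → X := fun q => ((1 / 2 : ℝ) ^ q.1 * ‖(q.2 : X)‖⁻¹) • (q.2 : X)
  have hg : ∀ q, ‖g q‖ ≤ (1 / 2 : ℝ) ^ q.1 := by
    intro q
    simp only [g, norm_smul, Real.norm_eq_abs]
    rw [abs_of_nonneg (by positivity), mul_assoc]
    refine mul_le_of_le_one_right (by positivity) ?_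
    exact inv_mul_le_one_of_le₀ le_rfl (norm_nonneg _)
  have ht : Filter.Tendsto g Filter.cofinite (nhds 0) := by
    rw [tendsto_zero_iff_norm_tendsto_zero]
    have h1 : Filter.Tendsto (fun q : (Σ d : ℕ, V d) => q.1) Filter.cofinite Filter.cofinite := by
      refine Filter.Tendsto.cofinite_of_finite_preimage_singleton fun d => ?_
      have : Finite (V d) := (hV d).to_subtype
      have h2 : (Set.range (fun v : V d => (⟨d, v⟩ : Σ d : ℕ, V d))).Finite := Set.finite_range _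
      refine (h2.subset ?_).to_subtype
      rintro ⟨d', v⟩ hq
      have : d' = d := hq
      subst this
      exact ⟨v, rfl⟩
    rw [Nat.cofinite_eq_atTop] at h1
    have h2 : Filter.Tendsto (fun d : ℕ => (1 / 2 : ℝ) ^ d) Filter.atTop (nhds 0) :=
      tendsto_pow_atTop_nhds_zero_of_lt_one (by norm_num) (by norm_num)
    exact squeeze_zero (fun q => norm_nonneg _) hg (h2.comp h1)
  obtain ⟨u, hu, hK⟩ := hAP _ ht.isCompact_insert_range_of_cofinite ε hε
  refine ⟨u, hu, fun d v hv => ?_⟩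
  by_cases hv0 : v = 0
  · subst hv0; simp
  have hn : 0 < ‖v‖ := norm_pos_iff.mpr hv0
  have h1 := hK (g ⟨d, ⟨v, hv⟩⟩) (Or.inr ⟨_, rfl⟩)
  simp only [g, map_smul, ← smul_sub, norm_smul, Real.norm_eq_abs] at h1
  rw [abs_of_nonneg (by positivity)] at h1
  have h2 : ‖u v - v‖ = (2 ^ d * ‖v‖) * ((1 / 2 : ℝ) ^ d * ‖v‖⁻¹ * ‖u v - v‖) := by
    rw [one_div, inv_pow]
    field_simp
  rw [h2]
  calc (2 ^ d * ‖v‖) * ((1 / 2 : ℝ) ^ d * ‖v‖⁻¹ * ‖u v - v‖) ≤ (2 ^ d * ‖v‖) * ε :=
        mul_le_mul_of_nonneg_left h1.le (by positivity)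
    _ = _ := by ring

end Crest.Agent.R118
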