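import Crest.Agent.R118.Dual

/-!
Correction of a tuple of functionals from the cotype of the space.
Let `L f = ∑ l, y l (fc f (Pi.single l 1))` (linear functional on `Z m → X`), `J z = fun σ => ∑ l, sg (σ l) • z l`
(linear), `fc (J z) (Pi.single l 1) = z l`.  On `range J`: `L (J z) = m * avg (y l (z l)) ≤ m * n2 z * n2 y ≤ a * n2 y * n2 (J z)`
(by `Cot`: `(m * n2 z)² = m ∑ ‖z l‖² ≤ a² (n2 (J z))²`).  Extend the restriction of `L` to `range J` by
`exists_extension_of_le_sublinear` with `N f = a * n2 y * n2 f` to `ℓ ≤ N`.  Put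
`Ψ σ = 2^m • ℓ ∘ (Pi.single σ)` (continuous by `mkContinuous`, since `n2 (Pi.single σ v) ≤ ‖v‖`), so
`avg σ, Ψ σ (f σ) = ℓ f ≤ N f`; `n2_dual_le` gives the norm bound, and
`fc Ψ (single l 1) v = ℓ (fun σ => sg (σ l) • v) = ℓ (J (single l v)) = y l v`.

`cot_of_cotype`: Hölder / power mean `∑ ‖y i‖² ≤ n^(1-2/q) (∑ ‖y i‖^q)^(2/q)`
(`Real.inner_le_nnorm_mul_nnorm`-type, `Real.rpow_arith_mean_le_arith_mean_rpow` or `Real.inner_le_Lp_mul_Lq`), and
`signAverage` over `Fin n → Bool` equals `avg` over `Z n` via the equivalence `b ↦ if b then 0 else 1`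
(`signVal b = sg (if b then 0 else 1)`), see `signAverage_eq`.
-/

set_option autoImplicit false

namespace Crest.Agent.R118

open Matrix Finset

variable {X : Type*} [NormedAddCommGroup X] [NormedSpace ℝ X]


namespace CorrB

theorem dot_single {m : ℕ} (σ : Z m) (l : Fin m) : σ ⬝ᵥ Pi.single l 1 = σ l := by simp

theorem fc_J {m : ℕ} {E : Type*} [AddCommGroup E] [Module ℝ E] (z : Fin m → E) (l : Fin m) :
    fc (fun σ : Z m => ∑ i, sg (σ i) • z i) (Pi.single l 1) = z l := by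
  have h1 : ∀ σ : Z m, sg (σ ⬝ᵥ Pi.single l 1) • ∑ i, sg (σ i) • z i =
      ∑ i, sg (σ ⬝ᵥ (Pi.single l 1 + Pi.single i 1)) • z i := by
    intro σ
    rw [smul_sum]
    refine sum_congr rfl fun i _ => ?_
    rw [smul_smul, dotProduct_add, sg_add, dot_single, dot_single]
  simp only [fc, h1]
  rw [avg_sum]
  simp only [avg_smul_const, avg_sg_dot]
  rw [Finset.sum_eq_single l]
  · rw [if_pos (Z_add_self _), one_smul]
  · intro i _ hi
    rw [if_neg, zero_smul]
    intro h0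
    have := congrFun h0 l
    simp [Pi.single_eq_of_ne hi.symm] at this
  · intro h; exact absurd (mem_univ l) h

/-- the Rademacher embedding -/
noncomputable def J (m : ℕ) (E : Type*) [AddCommGroup E] [Module ℝ E] :
    (Fin m → E) →ₗ[ℝ] (Z m → E) where
  toFun z := fun σ => ∑ l, sg (σ l) • z l
  map_add' z w := by ext σ; simp [sum_add_distrib, smul_add]
  map_smul' c z := by ext σ; simp [smul_sum, smul_comm c]

/-- first-order coefficients -/
noncomputable def Q (m : ℕ) (E : Type*) [AddCommGroup E] [Module ℝ E] :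
    (Z m → E) →ₗ[ℝ] (Fin m → E) where
  toFun f := fun l => fc f (Pi.single l 1)
  map_add' f g := by
    ext l; simp only [fc, Pi.add_apply, smul_add]; rw [avg_add]
  map_smul' c f := by
    ext l
    simp only [fc, Pi.smul_apply, RingHom.id_apply]
    rw [← avg_smul]; congr 1; ext θ; rw [smul_comm]

theorem Q_J {m : ℕ} {E : Type*} [AddCommGroup E] [Module ℝ E] (z : Fin m → E) :
    Q m E (J m E z) = z := by
  ext l; exact fc_J z l

theorem mul_n2_sq {m : ℕ} (hm : 0 < m) {E : Type*} [NormedAddCommGroup E] (z : Fin m → E) :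
    ((m : ℝ) * n2 z) ^ 2 = m * ∑ i, ‖z i‖ ^ 2 := by
  have : (m : ℝ) ≠ 0 := by exact_mod_cast hm.ne'
  rw [mul_pow, n2_sq, avg, Fintype.card_fin, smul_eq_mul]
  field_simp

theorem sum_eq_mul_avg {m : ℕ} (hm : 0 < m) (f : Fin m → ℝ) : ∑ i, f i = m * avg f := by
  have : (m : ℝ) ≠ 0 := by exact_mod_cast hm.ne'
  rw [avg, Fintype.card_fin, smul_eq_mul]
  field_simp

theorem mul_n2_le {m : ℕ} (hm : 0 < m) {a : ℝ} (ha : 0 < a) {E : Type*} [NormedAddCommGroup E]
    [NormedSpace ℝ E] (h : Cot E m a) (z : Fin m → E) :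
    (m : ℝ) * n2 z ≤ a * n2 (J m E z) := by
  have h1 := h z
  have h2 : ((m : ℝ) * n2 z) ^ 2 ≤ (a * n2 (J m E z)) ^ 2 := by
    rw [mul_n2_sq hm, mul_pow, n2_sq]; exact h1
  exact le_of_sq_le_sq₀' h2 (mul_nonneg ha.le (n2_nonneg _))
where
  le_of_sq_le_sq₀' {x y : ℝ} (h : x ^ 2 ≤ y ^ 2) (hy : 0 ≤ y) : x ≤ y :=
    le_trans (le_abs_self x) (abs_le_of_sq_le_sq' h hy |> fun hh => abs_le.mpr hh)

theorem n2_single_le {α : Type*} [Fintype α] [DecidableEq α] {E : Type*} [NormedAddCommGroup E]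
    (σ : α) (v : E) : n2 (Pi.single σ v : α → E) ≤ ‖v‖ := by
  have : Nonempty α := ⟨σ⟩
  refine n2_le_of_sq_le (norm_nonneg v) ((avg_mono fun a => ?_).trans (avg_const (‖v‖ ^ 2)).le)
  by_cases ha : a = σ
  · subst ha; simp
  · simp [Pi.single_eq_of_ne ha]

theorem n2_neg {α : Type*} [Fintype α] {E : Type*} [NormedAddCommGroup E] (f : α → E) :
    n2 (-f) = n2 f := n2_congr fun a => by simp

end CorrB

open CorrB in
theorem corr_dual_of_cot {m : ℕ} (hm : 0 < m) {a : ℝ} (ha : 0 < a) (h : Cot X m a)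
    (y : Fin m → StrongDual ℝ X) : ∃ Ψ : Z m → StrongDual ℝ X, IsCorr y Ψ a := by
  classical
  let L0 : (Fin m → X) →ₗ[ℝ] ℝ :=
    ∑ l, (y l : X →ₗ[ℝ] ℝ) ∘ₗ LinearMap.proj (R := ℝ) (φ := fun _ : Fin m => X) l
  have hL0 : ∀ z, L0 z = ∑ l, y l (z l) := fun z => by simp [L0]
  let L : (Z m → X) →ₗ[ℝ] ℝ := L0 ∘ₗ Q m X
  have hc : 0 ≤ a * n2 y := mul_nonneg ha.le (n2_nonneg _)
  obtain ⟨ℓ, hℓ, hN⟩ := exists_extension_of_le_sublinear (L.toPMap (LinearMap.range (J m X)))
    (fun f => a * n2 y * n2 f)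
    (fun c hc f => by
      have := n2_smul c f
      rw [abs_of_pos hc] at this
      change a * n2 y * n2 (fun s => c • f s) = _
      rw [this]; ring)
    (fun f g => by
      have := n2_add_le f g
      change a * n2 y * n2 (fun s => f s + g s) ≤ _
      nlinarith)
    (by
      rintro ⟨f, z, rfl⟩
      change L0 (Q m X (J m X z)) ≤ a * n2 y * n2 (J m X z)
      rw [Q_J, hL0, sum_eq_mul_avg hm]
      have h1 := (le_abs_self _).trans (abs_avg_pair_le y z)
      have h2 := mul_n2_le hm ha h z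
      have h3 : (0 : ℝ) ≤ m := by positivity
      have h4 := n2_nonneg y
      calc (m : ℝ) * avg (fun l => y l (z l)) ≤ m * (n2 z * n2 y) := by gcongr
        _ = (m * n2 z) * n2 y := by ring
        _ ≤ (a * n2 (J m X z)) * n2 y := by gcongr
        _ = _ := by ring)
  have hℓJ : ∀ z, ℓ (J m X z) = ∑ l, y l (z l) := fun z => by
    have := hℓ ⟨J m X z, z, rfl⟩
    refine this.trans ?_
    change L0 (Q m X (J m X z)) = _
    rw [Q_J, hL0]
  have habs : ∀ f, |ℓ f| ≤ a * n2 y * n2 f := fun f => by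
    refine abs_le.mpr ⟨?_, hN f⟩
    have := hN (-f)
    rw [map_neg, n2_neg] at this
    linarith
  let Ψ : Z m → StrongDual ℝ X := fun σ =>
    LinearMap.mkContinuous (((2 : ℝ) ^ m) • (ℓ ∘ₗ LinearMap.single ℝ (fun _ : Z m => X) σ))
      (2 ^ m * (a * n2 y)) (fun v => by
        simp only [LinearMap.smul_apply, LinearMap.comp_apply, LinearMap.coe_single, smul_eq_mul,
          Real.norm_eq_abs, abs_mul]
        rw [abs_of_pos (by positivity : (0 : ℝ) < 2 ^ m), mul_assoc]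
        refine mul_le_mul_of_nonneg_left ((habs _).trans ?_) (by positivity)
        exact mul_le_mul_of_nonneg_left (n2_single_le σ v) hc)
  have hΨ : ∀ f : Z m → X, (avg fun σ => Ψ σ (f σ)) = ℓ f := fun f => by
    have h1 : ∀ σ, Ψ σ (f σ) = 2 ^ m * ℓ (Pi.single σ (f σ)) := fun σ => by simp [Ψ]
    simp only [h1, avg, card_Z, smul_eq_mul]
    rw [← mul_sum, ← map_sum, Finset.univ_sum_single]
    have : (2 : ℝ) ^ m ≠ 0 := by positivity
    push_cast
    field_simp
  refine ⟨Ψ, fun l => ?_, n2_dual_le Ψ hc fun f => by rw [hΨ]; exact hN f⟩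
  ext v
  rw [fc, avg_apply]
  have h1 : ∀ θ : Z m, (sg (θ ⬝ᵥ Pi.single l 1) • Ψ θ) v = Ψ θ (J m X (Pi.single l v) θ) := by
    intro θ
    have : J m X (Pi.single l v) θ = sg (θ l) • v := by
      change ∑ i, sg (θ i) • (Pi.single l v : Fin m → X) i = _
      rw [Finset.sum_eq_single l]
      · simp
      · intro i _ hi; simp [Pi.single_eq_of_ne hi]
      · intro h; exact absurd (mem_univ l) h
    rw [this, dot_single]; simp
  simp only [h1]
  rw [hΨ, hℓJ, Finset.sum_eq_single l]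
  · simp
  · intro i _ hi; simp [Pi.single_eq_of_ne hi]
  · intro h; exact absurd (mem_univ l) h

end Crest.Agent.R118
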