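import Crest.Agent.R118.Dual
import Crest.Agent.R118.CorrB

/-!
Correction of a tuple of vectors from the cotype of the dual.
Let `Q Φ = fun i => fc Φ (Pi.single i 1)` (linear, `(Z n → X) → (Fin n → X)`), onto:
`Q (fun θ => ∑ i, sg (θ i) • z i) = z` (orthogonality `avg_sg_dot`; `θ ⬝ᵥ Pi.single i 1 = θ i`).
`p z = sInf {n2 Φ | Q Φ = z}` is sublinear (`n2_add_le`, `n2_smul`), `p (Pi.single i v) ≤ ‖v‖`.
Hahn–Banach (`exists_extension_of_le_sublinear` from the line `ℝ ∙ x`, `LinearPMap.mkSpanSingleton`, x ≠ 0;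
note `p (-z) = p z`) gives linear `ℓ ≤ p`, `ℓ x = p x`.  `y i = ℓ ∘ single i` is continuous
(`LinearMap.mkContinuous`, bound 1).  For all `Φ`: `avg θ, (∑ i, sg (θ i) • y i) (Φ θ) = ℓ (Q Φ) ≤ n2 Φ`, so
`n2 (fun θ => ∑ i, sg (θ i) • y i) ≤ 1` by `n2_dual_le`; by `Cot`: `n ∑ ‖y i‖² ≤ a²`.  Hence
`p x = ∑ y i (x i) = n * avg (y i (x i)) ≤ n * n2 x * n2 y ≤ a * n2 x` (since `(n * n2 y)² = n ∑‖y i‖²`), and
`a * n2 x < 2 a * n2 x` when `x ≠ 0`, so some `Φ` works (`exists_lt_of_csInf_lt`).  `x = 0`: `Φ = 0`.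
-/

set_option autoImplicit false

namespace Crest.Agent.R118

open Matrix Finset

variable {X : Type*} [NormedAddCommGroup X] [NormedSpace ℝ X]


namespace CorrA

open CorrB

/-- the quotient norm -/
noncomputable def p (n : ℕ) (X : Type*) [NormedAddCommGroup X] [NormedSpace ℝ X]
    (z : Fin n → X) : ℝ := sInf ((fun Φ : Z n → X => n2 Φ) '' {Φ | Q n X Φ = z})

theorem ne {n : ℕ} (z : Fin n → X) :
    ((fun Φ : Z n → X => n2 Φ) '' {Φ | Q n X Φ = z}).Nonempty :=
  ⟨_, J n X z, Q_J z, rfl⟩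

theorem bdd {n : ℕ} (z : Fin n → X) :
    BddBelow ((fun Φ : Z n → X => n2 Φ) '' {Φ | Q n X Φ = z}) :=
  ⟨0, by rintro _ ⟨Φ, -, rfl⟩; exact n2_nonneg Φ⟩

theorem p_le {n : ℕ} {z : Fin n → X} {Φ : Z n → X} (h : Q n X Φ = z) : p n X z ≤ n2 Φ :=
  csInf_le (bdd z) ⟨Φ, h, rfl⟩

theorem le_p {n : ℕ} {z : Fin n → X} {c : ℝ} (h : ∀ Φ : Z n → X, Q n X Φ = z → c ≤ n2 Φ) :
    c ≤ p n X z :=
  le_csInf (ne z) (by rintro _ ⟨Φ, hΦ, rfl⟩; exact h Φ hΦ)

theorem p_nonneg {n : ℕ} (z : Fin n → X) : 0 ≤ p n X z := le_p fun Φ _ => n2_nonneg Φ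

theorem p_smul_le {n : ℕ} {c : ℝ} (hc : c ≠ 0) (z : Fin n → X) :
    p n X (c • z) ≤ |c| * p n X z := by
  have hc' : 0 < |c| := abs_pos.mpr hc
  rw [← div_le_iff₀' hc']
  refine le_p fun Φ hΦ => ?_
  rw [div_le_iff₀' hc', ← n2_smul]
  exact p_le (Φ := c • Φ) (by rw [map_smul, hΦ])

theorem p_smul {n : ℕ} {c : ℝ} (hc : 0 < c) (z : Fin n → X) : p n X (c • z) = c * p n X z := by
  refine le_antisymm (by simpa [abs_of_pos hc] using p_smul_le hc.ne' z) ?_
  have := p_smul_le (inv_ne_zero hc.ne') (c • z)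
  rw [smul_smul, inv_mul_cancel₀ hc.ne', one_smul, abs_of_pos (inv_pos.mpr hc)] at this
  calc c * p n X z ≤ c * (c⁻¹ * p n X (c • z)) := by gcongr
    _ = _ := by field_simp

theorem p_add {n : ℕ} (z w : Fin n → X) : p n X (z + w) ≤ p n X z + p n X w := by
  rw [← sub_le_iff_le_add]
  refine le_p fun Φ hΦ => ?_
  rw [sub_le_comm]
  refine le_p fun Ψ hΨ => ?_
  have h1 : p n X (z + w) ≤ n2 (Φ + Ψ) := p_le (by rw [map_add, hΦ, hΨ])
  have h2 : n2 (Φ + Ψ) ≤ n2 Φ + n2 Ψ := n2_add_le Φ Ψ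
  linarith

theorem p_neg {n : ℕ} (z : Fin n → X) : p n X (-z) ≤ p n X z := by
  simpa using p_smul_le (c := -1) (by norm_num) z

theorem p_single {n : ℕ} (i : Fin n) (v : X) : p n X (Pi.single i v) ≤ ‖v‖ := by
  refine (p_le (Q_J _)).trans ?_
  refine n2_le_of_sq_le (norm_nonneg v) ((avg_mono fun θ => ?_).trans (avg_const (‖v‖ ^ 2)).le)
  have : J n X (Pi.single i v) θ = sg (θ i) • v := by
    change ∑ l, sg (θ l) • (Pi.single i v : Fin n → X) l = _
    rw [Finset.sum_eq_single i]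
    · simp
    · intro l _ hl; simp [Pi.single_eq_of_ne hl]
    · intro h; exact absurd (mem_univ i) h
  rw [this, norm_sg_smul]

end CorrA

open CorrA CorrB in
theorem corr_of_cot_dual {n : ℕ} (hn : 0 < n) {a : ℝ} (ha : 0 < a) (h : Cot (StrongDual ℝ X) n a)
    (x : Fin n → X) : ∃ Φ : Z n → X, IsCorr x Φ (2 * a) := by
  classical
  by_cases hx : x = 0
  · subst hx
    refine ⟨fun _ => 0, fun i => ?_, ?_⟩
    · rw [fc_const]; simp
    · refine n2_le_of_sq_le (mul_nonneg (by positivity) (n2_nonneg _)) ?_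
      simp only [norm_zero]
      rw [avg_const]
      simpa using sq_nonneg _
  obtain ⟨ℓ, hℓ, hN⟩ := exists_extension_of_le_sublinear
    (LinearPMap.mkSpanSingleton (σ := RingHom.id ℝ) x (p n X x) hx) (p n X)
    (fun c hc z => p_smul hc z) p_add
    (by
      rintro ⟨v, hv⟩
      obtain ⟨c, rfl⟩ := Submodule.mem_span_singleton.mp hv
      rw [LinearPMap.mkSpanSingleton'_apply]
      simp only [RingHom.id_apply, smul_eq_mul]
      rcases le_or_gt c 0 with hc | hc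
      · exact (mul_nonpos_of_nonpos_of_nonneg hc (p_nonneg x)).trans (p_nonneg _)
      · exact (p_smul hc x).ge)
  have hℓx : ℓ x = p n X x := by
    have := hℓ ⟨x, Submodule.mem_span_singleton_self x⟩
    rw [LinearPMap.mkSpanSingleton'_apply_self] at this
    exact this
  have habs : ∀ z, |ℓ z| ≤ p n X z := fun z => by
    refine abs_le.mpr ⟨?_, hN z⟩
    have h1 := hN (-z)
    have h2 := p_neg z
    rw [map_neg] at h1
    linarith
  let y : Fin n → StrongDual ℝ X := fun i =>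
    LinearMap.mkContinuous (ℓ ∘ₗ LinearMap.single ℝ (fun _ : Fin n => X) i) 1 (fun v => by
      simp only [LinearMap.comp_apply, LinearMap.coe_single, Real.norm_eq_abs, one_mul]
      exact (habs _).trans (p_single i v))
  have hy : ∀ z : Fin n → X, ∑ i, y i (z i) = ℓ z := fun z => by
    have h1 : ∀ i, y i (z i) = ℓ (Pi.single i (z i)) := fun i => by simp [y]
    simp only [h1]
    rw [← map_sum, Finset.univ_sum_single]
  have hJ : n2 (J n (StrongDual ℝ X) y) ≤ 1 := by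
    refine n2_dual_le _ zero_le_one fun Φ => ?_
    have h1 : (avg fun θ => J n (StrongDual ℝ X) y θ (Φ θ)) = ℓ (Q n X Φ) := by
      rw [← hy]
      have h2 : ∀ θ, J n (StrongDual ℝ X) y θ (Φ θ) = ∑ i, y i (sg (θ ⬝ᵥ Pi.single i 1) • Φ θ) := by
        intro θ
        change (∑ i, sg (θ i) • y i) (Φ θ) = _
        simp
      simp only [h2]
      rw [avg_sum]
      refine sum_congr rfl fun i _ => ?_
      change _ = y i (fc Φ (Pi.single i 1))
      rw [fc, clm_avg]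
    rw [h1, one_mul]
    exact (hN _).trans (p_le rfl)
  have hny : (n : ℝ) * n2 y ≤ a := by
    have := mul_n2_le hn ha h y
    nlinarith
  have hxpos : 0 < n2 x := by
    rcases (n2_nonneg x).lt_or_eq with h0 | h0
    · exact h0
    · exfalso
      have h1 := mul_n2_sq hn x
      rw [← h0] at h1
      have hn' : (0 : ℝ) < n := by exact_mod_cast hn
      have h2 : ∑ i, ‖x i‖ ^ 2 = 0 := by
        have : (n : ℝ) * ∑ i, ‖x i‖ ^ 2 = 0 := by rw [← h1]; ring
        exact (mul_eq_zero.mp this).resolve_left hn'.ne'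
      rw [Finset.sum_eq_zero_iff_of_nonneg fun i _ => by positivity] at h2
      apply hx
      ext i
      simpa using h2 i (mem_univ i)
  have hp : p n X x < 2 * a * n2 x := by
    rw [← hℓx, ← hy, sum_eq_mul_avg hn]
    have h1 := (le_abs_self _).trans (abs_avg_pair_le y x)
    have h3 : (0 : ℝ) ≤ n := by positivity
    calc (n : ℝ) * avg (fun i => y i (x i)) ≤ n * (n2 x * n2 y) := by gcongr
      _ = (n * n2 y) * n2 x := by ring
      _ ≤ a * n2 x := by gcongr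
      _ < 2 * a * n2 x := by nlinarith [mul_pos ha hxpos]
  obtain ⟨_, ⟨Φ, hΦ, rfl⟩, hlt⟩ := exists_lt_of_csInf_lt (ne x) hp
  exact ⟨Φ, fun i => congrFun hΦ i, hlt.le⟩

end Crest.Agent.R118
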