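import Crest.Agent.R118.Basic

/-!
Translation between the Prelude's Boolean cubes and `Z n`, and `Cot` from Rademacher cotype.
`cot_of_cotype`: power mean `∑ ‖y i‖² ≤ n^(1-2/q) (∑ ‖y i‖^q)^(2/q)` for `q ≥ 2`
(e.g. `Real.rpow_arith_mean_le_arith_mean_rpow` with weights `1/n`, exponent `q/2`, or `Real.inner_le_Lp_mul_Lq`);
square the cotype inequality (`C ≤ |C| + 1`, the left side is nonnegative).
-/

set_option autoImplicit false

namespace Crest.Agent.R118

open Matrix Finset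

open Crest.AnalysisR

/-- Boolean sign vectors versus `Z n` -/
def bz {n : ℕ} : (Fin n → Bool) ≃ Z n where
  toFun ε := fun i => if ε i then 0 else 1
  invFun θ := fun i => decide (θ i = 0)
  left_inv ε := by ext i; cases h : ε i <;> simp [h]
  right_inv θ := by ext i; rcases zmod2_cases (θ i) with h | h <;> simp [h]

theorem sg_bz {n : ℕ} (ε : Fin n → Bool) (i : Fin n) : sg (bz ε i) = signVal (ε i) := by
  cases h : ε i <;> simp [bz, h, signVal]

theorem signAverage_eq {n : ℕ} (g : (Fin n → Bool) → ℝ) :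
    signAverage g = avg fun θ : Z n => g (bz.symm θ) := by
  rw [avg_equiv bz.symm g]
  simp [signAverage, avg]

theorem cot_of_cotype {Y : Type*} [NormedAddCommGroup Y] [NormedSpace ℝ Y] {q C : ℝ} (hq : 2 ≤ q)
    (h : HasRademacherCotype Y q C) {n : ℕ} (hn : 0 < n) :
    Cot Y n ((|C| + 1) * (n : ℝ) ^ (1 - 1 / q)) := by
  intro y
  have hq0 : 0 < q := by linarith
  have hnR : (0 : ℝ) < n := by exact_mod_cast hn
  set A : ℝ := avg fun θ : Z n => ‖∑ i, sg (θ i) • y i‖ ^ 2 with hA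
  have hA0 : 0 ≤ A := avg_nonneg fun _ => by positivity
  have hsa : (signAverage fun ε : Fin n → Bool => ‖∑ i, signVal (ε i) • y i‖ ^ (2 : ℝ)) = A := by
    rw [signAverage_eq, hA]
    congr 1; funext θ
    rw [Real.rpow_two]
    congr 2
    refine sum_congr rfl fun i _ => ?_
    rw [← sg_bz, Equiv.apply_symm_apply]
  have h1 := h n y
  rw [hsa] at h1
  set Sq : ℝ := ∑ i, ‖y i‖ ^ q with hSq
  have hSq0 : 0 ≤ Sq := sum_nonneg fun _ _ => by positivity
  set S2 : ℝ := ∑ i, ‖y i‖ ^ 2 with hS2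
  have hS20 : 0 ≤ S2 := sum_nonneg fun _ _ => by positivity
  -- square of the cotype inequality
  have h2 : (Sq ^ (1 / q)) ^ 2 ≤ (|C| + 1) ^ 2 * A := by
    have h3 : Sq ^ (1 / q) ≤ (|C| + 1) * A ^ (1 / 2 : ℝ) :=
      h1.trans (mul_le_mul_of_nonneg_right (by linarith [le_abs_self C]) (by positivity))
    have h4 := pow_le_pow_left₀ (by positivity) h3 2
    rw [mul_pow, ← Real.rpow_natCast (A ^ (1 / 2 : ℝ)), ← Real.rpow_mul hA0] at h4
    norm_num at h4
    simpa using h4
  -- power mean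
  have h5 : S2 ^ (q / 2) ≤ (n : ℝ) ^ (q / 2 - 1) * Sq := by
    have := Real.rpow_sum_le_const_mul_sum_rpow_of_nonneg (univ : Finset (Fin n))
      (f := fun i => ‖y i‖ ^ 2) (p := q / 2) (by linarith) (fun i _ => by positivity)
    rw [card_univ, Fintype.card_fin] at this
    refine this.trans (le_of_eq ?_)
    congr 1
    refine sum_congr rfl fun i _ => ?_
    rw [← Real.rpow_natCast, ← Real.rpow_mul (norm_nonneg _)]
    congr 1; push_cast; ring
  have h6 : S2 ≤ (n : ℝ) ^ (1 - 2 / q) * (Sq ^ (1 / q)) ^ 2 := by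
    have h7 := Real.rpow_le_rpow (by positivity) h5 (by positivity : 0 ≤ 2 / q)
    rw [← Real.rpow_mul hS20, Real.mul_rpow (by positivity) hSq0, ← Real.rpow_mul hnR.le] at h7
    have e1 : q / 2 * (2 / q) = 1 := by field_simp
    have e2 : (q / 2 - 1) * (2 / q) = 1 - 2 / q := by field_simp
    rw [e1, e2, Real.rpow_one] at h7
    refine h7.trans (le_of_eq ?_)
    congr 1
    rw [← Real.rpow_natCast, ← Real.rpow_mul hSq0]
    congr 1; push_cast; ring
  have e3 : ((n : ℝ) ^ (1 - 1 / q)) ^ 2 = n * (n : ℝ) ^ (1 - 2 / q) := by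
    rw [← Real.rpow_natCast, ← Real.rpow_mul hnR.le]
    conv_rhs => rw [← Real.rpow_one (n : ℝ), ← Real.rpow_mul hnR.le, ← Real.rpow_add hnR]
    congr 1; push_cast; ring
  rw [mul_pow, e3]
  have h8 : (0 : ℝ) ≤ (n : ℝ) ^ (1 - 2 / q) := by positivity
  calc (n : ℝ) * S2 ≤ n * ((n : ℝ) ^ (1 - 2 / q) * ((|C| + 1) ^ 2 * A)) :=
        mul_le_mul_of_nonneg_left (h6.trans (mul_le_mul_of_nonneg_left h2 h8)) hnR.le
    _ = _ := by ring

end Crest.Agent.R118
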