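import Mathlib
import Crest.Prelude.Def_Rademacher

/-!
Definitions for row 118 (cotype + dual cotype + AP ⇒ K-convex).
Cubes are `Z n = Fin n → ZMod 2`, signs `sg z = (-1)^z`, uniform averages `avg`.
-/

set_option autoImplicit false

namespace Crest.Agent.R118

open Matrix Finset

/-- uniform average over a finite type -/
noncomputable def avg {α E : Type*} [Fintype α] [AddCommGroup E] [Module ℝ E] (f : α → E) : E :=
  (Fintype.card α : ℝ)⁻¹ • ∑ a, f a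

/-- normalised `L₂` norm -/
noncomputable def n2 {α E : Type*} [Fintype α] [NormedAddCommGroup E] (f : α → E) : ℝ :=
  Real.sqrt (avg fun a => ‖f a‖ ^ 2)

/-- the discrete cube / group `F₂ⁿ` -/
abbrev Z (n : ℕ) := Fin n → ZMod 2

/-- the sign `(-1)^z` -/
noncomputable def sg (z : ZMod 2) : ℝ := if z = 0 then 1 else -1

/-- Hamming weight -/
def wt {n : ℕ} (a : Z n) : ℕ := (univ.filter fun i => a i = 1).card

/-- (vector valued) Walsh coefficient -/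
noncomputable def fc {n : ℕ} {E : Type*} [AddCommGroup E] [Module ℝ E] (f : Z n → E) (A : Z n) : E :=
  avg fun θ => sg (θ ⬝ᵥ A) • f θ

/-- the Hadamard pairing with kernel `(-1)^{p a b}` through the operator `u` -/
noncomputable def had {α X : Type*} [Fintype α] [NormedAddCommGroup X] [NormedSpace ℝ X]
    (p : α → α → ZMod 2) (u : X →L[ℝ] X) (x : α → X) (y : α → StrongDual ℝ X) : ℝ :=
  avg fun a => avg fun b => sg (p a b) * y b (u (x a))

/-- Walsh bound `M` for families with values in `V` -/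
def WB {α X : Type*} [Fintype α] [NormedAddCommGroup X] [NormedSpace ℝ X]
    (p : α → α → ZMod 2) (u : X →L[ℝ] X) (V : Set X) (M : ℝ) : Prop :=
  ∀ (x : α → X) (y : α → StrongDual ℝ X), (∀ a, x a ∈ V) → |had p u x y| ≤ M * n2 x * n2 y

/-- the standard pairing on `Z k` -/
def pk (k : ℕ) : Z k → Z k → ZMod 2 := fun a b => a ⬝ᵥ b

/-- cotype information for `n` vectors -/
def Cot (Y : Type*) [NormedAddCommGroup Y] [NormedSpace ℝ Y] (n : ℕ) (a : ℝ) : Prop :=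
  ∀ y : Fin n → Y, (n : ℝ) * ∑ i, ‖y i‖ ^ 2 ≤ a ^ 2 * avg fun θ : Z n => ‖∑ i, sg (θ i) • y i‖ ^ 2

/-- `Φ` has first-order Walsh coefficients `x` and small norm -/
def IsCorr {n : ℕ} {E : Type*} [NormedAddCommGroup E] [NormedSpace ℝ E]
    (x : Fin n → E) (Φ : Z n → E) (c : ℝ) : Prop :=
  (∀ i, fc Φ (Pi.single i 1) = x i) ∧ n2 Φ ≤ c * n2 x

/-- `V'` contains corrections of all `n`-tuples from `V` -/
def Cl {X : Type*} [NormedAddCommGroup X] [NormedSpace ℝ X] (n : ℕ) (c : ℝ) (V V' : Set X) : Prop :=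
  V ⊆ V' ∧ (∀ v ∈ V', -v ∈ V') ∧
    ∀ x : Fin n → X, (∀ i, x i ∈ V) →
      ∃ Φ : Z n → X, IsCorr x Φ c ∧ (∀ θ, Φ θ ∈ V') ∧ ∀ A, fc Φ A ∈ V'

/-- the split group of rank `n + m + k` -/
abbrev H (n m k : ℕ) := Z n × Z m × Z k

def p3 {n m k : ℕ} (s t : H n m k) : ZMod 2 := s.1 ⬝ᵥ t.1 + s.2.1 ⬝ᵥ t.2.1 + s.2.2 ⬝ᵥ t.2.2

def p4 {n m k : ℕ} (s t : H n m k × Z k) : ZMod 2 := p3 s.1 t.1 + s.2 ⬝ᵥ t.2

/-- `e_A = ∑ A_i e_i`, `e_i = (δ_i, 0, E i)` -/
def eA {n k : ℕ} (m : ℕ) (E : Fin n → Z k) (A : Z n) : H n m k := (A, 0, ∑ i, A i • E i)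

/-- `b_S = ∑ S_l b_l`, `b_l = ((b l).1, δ_l, (b l).2)` -/
def bS {n m k : ℕ} (b : Fin m → Z n × Z k) (S : Z m) : H n m k :=
  (∑ l, S l • (b l).1, S, ∑ l, S l • (b l).2)

/-- the bits `e_i · t` -/
def et {n m k : ℕ} (E : Fin n → Z k) (t : H n m k) : Z n := fun i => t.1 i + E i ⬝ᵥ t.2.2

/-- the bits `s · b_l` -/
def bs {n m k : ℕ} (b : Fin m → Z n × Z k) (s : H n m k) : Z m :=
  fun l => s.1 ⬝ᵥ (b l).1 + s.2.1 l + s.2.2 ⬝ᵥ (b l).2

/-- the twist matrix `β l i = e_i · b_l` -/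
def beta {n m k : ℕ} (E : Fin n → Z k) (b : Fin m → Z n × Z k) : Fin m → Z n :=
  fun l i => (b l).1 i + E i ⬝ᵥ (b l).2

def ip {n m : ℕ} (γ β : Fin m → Z n) : ZMod 2 := ∑ l, γ l ⬝ᵥ β l

def tens {n m : ℕ} (S : Z m) (A : Z n) : Fin m → Z n := fun l => S l • A

/-- the test pairing -/
noncomputable def TT {n m k : ℕ} {X : Type*} [NormedAddCommGroup X] [NormedSpace ℝ X]
    (u : X →L[ℝ] X) (Φ : H n m k → Z n → X) (Ψ : H n m k → Z m → StrongDual ℝ X)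
    (E : Fin n → Z k) (b : Fin m → Z n × Z k) (μ : Z n) (η : Z m) : ℝ :=
  avg fun s => avg fun t => sg (p3 s t) * Ψ t (η + bs b s) (u (Φ s (μ + et E t)))

/-- the untwisted coefficient pairing -/
noncomputable def Gam {n m k : ℕ} {X : Type*} [NormedAddCommGroup X] [NormedSpace ℝ X]
    (u : X →L[ℝ] X) (Φ : H n m k → Z n → X) (Ψ : H n m k → Z m → StrongDual ℝ X)
    (E : Fin n → Z k) (b : Fin m → Z n × Z k) (A : Z n) (S : Z m) : ℝ :=
  had p3 u (fun s => fc (Φ (s + eA m E A)) A) (fun t => fc (Ψ (t + bS b S)) S)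

noncomputable def K1 (n m N : ℕ) : ℝ :=
  98 * (m : ℝ) ^ 2 / n * (m + 1) +
    2 * N * (N + 1) * (98 * (m : ℝ) ^ 2 / n + 2 * (n + 1) / 2 ^ N) / m

noncomputable def K2 (m N : ℕ) : ℝ := 2 * N * (N + 1) / m

/-- Fourier coefficient on the circle -/
noncomputable def Fc (p : ℝ → ℂ) (k : ℤ) : ℂ :=
  (1 / (2 * Real.pi) : ℂ) * ∫ θ in (0 : ℝ)..(2 * Real.pi), Complex.exp (-(k * θ * Complex.I)) * p θ

/-- uniform exponential Walsh bound on the whole space -/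
def Walsh (X : Type*) [NormedAddCommGroup X] [NormedSpace ℝ X] (A ρ : ℝ) : Prop :=
  ∀ k : ℕ, WB (pk k) (ContinuousLinearMap.id ℝ X) Set.univ (A * ρ ^ k)

/-- convolution kernel of the Walsh multiplier `φ` -/
noncomputable def ker {s : ℕ} (φ : Z s → ℝ) (c : Z s) : ℝ := ∑ W, φ W * sg (W ⬝ᵥ c)

/-- the Walsh multiplier operator -/
noncomputable def Tm {s : ℕ} {E : Type*} [AddCommGroup E] [Module ℝ E]
    (φ : Z s → ℝ) (f : Z s → E) : Z s → E :=
  fun ε => avg fun η => ker φ (ε + η) • f η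

/-- `‖Tm φ‖ ≤ c` on `L₂(Z s; X)` -/
def OB (X : Type*) [NormedAddCommGroup X] [NormedSpace ℝ X] {s : ℕ} (φ : Z s → ℝ) (c : ℝ) : Prop :=
  ∀ f : Z s → X, n2 (Tm φ f) ≤ c * n2 f

/-- product multiplier `∏_{i ∈ W} l i` -/
noncomputable def pz {s : ℕ} (l : Fin s → ℝ) (W : Z s) : ℝ := ∏ i, if W i = 1 then l i else 1

end Crest.Agent.R118
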