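import Crest.Agent.R118.Basic

/-!
Duality on `L₂` of a finite set.
* `n2_le_of_dual`: test with `g a = ‖h a‖ • (norming functional)` (`exists_dual_vector''`):
  `n2 g ≤ n2 h` (`n2_mono`), `avg (g a (h a)) = (n2 h)^2`, so `(n2 h)^2 ≤ c * n2 h`.
* `n2_dual_le`: for `0 < t < 1` pick unit-ball vectors `v a` with `t * ‖g a‖ ≤ g a (v a)`
  (`ContinuousLinearMap.exists_lt_apply_of_lt_opNorm` / `opNorm` as a sup, change sign; if `g a = 0` take `0`),
  test with `f a = ‖g a‖ • v a`: `t * (n2 g)^2 ≤ c * n2 g`; let `t → 1` (`le_of_forall_lt_one_mul_le`-type argument).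
-/

set_option autoImplicit false

namespace Crest.Agent.R118

open Matrix Finset

variable {X : Type*} [NormedAddCommGroup X] [NormedSpace ℝ X]


theorem dual_exists_vec (l : StrongDual ℝ X) {t : ℝ} (ht0 : 0 ≤ t) (ht1 : t < 1) :
    ∃ v : X, ‖v‖ ≤ 1 ∧ t * ‖l‖ ≤ l v := by
  rcases (norm_nonneg l).eq_or_lt with h0 | h0
  · exact ⟨0, by simp, by simp [← h0]⟩
  · have hlt : t * ‖l‖ < ‖l‖ := by nlinarith
    obtain ⟨x, hx1, hx2⟩ := l.exists_lt_apply_of_lt_opNorm hlt
    rw [Real.norm_eq_abs] at hx2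
    rcases le_total 0 (l x) with h | h
    · exact ⟨x, hx1.le, by rw [abs_of_nonneg h] at hx2; exact hx2.le⟩
    · exact ⟨-x, by simpa using hx1.le, by
        rw [abs_of_nonpos h] at hx2; rw [map_neg]; exact hx2.le⟩

theorem n2_le_of_dual {α : Type*} [Fintype α] (h : α → X) {c : ℝ} (hc : 0 ≤ c)
    (H : ∀ g : α → StrongDual ℝ X, (avg fun a => g a (h a)) ≤ c * n2 g) : n2 h ≤ c := by
  choose l hl using fun a => exists_dual_vector'' ℝ (h a)
  have h1 := H fun a => ‖h a‖ • l a
  have h2 : (avg fun a => (‖h a‖ • l a) (h a)) = n2 h ^ 2 := by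
    rw [n2_sq]; congr 1; ext a
    have := (hl a).2
    simp only [ContinuousLinearMap.smul_apply, smul_eq_mul, this, RCLike.ofReal_real_eq_id, id]
    ring
  have h3 : n2 (fun a => ‖h a‖ • l a) ≤ n2 h := n2_mono fun a => by
    rw [norm_smul, norm_norm]
    exact mul_le_of_le_one_right (norm_nonneg _) (hl a).1
  rw [h2] at h1
  have h4 : n2 h ^ 2 ≤ c * n2 h := h1.trans (mul_le_mul_of_nonneg_left h3 hc)
  have h5 := n2_nonneg h
  by_contra hlt
  push Not at hlt
  nlinarith

theorem n2_dual_le {α : Type*} [Fintype α] (g : α → StrongDual ℝ X) {c : ℝ} (hc : 0 ≤ c)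
    (H : ∀ f : α → X, (avg fun a => g a (f a)) ≤ c * n2 f) : n2 g ≤ c := by
  have key : ∀ t : ℝ, 0 ≤ t → t < 1 → t * n2 g ≤ c := by
    intro t ht0 ht1
    choose v hv using fun a => dual_exists_vec (g a) ht0 ht1
    have h1 := H fun a => ‖g a‖ • v a
    have h2 : t * n2 g ^ 2 ≤ avg fun a => g a (‖g a‖ • v a) := by
      rw [n2_sq, ← avg_mul_left]
      refine avg_mono fun a => ?_
      rw [map_smul, smul_eq_mul]
      have := mul_le_mul_of_nonneg_left (hv a).2 (norm_nonneg (g a))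
      nlinarith
    have h3 : n2 (fun a => ‖g a‖ • v a) ≤ n2 g := n2_mono fun a => by
      rw [norm_smul, norm_norm]
      exact mul_le_of_le_one_right (norm_nonneg _) (hv a).1
    have h4 : t * n2 g ^ 2 ≤ c * n2 g := h2.trans (h1.trans (mul_le_mul_of_nonneg_left h3 hc))
    have h5 := n2_nonneg g
    rcases h5.eq_or_lt with h6 | h6
    · rw [← h6]; simpa using hc
    · by_contra hlt
      push Not at hlt
      nlinarith
  by_contra hlt
  push Not at hlt
  have hpos : 0 < n2 g := lt_of_le_of_lt hc hlt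
  have h1 := key ((c + n2 g) / (2 * n2 g)) (by positivity)
    (by rw [div_lt_one (by positivity)]; linarith)
  have h2 : (c + n2 g) / (2 * n2 g) * n2 g = (c + n2 g) / 2 := by field_simp
  rw [h2] at h1
  linarith

/-- trivial bound for the pairing -/
theorem abs_avg_pair_le {α : Type*} [Fintype α] (g : α → StrongDual ℝ X) (f : α → X) :
    |avg fun a => g a (f a)| ≤ n2 f * n2 g := by
  refine (abs_avg_le _).trans (le_trans (avg_mono fun a => ?_) (avg_norm_mul_le f g))
  rw [mul_comm]; exact (g a).le_opNorm (f a)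

end Crest.Agent.R118
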