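import Crest.Agent.R118.Basic

/-!
Walsh expansion of the test pairing.
`Φ s θ = ∑ A, sg (θ ⬝ A) • fc (Φ s) A` (`fc_inv`), same for `Ψ`; `(et E t) ⬝ᵥ A = p3 (eA m E A) t`,
`(bs b s) ⬝ᵥ S = p3 s (bS b S)`, `p3` is biadditive, `p3 (eA m E A) (bS b S) = ip (tens S A) (beta E b)`.
Substitute `s ↦ s + eA`, `t ↦ t + bS` (`avg_add_right`): with `e = eA`, `c = bS`,
`p3 (s+e) (t+c) + p3 e (t+c) + p3 (s+e) c = p3 s t + p3 e c` in characteristic 2.
`TT_expand0` follows from `TT_expand` and `fc_const` (only `A = 0` survives, `eA m E 0 = 0`, `tens S 0 = 0`).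
-/

set_option autoImplicit false

namespace Crest.Agent.R118

open Matrix Finset

variable {X : Type*} [NormedAddCommGroup X] [NormedSpace ℝ X]


theorem p3_add_left {n m k : ℕ} (s s' t : H n m k) : p3 (s + s') t = p3 s t + p3 s' t := by
  simp only [p3, Prod.fst_add, Prod.snd_add, add_dotProduct]; ring

theorem p3_add_right {n m k : ℕ} (s t t' : H n m k) : p3 s (t + t') = p3 s t + p3 s t' := by
  simp only [p3, Prod.fst_add, Prod.snd_add, dotProduct_add]; ring

theorem Expand_et {n m k : ℕ} (E : Fin n → Z k) (t : H n m k) (A : Z n) :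
    et E t ⬝ᵥ A = p3 (eA m E A) t := by
  simp only [p3, eA, zero_dotProduct, add_zero, sum_dotProduct, smul_dotProduct, smul_eq_mul]
  rw [dotProduct, dotProduct, ← sum_add_distrib]
  refine sum_congr rfl fun i _ => ?_
  simp only [et]; ring

theorem Expand_bs {n m k : ℕ} (b : Fin m → Z n × Z k) (s : H n m k) (S : Z m) :
    bs b s ⬝ᵥ S = p3 s (bS b S) := by
  simp only [p3, bS, dotProduct_sum, dotProduct_smul, smul_eq_mul]
  rw [dotProduct, dotProduct, ← sum_add_distrib, ← sum_add_distrib]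
  refine sum_congr rfl fun l _ => ?_
  simp only [bs]; ring

theorem Expand_ip {n m k : ℕ} (E : Fin n → Z k) (b : Fin m → Z n × Z k) (A : Z n) (S : Z m) :
    p3 (eA m E A) (bS b S) = ip (tens S A) (beta E b) := by
  rw [← Expand_bs, ip, dotProduct]
  refine sum_congr rfl fun l _ => ?_
  simp only [bs, eA, tens, smul_dotProduct, smul_eq_mul, Pi.zero_apply, add_zero, sum_dotProduct]
  rw [mul_comm]
  congr 1
  simp only [dotProduct, beta, mul_add, sum_add_distrib]

theorem Expand_char2 (a b c d : ZMod 2) :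
    (a + b + (c + d)) + (b + d) + (c + d) = d + a := by
  revert a b c d; decide

theorem TT_expand {n m k : ℕ} (u : X →L[ℝ] X) (Φ : H n m k → Z n → X)
    (Ψ : H n m k → Z m → StrongDual ℝ X) (E : Fin n → Z k) (b : Fin m → Z n × Z k)
    (μ : Z n) (η : Z m) :
    TT u Φ Ψ E b μ η = ∑ A, ∑ S, sg (μ ⬝ᵥ A) * sg (η ⬝ᵥ S) * sg (ip (tens S A) (beta E b)) *
      Gam u Φ Ψ E b A S := by
  have h1 : ∀ s t : H n m k, sg (p3 s t) * Ψ t (η + bs b s) (u (Φ s (μ + et E t))) =
      ∑ A, ∑ S, sg (μ ⬝ᵥ A) * sg (η ⬝ᵥ S) *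
        (sg (p3 s t + p3 (eA m E A) t + p3 s (bS b S)) * fc (Ψ t) S (u (fc (Φ s) A))) := by
    intro s t
    rw [← fc_inv (Φ s) (μ + et E t), ← fc_inv (Ψ t) (η + bs b s)]
    simp only [map_sum, map_smul, ContinuousLinearMap.sum_apply, ContinuousLinearMap.smul_apply,
      smul_eq_mul, mul_sum, add_dotProduct, Expand_et, Expand_bs, sg_add]
    refine sum_congr rfl fun A _ => sum_congr rfl fun S _ => ?_
    ring
  simp only [TT, h1, avg_sum, avg_mul_left]
  refine sum_congr rfl fun A _ => sum_congr rfl fun S _ => ?_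
  rw [mul_assoc (sg (μ ⬝ᵥ A) * sg (η ⬝ᵥ S))]
  congr 1
  rw [Gam, had, ← avg_mul_left, ← avg_add_right _ (eA m E A)]
  congr 1; ext s
  rw [← avg_mul_left, ← avg_add_right _ (bS b S)]
  congr 1; ext t
  rw [← mul_assoc, ← sg_add, ← Expand_ip]
  simp only [p3_add_left, p3_add_right]
  rw [Expand_char2]

theorem TT_expand0 {n m k : ℕ} (u : X →L[ℝ] X) (x : H n m k → X)
    (Ψ : H n m k → Z m → StrongDual ℝ X) (E : Fin n → Z k) (b : Fin m → Z n × Z k)
    (μ : Z n) (η : Z m) :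
    TT u (fun s _ => x s) Ψ E b μ η =
      ∑ S, sg (η ⬝ᵥ S) * had p3 u x (fun t => fc (Ψ (t + bS b S)) S) := by
  rw [TT_expand, sum_eq_single 0]
  · refine sum_congr rfl fun S _ => ?_
    have h0 : eA m E 0 = 0 := by simp [eA]
    have h1 : ip (tens S (0 : Z n)) (beta E b) = 0 := by simp [ip, tens]
    simp [Gam, fc_const, h0, h1]
  · intro A _ hA
    refine sum_eq_zero fun S _ => ?_
    simp [Gam, fc_const, hA, had, avg_zero]
  · simp

end Crest.Agent.R118
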