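import Crest.Agent.R118.Basic

/-!
Rigidity: a nontrivial character of the twist matrix costs a Hadamard pairing of double rank.
Pick `l₀, i₀` with `γ l₀ i₀ = 1`.  By translation invariance (`avg_add_right`, `avg_const`, `avg_comm`)
`avg_E avg_b f E b = avg_E avg_b avg_{e : Z k} avg_{d : Z k} f (E + Pi.single i₀ e) (b + Pi.single l₀ (0, d))`.
With `E' = E + single i₀ e`, `b' = b + single l₀ (0,d)`:
`ip γ (beta E' b') = c₀ + c₁ e + c₂ d + e ⬝ᵥ d` where `c₁ e = ∑ l, γ l i₀ * (e ⬝ᵥ (b l).2)` depends only on `e` and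
`c₀ + c₂ d = ip γ (beta E b')` only on `d`.  So for fixed `E, b` the inner average is `had p4 u x'' y''` with
`x'' (s, e) = sg (c₁ e) • fc (Φ E' (s + eA m E' A)) A ∈ V`, `y'' (t, d) = sg (ip γ (beta E b')) • fc (Ψ b' (t + bS b' S)) S`.
For each fixed `e`: `avg_s ‖fc (Φ E' (s + _)) A‖² ≤ avg_s (n2 (Φ E' s))² ≤ Λ²` (`norm_fc_le`, `avg_add_right`, `n2_prod`), so `n2 x'' ≤ Λ`,
likewise `n2 y'' ≤ Λ'`; finish with `abs_avg_le_of_le`.
-/

set_option autoImplicit false
set_option maxHeartbeats 400000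

namespace Crest.Agent.R118

open Matrix Finset

variable {X : Type*} [NormedAddCommGroup X] [NormedSpace ℝ X]



theorem rigid_congr {α Y : Type*} [Fintype α] [AddCommGroup Y] [Module ℝ Y] {f g : α → Y}
    (h : ∀ a, f a = g a) : avg f = avg g := congrArg avg (funext h)

theorem rigid_shift {α β γ δ : Type*} [Fintype α] [Fintype β] [Fintype γ] [Fintype δ]
    [AddCommGroup α] [AddCommGroup β] [Nonempty γ] [Nonempty δ] (f : α → β → ℝ)
    (c : γ → α) (c' : δ → β) :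
    (avg fun E => avg fun b => f E b) =
      avg fun E => avg fun b => avg fun e => avg fun d => f (E + c e) (b + c' d) := by
  have e2 : ∀ e d, (avg fun E => avg fun b => f (E + c e) (b + c' d)) =
      avg fun E => avg fun b => f E b := by
    intro e d
    rw [← avg_add_right (fun E => avg fun b => f E b) (c e)]
    exact rigid_congr fun E => avg_add_right (fun b => f (E + c e) b) _
  calc (avg fun E => avg fun b => f E b)
      = avg fun e => avg fun d => avg fun E => avg fun b => f (E + c e) (b + c' d) := by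
        simp only [e2, avg_const]
    _ = avg fun e => avg fun E => avg fun b => avg fun d => f (E + c e) (b + c' d) := by
        refine rigid_congr fun e => ?_
        rw [avg_comm]
        refine rigid_congr fun E => ?_
        rw [avg_comm]
    _ = _ := by
        rw [avg_comm]
        refine rigid_congr fun E => ?_
        rw [avg_comm]

theorem rigid_four {α β γ δ : Type*} [Fintype α] [Fintype β] [Fintype γ] [Fintype δ]
    (g : α × γ → β × δ → ℝ) :
    (avg fun p => avg fun q => g p q) =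
      avg fun e => avg fun d => avg fun s => avg fun t => g (s, e) (t, d) := by
  rw [avg_prod, avg_comm]
  refine rigid_congr fun e => ?_
  rw [avg_comm (fun d s => avg fun t => g (s, e) (t, d))]
  refine rigid_congr fun s => ?_
  rw [avg_prod, avg_comm]

theorem rigid_ip {n m k : ℕ} (γ : Fin m → Z n) (l₀ : Fin m) (i₀ : Fin n) (h : γ l₀ i₀ = 1)
    (E : Fin n → Z k) (b : Fin m → Z n × Z k) (e d : Z k) :
    ip γ (beta (E + Pi.single i₀ e) (b + Pi.single l₀ ((0 : Z n), d))) =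
      ip γ (beta E (b + Pi.single l₀ ((0 : Z n), d))) + (∑ l, γ l i₀ * (e ⬝ᵥ (b l).2)) + e ⬝ᵥ d := by
  have h1 : ∀ l, γ l ⬝ᵥ beta (E + Pi.single i₀ e) (b + Pi.single l₀ ((0 : Z n), d)) l =
      γ l ⬝ᵥ beta E (b + Pi.single l₀ ((0 : Z n), d)) l +
        γ l i₀ * (e ⬝ᵥ ((b + Pi.single l₀ ((0 : Z n), d) : Fin m → Z n × Z k) l).2) := by
    intro l
    have h2 : beta (E + Pi.single i₀ e) (b + Pi.single l₀ ((0 : Z n), d)) l =
        beta E (b + Pi.single l₀ ((0 : Z n), d)) l +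
          Pi.single i₀ (e ⬝ᵥ ((b + Pi.single l₀ ((0 : Z n), d) : Fin m → Z n × Z k) l).2) := by
      ext i
      by_cases hi : i = i₀
      · subst hi
        simp only [beta, Pi.add_apply, Pi.single_eq_same, add_dotProduct]
        ring
      · simp only [beta, Pi.add_apply, Pi.single_eq_of_ne hi, add_zero]
    rw [h2, dotProduct_add, dotProduct_single]
  have h3 : ∀ l, γ l i₀ * (e ⬝ᵥ ((b + Pi.single l₀ ((0 : Z n), d) : Fin m → Z n × Z k) l).2) =
      γ l i₀ * (e ⬝ᵥ (b l).2) + if l = l₀ then e ⬝ᵥ d else 0 := by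
    intro l
    by_cases hl : l = l₀
    · subst hl
      simp only [Pi.add_apply, Pi.single_eq_same, Prod.snd_add, dotProduct_add, h, one_mul, if_true]
    · simp only [Pi.add_apply, Pi.single_eq_of_ne hl, add_zero, hl, if_false]
  simp only [ip, h1, h3, sum_add_distrib, sum_ite_eq', mem_univ, if_true]
  ring

theorem rigid_n2 {α β Y : Type*} [Fintype α] [Fintype β] [Nonempty β] [AddCommGroup α]
    [NormedAddCommGroup Y] [NormedSpace ℝ Y] {n : ℕ} (F : β → α → Z n → Y) (c : β → α)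
    (z : β → ZMod 2) (A : Z n) {Λ : ℝ} (hΛ : ∀ e, n2 (fun p : α × Z n => F e p.1 p.2) ≤ Λ) :
    n2 (fun p : α × β => sg (z p.2) • fc (F p.2 (p.1 + c p.2)) A) ≤ Λ := by
  obtain ⟨e₀⟩ := ‹Nonempty β›
  have hΛ0 : 0 ≤ Λ := (n2_nonneg _).trans (hΛ e₀)
  apply n2_le_of_sq_le hΛ0
  rw [avg_prod, avg_comm]
  refine (avg_mono (g := fun _ => Λ ^ 2) fun e => ?_).trans (avg_const _).le
  simp only [norm_sg_smul]
  rw [avg_add_right (fun s => ‖fc (F e s) A‖ ^ 2) (c e)]
  have h1 : (avg fun s => ‖fc (F e s) A‖ ^ 2) ≤ avg fun s => n2 (F e s) ^ 2 :=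
    avg_mono fun s => pow_le_pow_left₀ (norm_nonneg _) (norm_fc_le _ _) 2
  refine h1.trans ?_
  have h2 := pow_le_pow_left₀ (n2_nonneg _) (hΛ e) 2
  rw [n2_sq, avg_prod] at h2
  simp only [n2_sq]
  exact h2

theorem rigid {n m k : ℕ} (u : X →L[ℝ] X) {V : Set X} (hV : ∀ v ∈ V, -v ∈ V) {M : ℝ}
    (hM : 0 ≤ M) (hW : WB (p4 (n := n) (m := m) (k := k)) u V M)
    (Φ : (Fin n → Z k) → H n m k → Z n → X)
    (Ψ : (Fin m → Z n × Z k) → H n m k → Z m → StrongDual ℝ X)
    (hΦ : ∀ E s A, fc (Φ E s) A ∈ V) {Λ Λ' : ℝ}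
    (hΛ : ∀ E, n2 (fun z : H n m k × Z n => Φ E z.1 z.2) ≤ Λ)
    (hΛ' : ∀ b, n2 (fun z : H n m k × Z m => Ψ b z.1 z.2) ≤ Λ')
    (γ : Fin m → Z n) (hγ : γ ≠ 0) (A : Z n) (S : Z m) :
    |avg fun E => avg fun b => sg (ip γ (beta E b)) * Gam u (Φ E) (Ψ b) E b A S| ≤ M * Λ * Λ' := by
  obtain ⟨l₀, hl⟩ := Function.ne_iff.mp hγ
  obtain ⟨i₀, hi⟩ := Function.ne_iff.mp hl
  have h1 : γ l₀ i₀ = 1 := (zmod2_cases _).resolve_left hi
  have hΛ0 : 0 ≤ Λ := (n2_nonneg _).trans (hΛ 0)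
  have hΛ0' : 0 ≤ Λ' := (n2_nonneg _).trans (hΛ' 0)
  rw [rigid_shift (fun E b => sg (ip γ (beta E b)) * Gam u (Φ E) (Ψ b) E b A S)
    (fun e : Z k => (Pi.single i₀ e : Fin n → Z k))
    (fun d : Z k => (Pi.single l₀ ((0 : Z n), d) : Fin m → Z n × Z k))]
  refine abs_avg_le_of_le fun E => abs_avg_le_of_le fun b => ?_
  obtain ⟨x, hx⟩ : ∃ x : H n m k × Z k → X, x = fun p => sg (∑ l, γ l i₀ * (p.2 ⬝ᵥ (b l).2)) •
    fc (Φ (E + Pi.single i₀ p.2) (p.1 + eA m (E + Pi.single i₀ p.2) A)) A := ⟨_, rfl⟩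
  obtain ⟨y, hy⟩ : ∃ y : H n m k × Z k → StrongDual ℝ X, y = fun p =>
    sg (ip γ (beta E (b + Pi.single l₀ ((0 : Z n), p.2)))) •
      fc (Ψ (b + Pi.single l₀ ((0 : Z n), p.2))
        (p.1 + bS (b + Pi.single l₀ ((0 : Z n), p.2)) S)) S := ⟨_, rfl⟩
  have e3 : (avg fun e : Z k => avg fun d : Z k =>
        sg (ip γ (beta (E + Pi.single i₀ e) (b + Pi.single l₀ ((0 : Z n), d)))) *
          Gam u (Φ (E + Pi.single i₀ e)) (Ψ (b + Pi.single l₀ ((0 : Z n), d)))
            (E + Pi.single i₀ e) (b + Pi.single l₀ ((0 : Z n), d)) A S) = had p4 u x y := by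
    rw [had, rigid_four]
    refine rigid_congr fun e => rigid_congr fun d => ?_
    rw [Gam, had, ← avg_mul_left]
    refine rigid_congr fun s => ?_
    rw [← avg_mul_left]
    refine rigid_congr fun t => ?_
    rw [rigid_ip γ l₀ i₀ h1, hx, hy]
    simp only [p4, sg_add, map_smul, ContinuousLinearMap.smul_apply, smul_eq_mul]
    ring
  rw [e3]
  have hxV : ∀ p, x p ∈ V := fun p => by
    rw [hx]; exact sg_smul_mem hV _ (hΦ _ _ _)
  have hx2 : n2 x ≤ Λ := by
    have := rigid_n2 (α := H n m k) (fun e : Z k => Φ (E + Pi.single i₀ e))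
      (fun e => eA m (E + Pi.single i₀ e) A)
      (fun e => ∑ l, γ l i₀ * (e ⬝ᵥ (b l).2)) A (Λ := Λ) (fun e => by exact hΛ _)
    rw [hx]
    exact this
  have hy2 : n2 y ≤ Λ' := by
    have := rigid_n2 (α := H n m k) (fun d : Z k => Ψ (b + Pi.single l₀ ((0 : Z n), d)))
      (fun d => bS (b + Pi.single l₀ ((0 : Z n), d)) S)
      (fun d => ip γ (beta E (b + Pi.single l₀ ((0 : Z n), d)))) S
      (Λ := Λ') (fun d => by exact hΛ' _)
    rw [hy]
    exact this
  refine (hW x y hxV).trans ?_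
  exact mul_le_mul (mul_le_mul_of_nonneg_left hx2 hM) hy2 (n2_nonneg _) (mul_nonneg hM hΛ0)

end Crest.Agent.R118
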