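import Crest.Agent.R118.MainB
import Crest.Agent.R118.Expand
import Crest.Agent.R118.Rigid

/-!
The ideal test bound.  Let `ind E b = if beta E b = β then 2^(m n) else 0 = ∑ γ, sg (ip γ (beta E b)) * sg (ip γ β)`
(`sum_sg_ip` applied to `beta E b + β`; `ip` additive).  For fixed `E`, `avg_b ind E b = 1`
(translate `b` by `fun l => (c l, 0)` and average over `c`, or use the equivalence
`b ↦ fun l => (beta E b l, (b l).2)` of `Fin m → Z n × Z k` with itself).
`J = avg_E avg_b (ind E b * TT u (Φ E) (Ψ b) E b μ η)` has `|J| ≤ M₁ Λ Λ'` (`TT_bound`).  By `TT_expand`, on the event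
`beta E b = β`, `J = ∑_{A,S} sign(A,S) ∑_γ sg (ip γ β) avg_E avg_b (sg (ip γ (beta E b)) Gam)`, where
`sign(A,S) = sg (μ ⬝ A) sg (η ⬝ S) sg (ip (tens S A) β)`; the `γ = 0` terms give the left side, the other
(at most `2^n 2^m 2^(m n)`) terms are bounded by `rigid`.
-/

set_option autoImplicit false
set_option linter.unusedSectionVars false

namespace Crest.Agent.R118

open Matrix Finset

variable {X : Type*} [NormedAddCommGroup X] [NormedSpace ℝ X]


theorem ideal_ip_add {n m : ℕ} (γ β β' : Fin m → Z n) : ip γ (β + β') = ip γ β + ip γ β' := by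
  simp only [ip, Pi.add_apply, dotProduct_add, sum_add_distrib]

theorem ideal_ip_zero {n m : ℕ} (β : Fin m → Z n) : ip (0 : Fin m → Z n) β = 0 := by
  simp [ip]

theorem ideal_add_eq_zero {n m : ℕ} (β' β : Fin m → Z n) : β' + β = 0 ↔ β' = β := by
  have h2 : ∀ x : Fin m → Z n, x + x = 0 := fun x => by
    funext l; exact Z_add_self _
  constructor
  · intro h
    have : β' + β + β = β := by rw [h, zero_add]
    rwa [add_assoc, h2, add_zero] at this
  · rintro rfl; exact h2 _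

theorem ideal_ind {n m : ℕ} (β' β : Fin m → Z n) :
    ∑ γ : Fin m → Z n, sg (ip γ β') * sg (ip γ β) = if β' = β then (2 : ℝ) ^ (m * n) else 0 := by
  simp only [← sg_add, ← ideal_ip_add, sum_sg_ip, ideal_add_eq_zero]

theorem ideal_card {n m : ℕ} : Fintype.card (Fin m → Z n) = 2 ^ (m * n) := by
  rw [Fintype.card_fun, card_Z, Fintype.card_fin, ← pow_mul, mul_comm]

theorem ideal_avg_c {n m : ℕ} (β' β : Fin m → Z n) :
    (avg fun c : Fin m → Z n => if β' + c = β then (2 : ℝ) ^ (m * n) else 0) = 1 := by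
  rw [avg_add_left (fun c : Fin m → Z n => if c = β then (2 : ℝ) ^ (m * n) else 0) β']
  simp only [avg, sum_ite_eq', mem_univ, if_true, ideal_card, smul_eq_mul]
  push_cast
  exact inv_mul_cancel₀ (by positivity)

theorem ideal_avg_ind {n m k : ℕ} (E : Fin n → Z k) (β : Fin m → Z n) :
    (avg fun b : Fin m → Z n × Z k => if beta E b = β then (2 : ℝ) ^ (m * n) else 0) = 1 := by
  have h1 : ∀ c : Fin m → Z n,
      (avg fun b : Fin m → Z n × Z k => if beta E b = β then (2 : ℝ) ^ (m * n) else 0) =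
      avg fun b : Fin m → Z n × Z k => if beta E b + c = β then (2 : ℝ) ^ (m * n) else 0 := by
    intro c
    rw [← avg_add_right (fun b : Fin m → Z n × Z k => if beta E b = β then (2 : ℝ) ^ (m * n) else 0)
      (fun l => (c l, 0))]
    congr 1; funext b
    have : beta E (b + fun l => (c l, (0 : Z k))) = beta E b + c := by
      funext l i
      simp only [beta, Pi.add_apply, Prod.fst_add, Prod.snd_add, add_zero]
      ring
    rw [this]
  calc _ = avg fun c : Fin m → Z n => avg fun b : Fin m → Z n × Z k =>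
        if beta E b + c = β then (2 : ℝ) ^ (m * n) else 0 := by
        simp only [← h1]; rw [avg_const]
    _ = avg fun b : Fin m → Z n × Z k => avg fun c : Fin m → Z n =>
        if beta E b + c = β then (2 : ℝ) ^ (m * n) else 0 := avg_comm _
    _ = 1 := by simp only [ideal_avg_c]; rw [avg_const]

theorem ideal {n m k : ℕ} (u : X →L[ℝ] X) {V : Set X} (hV : ∀ v ∈ V, -v ∈ V) {M₁ M₂ : ℝ}
    (hM₁ : 0 ≤ M₁) (hM₂ : 0 ≤ M₂) (hW₁ : WB (pk k) u V M₁)
    (hW₂ : WB (p4 (n := n) (m := m) (k := k)) u V M₂)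
    (Φ : (Fin n → Z k) → H n m k → Z n → X)
    (Ψ : (Fin m → Z n × Z k) → H n m k → Z m → StrongDual ℝ X)
    (hΦ₁ : ∀ E s θ, Φ E s θ ∈ V) (hΦ₂ : ∀ E s A, fc (Φ E s) A ∈ V) {Λ Λ' : ℝ}
    (hΛ : ∀ E, n2 (fun z : H n m k × Z n => Φ E z.1 z.2) ≤ Λ)
    (hΛ' : ∀ b, n2 (fun z : H n m k × Z m => Ψ b z.1 z.2) ≤ Λ')
    (β : Fin m → Z n) (μ : Z n) (η : Z m) :
    |∑ A, ∑ S, sg (μ ⬝ᵥ A) * sg (η ⬝ᵥ S) * sg (ip (tens S A) β) *
        avg fun E => avg fun b => Gam u (Φ E) (Ψ b) E b A S| ≤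
      (M₁ + 2 ^ (n + m + m * n) * M₂) * Λ * Λ' := by
  classical
  have hΛ0 : 0 ≤ Λ := (n2_nonneg _).trans (hΛ 0)
  have hΛ0' : 0 ≤ Λ' := (n2_nonneg _).trans (hΛ' 0)
  set ind : (Fin n → Z k) → (Fin m → Z n × Z k) → ℝ :=
    fun E b => if beta E b = β then (2 : ℝ) ^ (m * n) else 0 with hind
  set sgn : Z n → Z m → ℝ :=
    fun A S => sg (μ ⬝ᵥ A) * sg (η ⬝ᵥ S) * sg (ip (tens S A) β) with hsgn
  set R : (Fin m → Z n) → Z n → Z m → ℝ := fun γ A S =>
    avg fun E => avg fun b => sg (ip γ (beta E b)) * Gam u (Φ E) (Ψ b) E b A S with hR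
  set J : ℝ := avg fun E => avg fun b => ind E b * TT u (Φ E) (Ψ b) E b μ η with hJ
  have hJ1 : |J| ≤ M₁ * Λ * Λ' := by
    refine abs_avg_le_of_le fun E => ?_
    refine (abs_avg_le _).trans ?_
    have h1 : ∀ b, |ind E b * TT u (Φ E) (Ψ b) E b μ η| ≤ ind E b * (M₁ * Λ * Λ') := by
      intro b
      have hi : 0 ≤ ind E b := by
        simp only [hind]; split_ifs <;> positivity
      rw [abs_mul, abs_of_nonneg hi]
      refine mul_le_mul_of_nonneg_left ?_ hi
      refine (TT_bound u hV hM₁ hW₁ (Φ E) (Ψ b) (hΦ₁ E) E b μ η).trans ?_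
      exact mul_le_mul (mul_le_mul_of_nonneg_left (hΛ E) hM₁) (hΛ' b) (n2_nonneg _)
        (mul_nonneg hM₁ hΛ0)
    refine (avg_mono h1).trans ?_
    rw [avg_mul_right, ideal_avg_ind, one_mul]
  have hpt : ∀ E b, ind E b * TT u (Φ E) (Ψ b) E b μ η =
      ∑ A, ∑ S, ∑ γ : Fin m → Z n, (sgn A S * sg (ip γ β)) *
        (sg (ip γ (beta E b)) * Gam u (Φ E) (Ψ b) E b A S) := by
    intro E b
    rw [TT_expand, mul_sum]
    refine sum_congr rfl fun A _ => ?_
    rw [mul_sum]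
    refine sum_congr rfl fun S _ => ?_
    have h2 : ∑ γ : Fin m → Z n, (sgn A S * sg (ip γ β)) *
        (sg (ip γ (beta E b)) * Gam u (Φ E) (Ψ b) E b A S) =
        (∑ γ : Fin m → Z n, sg (ip γ (beta E b)) * sg (ip γ β)) *
          (sgn A S * Gam u (Φ E) (Ψ b) E b A S) := by
      rw [sum_mul]
      exact sum_congr rfl fun γ _ => by ring
    rw [h2, ideal_ind]
    simp only [hind, hsgn]
    split_ifs with h
    · rw [h]
    · simp
  have hJ2 : J = ∑ A, ∑ S, ∑ γ : Fin m → Z n, (sgn A S * sg (ip γ β)) * R γ A S := by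
    simp only [hJ, hpt, avg_sum, avg_mul_left, hR]
  have hsplit : ∀ A S, ∑ γ : Fin m → Z n, (sgn A S * sg (ip γ β)) * R γ A S =
      sgn A S * (avg fun E => avg fun b => Gam u (Φ E) (Ψ b) E b A S) +
        ∑ γ ∈ (univ : Finset (Fin m → Z n)).erase 0, (sgn A S * sg (ip γ β)) * R γ A S := by
    intro A S
    rw [← add_sum_erase _ _ (mem_univ (0 : Fin m → Z n))]
    simp only [hR, ideal_ip_zero, sg_zero, one_mul, mul_one]
  have hrest : ∀ A S, |∑ γ ∈ (univ : Finset (Fin m → Z n)).erase 0,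
      (sgn A S * sg (ip γ β)) * R γ A S| ≤ 2 ^ (m * n) * (M₂ * Λ * Λ') := by
    intro A S
    refine (abs_sum_le_sum_abs _ _).trans ?_
    have h3 : ∀ γ ∈ (univ : Finset (Fin m → Z n)).erase 0,
        |(sgn A S * sg (ip γ β)) * R γ A S| ≤ M₂ * Λ * Λ' := by
      intro γ hγ
      have := rigid u hV hM₂ hW₂ Φ Ψ hΦ₂ hΛ hΛ' γ (ne_of_mem_erase hγ) A S
      simp only [hsgn, abs_mul, abs_sg, one_mul]
      exact this
    refine (sum_le_card_nsmul _ _ _ h3).trans ?_
    rw [nsmul_eq_mul]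
    refine mul_le_mul_of_nonneg_right ?_ (by positivity)
    have h4 : ((univ : Finset (Fin m → Z n)).erase 0).card ≤ 2 ^ (m * n) := by
      rw [← ideal_card, ← card_univ]; exact card_erase_le
    exact_mod_cast h4
  have hmain : (∑ A, ∑ S, sgn A S * avg fun E => avg fun b => Gam u (Φ E) (Ψ b) E b A S) =
      J - ∑ A, ∑ S, ∑ γ ∈ (univ : Finset (Fin m → Z n)).erase 0,
        (sgn A S * sg (ip γ β)) * R γ A S := by
    rw [hJ2]
    simp only [hsplit, sum_add_distrib]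
    ring
  have hrest2 : |∑ A, ∑ S, ∑ γ ∈ (univ : Finset (Fin m → Z n)).erase 0,
      (sgn A S * sg (ip γ β)) * R γ A S| ≤ 2 ^ n * (2 ^ m * (2 ^ (m * n) * (M₂ * Λ * Λ'))) := by
    refine (abs_sum_le_sum_abs _ _).trans ?_
    have h5 : ∀ A ∈ (univ : Finset (Z n)), |∑ S, ∑ γ ∈ (univ : Finset (Fin m → Z n)).erase 0,
        (sgn A S * sg (ip γ β)) * R γ A S| ≤ 2 ^ m * (2 ^ (m * n) * (M₂ * Λ * Λ')) := by
      intro A _
      refine (abs_sum_le_sum_abs _ _).trans ?_
      refine (sum_le_card_nsmul _ _ _ fun S _ => hrest A S).trans ?_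
      rw [nsmul_eq_mul, card_univ, card_Z]
      push_cast
      exact le_rfl
    refine (sum_le_card_nsmul _ _ _ h5).trans ?_
    rw [nsmul_eq_mul, card_univ, card_Z]
    push_cast
    exact le_rfl
  change |∑ A, ∑ S, sgn A S * avg fun E => avg fun b => Gam u (Φ E) (Ψ b) E b A S| ≤ _
  rw [hmain]
  refine (abs_sub _ _).trans ?_
  refine (add_le_add hJ1 hrest2).trans (le_of_eq ?_)
  rw [pow_add, pow_add]
  ring

end Crest.Agent.R118
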