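import Crest.Agent.R118.Basic

/-!
Probability weights realising the test parameters.
* `wts_eta`: `P η = ∏ l, (1 + w * sg (η l)) / 2`; `∑_η P η sg (η ⬝ S) = ∏_l (if S l = 1 then w else 1) = w ^ wt S`
  (`Finset.prod_univ_sum`, `sum_zmod2`, `sg_sum`).
* `wts_col`: with `a = (1 + e^{iτ})/2`, `b = (1 - e^{iτ})/2`, `c β = (1/2) Im (e^{iθ} ∏_l (if β l = 0 then a else b))`:
  `∑_β c β sg (β ⬝ S) = (1/2) Im (e^{iθ} ∏_l (a + b sg (S l))) = sin (θ + wt S τ) / 2`, and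
  `∑ |c β| ≤ (‖a‖ + ‖b‖)^m / 2 ≤ (1 + |τ|/2)^m / 2 ≤ exp (m|τ|/2) / 2 ≤ 1` (`Complex.norm_exp_I_mul_ofReal_sub_one_le`,
  `Real.add_one_le_exp`, `exp (1/2) ≤ 2`).  Then `π (β, z) = (2^{-m} (1 - ∑|c|) + |c β| + sg z * c β) / 2`.
* `wts_mat`: product of `n` independent copies: `P (β, μ) = ∏ i, π (fun l => β l i, μ i)`; use the equivalence
  `(Fin m → Z n) × Z n ≃ (Fin n → Z m × ZMod 2)`, and
  `sg (μ ⬝ A) sg (ip (tens S A) β) = ∏ i, (if A i = 1 then sg (μ i) * sg ((fun l => β l i) ⬝ S) else 1)`.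
-/

set_option autoImplicit false

namespace Crest.Agent.R118

open Matrix Finset

theorem wts_prod_ite {M : Type*} [CommMonoid M] {m : ℕ} (S : Z m) (w : M) :
    ∏ l, (if S l = 1 then w else 1) = w ^ wt S := by
  rw [← Finset.prod_filter, Finset.prod_const, wt]

theorem wts_wt_zero (m : ℕ) : wt (0 : Z m) = 0 := by
  simp [wt]

theorem wts_eta (m : ℕ) {w : ℝ} (hw : |w| ≤ 1) :
    ∃ P : Z m → ℝ, (∀ η, 0 ≤ P η) ∧ ∑ η, P η = 1 ∧ ∀ S : Z m, ∑ η, P η * sg (η ⬝ᵥ S) = w ^ wt S := by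
  have key : ∀ S : Z m, ∑ η : Z m, (∏ l, (1 + w * sg (η l)) / 2) * sg (η ⬝ᵥ S) = w ^ wt S := by
    intro S
    have h1 : ∑ η : Z m, (∏ l, (1 + w * sg (η l)) / 2) * sg (η ⬝ᵥ S) =
        ∏ l, ∑ z : ZMod 2, (1 + w * sg z) / 2 * sg (z * S l) := by
      rw [Finset.prod_univ_sum]
      simp only [dotProduct, sg_sum, Fintype.piFinset_univ, Finset.prod_mul_distrib]
    rw [h1, ← wts_prod_ite]
    refine Finset.prod_congr rfl fun l _ => ?_
    rw [sum_zmod2]
    rcases zmod2_cases (S l) with h0 | h0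
    · simp [h0]; ring
    · simp [h0]; ring
  refine ⟨fun η => ∏ l, (1 + w * sg (η l)) / 2, fun η => ?_, ?_, key⟩
  · refine Finset.prod_nonneg fun l _ => ?_
    have := abs_le.mp hw
    rcases sg_cases (η l) with h | h <;> rw [h] <;> linarith [this.1, this.2]
  · have := key 0
    simpa [wts_wt_zero] using this

theorem wts_col_c (m : ℕ) (θ τ : ℝ) (hτ : m * |τ| ≤ 1) :
    ∃ c : Z m → ℝ, ∑ β, |c β| ≤ 1 ∧
      ∀ S : Z m, ∑ β, c β * sg (β ⬝ᵥ S) = Real.sin (θ + wt S * τ) / 2 := by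
  set e : ℂ := Complex.exp (Complex.I * τ) with he
  set a : ℂ := (1 + e) / 2 with ha
  set b : ℂ := (1 - e) / 2 with hb
  set g : ZMod 2 → ℂ := fun z => if z = 0 then a else b with hg
  refine ⟨fun β => (Complex.exp (θ * Complex.I) * ∏ l, g (β l)).im / 2, ?_, fun S => ?_⟩
  · have hna : ‖a‖ ≤ 1 := by
      have h1 : ‖e‖ = 1 := by rw [he, mul_comm]; exact Complex.norm_exp_ofReal_mul_I τ
      have h2 : ‖1 + e‖ ≤ 2 := by
        have := norm_add_le (1 : ℂ) e
        rw [h1, norm_one] at this; linarith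
      rw [ha, norm_div]; simp only [Complex.norm_ofNat]; linarith
    have hnb : ‖b‖ ≤ |τ| / 2 := by
      have h1 : ‖e - 1‖ ≤ ‖τ‖ := Real.norm_exp_I_mul_ofReal_sub_one_le
      rw [hb, norm_div, norm_sub_rev]; simp only [Complex.norm_ofNat]
      rw [Real.norm_eq_abs] at h1; linarith
    have h1 : ∀ β : Z m, |(Complex.exp (θ * Complex.I) * ∏ l, g (β l)).im / 2| ≤
        (∏ l, ‖g (β l)‖) / 2 := by
      intro β
      rw [abs_div, abs_two]
      refine div_le_div_of_nonneg_right ?_ (by norm_num)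
      refine (Complex.abs_im_le_norm _).trans ?_
      rw [norm_mul, Complex.norm_exp_ofReal_mul_I, one_mul, norm_prod]
    refine (Finset.sum_le_sum fun β _ => h1 β).trans ?_
    rw [← Finset.sum_div]
    have h2 : ∑ β : Z m, ∏ l, ‖g (β l)‖ = ∏ _l : Fin m, ∑ z : ZMod 2, ‖g z‖ := by
      rw [Finset.prod_univ_sum]
      simp only [Fintype.piFinset_univ]
    rw [h2, sum_zmod2, Finset.prod_const, Finset.card_univ, Fintype.card_fin]
    have h3 : ‖g 0‖ + ‖g 1‖ ≤ Real.exp (|τ| / 2) := by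
      have := Real.add_one_le_exp (|τ| / 2)
      have h0 : g 0 = a := by simp [hg]
      have h1' : g 1 = b := by simp [hg]
      rw [h0, h1']; linarith
    have h4 : (‖g 0‖ + ‖g 1‖) ^ m ≤ Real.exp (|τ| / 2) ^ m :=
      pow_le_pow_left₀ (by positivity) h3 m
    have h5 : Real.exp (|τ| / 2) ^ m ≤ Real.exp (1 / 2) := by
      rw [← Real.exp_nat_mul]; apply Real.exp_le_exp.mpr; linarith
    have h6 : Real.exp (1 / 2) ≤ 2 := by
      have h7 : Real.exp (1 / 2) ^ 2 = Real.exp 1 := by rw [← Real.exp_nat_mul]; norm_num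
      have h8 := Real.exp_one_lt_d9
      have h9 := Real.exp_pos (1 / 2)
      nlinarith
    linarith
  · have h1 : ∑ β : Z m, (∏ l, g (β l)) * (sg (β ⬝ᵥ S) : ℂ) =
        ∏ l, ∑ z : ZMod 2, g z * (sg (z * S l) : ℂ) := by
      rw [Finset.prod_univ_sum]
      simp only [dotProduct, sg_sum, Fintype.piFinset_univ, Finset.prod_mul_distrib,
        Complex.ofReal_prod]
    have h2 : ∏ l, ∑ z : ZMod 2, g z * (sg (z * S l) : ℂ) = e ^ wt S := by
      rw [← wts_prod_ite]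
      refine Finset.prod_congr rfl fun l _ => ?_
      rw [sum_zmod2]
      rcases zmod2_cases (S l) with h0 | h0
      · simp [h0, hg, ha, hb]; ring
      · simp [h0, hg, ha, hb]; ring
    have h3 : Complex.exp (θ * Complex.I) * e ^ wt S =
        Complex.exp (((θ + wt S * τ : ℝ) : ℂ) * Complex.I) := by
      rw [he, ← Complex.exp_nat_mul, ← Complex.exp_add]
      congr 1; push_cast; ring
    have h4 : ∑ β : Z m, (Complex.exp (θ * Complex.I) * ∏ l, g (β l)).im / 2 * sg (β ⬝ᵥ S) =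
        (Complex.exp (θ * Complex.I) * ∑ β : Z m, (∏ l, g (β l)) * (sg (β ⬝ᵥ S) : ℂ)).im / 2 := by
      rw [Finset.mul_sum, Complex.im_sum, Finset.sum_div]
      refine Finset.sum_congr rfl fun β _ => ?_
      rw [← mul_assoc, Complex.im_mul_ofReal]; ring
    rw [h4, h1, h2, h3, Complex.exp_ofReal_mul_I_im]

theorem wts_col (m : ℕ) (θ τ : ℝ) (hτ : m * |τ| ≤ 1) :
    ∃ π : Z m × ZMod 2 → ℝ, (∀ z, 0 ≤ π z) ∧ ∑ z, π z = 1 ∧
      ∀ S : Z m, ∑ z, π z * (sg z.2 * sg (z.1 ⬝ᵥ S)) = Real.sin (θ + wt S * τ) / 2 := by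
  obtain ⟨c, hc, hS⟩ := wts_col_c m θ τ hτ
  refine ⟨fun z => (((2 : ℝ) ^ m)⁻¹ * (1 - ∑ β, |c β|) + |c z.1| + sg z.2 * c z.1) / 2,
    fun z => ?_, ?_, fun S => ?_⟩
  · have h1 : 0 ≤ ((2 : ℝ) ^ m)⁻¹ * (1 - ∑ β, |c β|) :=
      mul_nonneg (by positivity) (by linarith)
    have h2 := le_abs_self (c z.1)
    have h3 := neg_abs_le (c z.1)
    rcases sg_cases z.2 with h | h <;> simp only [h] <;> linarith
  · rw [Fintype.sum_prod_type]
    have h1 : ∀ β : Z m, ∑ z : ZMod 2,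
        (((2 : ℝ) ^ m)⁻¹ * (1 - ∑ β, |c β|) + |c β| + sg z * c β) / 2 =
        ((2 : ℝ) ^ m)⁻¹ * (1 - ∑ β, |c β|) + |c β| := by
      intro β; rw [sum_zmod2, sg_zero, sg_one]; ring
    simp only [h1]
    rw [Finset.sum_add_distrib, Finset.sum_const, Finset.card_univ, card_Z, nsmul_eq_mul]
    push_cast
    field_simp
    ring
  · rw [Fintype.sum_prod_type, ← hS S]
    refine Finset.sum_congr rfl fun β _ => ?_
    rw [sum_zmod2]; simp only [sg_zero, sg_one]; ring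

/-- transposition of the parameter matrix -/
def wts_equiv (n m : ℕ) : (Fin m → Z n) × Z n ≃ (Fin n → Z m × ZMod 2) where
  toFun z := fun i => (fun l => z.1 l i, z.2 i)
  invFun y := (fun l i => (y i).1 l, fun i => (y i).2)
  left_inv _ := rfl
  right_inv _ := rfl

theorem wts_mat (n m : ℕ) (θ τ : ℝ) (hτ : m * |τ| ≤ 1) :
    ∃ P : (Fin m → Z n) × Z n → ℝ, (∀ z, 0 ≤ P z) ∧ ∑ z, P z = 1 ∧
      ∀ (A : Z n) (S : Z m), ∑ z, P z * (sg (z.2 ⬝ᵥ A) * sg (ip (tens S A) z.1)) =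
        (Real.sin (θ + wt S * τ) / 2) ^ wt A := by
  obtain ⟨π, h0, h1, hS⟩ := wts_col m θ τ hτ
  have key : ∀ g : Fin n → Z m × ZMod 2 → ℝ,
      ∑ z : (Fin m → Z n) × Z n, ∏ i, (π (wts_equiv n m z i) * g i (wts_equiv n m z i)) =
        ∏ i, ∑ x, π x * g i x := by
    intro g
    rw [Equiv.sum_comp (wts_equiv n m) (fun y => ∏ i, (π (y i) * g i (y i))), Finset.prod_univ_sum]
    simp only [Fintype.piFinset_univ]
  refine ⟨fun z => ∏ i, π (wts_equiv n m z i), fun z => Finset.prod_nonneg fun i _ => h0 _, ?_,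
    fun A S => ?_⟩
  · have := key fun _ _ => 1
    simpa [h1] using this
  · have := key fun i x => if A i = 1 then sg x.2 * sg (x.1 ⬝ᵥ S) else 1
    rw [← wts_prod_ite]
    have h2 : ∏ i, ∑ x : Z m × ZMod 2, π x * (if A i = 1 then sg x.2 * sg (x.1 ⬝ᵥ S) else 1) =
        ∏ i, if A i = 1 then Real.sin (θ + wt S * τ) / 2 else 1 := by
      refine Finset.prod_congr rfl fun i _ => ?_
      split_ifs
      · exact hS S
      · simpa using h1
    rw [← h2, ← this]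
    refine Finset.sum_congr rfl fun z _ => ?_
    rw [Finset.prod_mul_distrib]
    congr 1
    have h3 : ip (tens S A) z.1 = ∑ i, A i * ((fun l => z.1 l i) ⬝ᵥ S) := by
      simp only [ip, tens, dotProduct, Pi.smul_apply, smul_eq_mul, Finset.mul_sum]
      rw [Finset.sum_comm]
      refine Finset.sum_congr rfl fun i _ => Finset.sum_congr rfl fun l _ => by ring
    rw [h3, dotProduct, sg_sum, sg_sum, ← Finset.prod_mul_distrib]
    refine Finset.prod_congr rfl fun i _ => ?_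
    rcases zmod2_cases (A i) with h | h
    · simp [h]
    · simp [h, wts_equiv]

end Crest.Agent.R118
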