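import Crest.Agent.R118.OneD
import Crest.Agent.R118.Wts

/-!
The scalar lemma in the rigid model.
Put `γ i j = ∑_{wt A = i} ∑_{wt S = j} Γ A S`, `h j = ∑_{wt S = j} g S`.  Then `γ 1 j = n * h j` (`wt A = 1 ↔ A = single i 1`,
`n` such `A`), `h 1 = m v`.  Average `h1` against the weights of `wts_mat` and `wts_eta` (a convex combination of numbers of
absolute value `≤ Λ₁`) to get `|∑_{A,S} w^{wt S} (sin (θ + wt S τ)/2)^{wt A} Γ A S| ≤ Λ₁`, regroup by weights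
(`Finset.sum_fiberwise_of_maps_to`, `wt A ≤ n`), same for `h2`; apply `oneD` and divide by `m`.
-/

set_option autoImplicit false

namespace Crest.Agent.R118

open Matrix Finset

theorem wt_le {n : ℕ} (A : Z n) : wt A ≤ n := by
  simpa [wt] using card_filter_le (univ : Finset (Fin n)) fun i => A i = 1

theorem scalar_wt_single {n : ℕ} (i : Fin n) : wt (Pi.single i 1 : Z n) = 1 := by
  classical
  unfold wt
  rw [Finset.card_eq_one]
  refine ⟨i, ?_⟩
  ext j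
  simp only [mem_filter, mem_univ, true_and, mem_singleton]
  by_cases h : j = i
  · subst h; simp
  · simp [h]

theorem scalar_eq_single {n : ℕ} (A : Z n) (hA : wt A = 1) : ∃ i, A = Pi.single i 1 := by
  classical
  unfold wt at hA
  obtain ⟨i, hi⟩ := Finset.card_eq_one.mp hA
  refine ⟨i, ?_⟩
  ext j
  have hj : (j ∈ univ.filter fun i => A i = 1) ↔ j ∈ ({i} : Finset (Fin n)) := by rw [hi]
  simp only [mem_filter, mem_univ, true_and, mem_singleton] at hj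
  by_cases h : j = i
  · subst h; simpa using hj.2 rfl
  · rw [Pi.single_eq_of_ne h]
    rcases zmod2_cases (A j) with h0 | h0
    · exact h0
    · exact absurd (hj.1 h0) h

theorem sum_wt_one {n : ℕ} (f : Z n → ℝ) :
    ∑ A ∈ univ.filter (fun A : Z n => wt A = 1), f A = ∑ i : Fin n, f (Pi.single i 1) := by
  classical
  symm
  refine Finset.sum_bij (fun i _ => (Pi.single i 1 : Z n)) ?_ ?_ ?_ ?_
  · intro i _
    simp [scalar_wt_single]
  · intro i _ j _ h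
    by_contra hne
    have := congrFun h i
    simp [Pi.single_eq_of_ne hne] at this
  · intro A hA
    obtain ⟨i, rfl⟩ := scalar_eq_single A (by simpa using hA)
    exact ⟨i, mem_univ _, rfl⟩
  · intro i _; rfl

theorem scalar_conv {α : Type*} [Fintype α] (P F : α → ℝ) (hP : ∀ a, 0 ≤ P a) (h1 : ∑ a, P a = 1)
    {Λ : ℝ} (hF : ∀ a, |F a| ≤ Λ) : |∑ a, P a * F a| ≤ Λ := by
  calc |∑ a, P a * F a| ≤ ∑ a, |P a * F a| := abs_sum_le_sum_abs _ _
    _ ≤ ∑ a, P a * Λ := sum_le_sum fun a _ => by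
        rw [abs_mul, abs_of_nonneg (hP a)]
        exact mul_le_mul_of_nonneg_left (hF a) (hP a)
    _ = Λ := by rw [← sum_mul, h1, one_mul]

theorem scalar_fiber {n : ℕ} (F : ℕ → Z n → ℝ) :
    ∑ j ∈ range (n + 1), ∑ S ∈ univ.filter (fun S : Z n => wt S = j), F j S =
      ∑ S : Z n, F (wt S) S := by
  classical
  rw [← Finset.sum_fiberwise_of_maps_to (s := univ) (t := range (n + 1)) (g := fun S : Z n => wt S)
    (fun S _ => mem_range.mpr (Nat.lt_succ_of_le (wt_le S)))]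
  refine sum_congr rfl fun j _ => sum_congr rfl fun S hS => ?_
  rw [(mem_filter.mp hS).2]

theorem scalar {n m N : ℕ} (hn : 1 ≤ n) (hm : 1 ≤ m) (hN : 1 ≤ N) (Γ : Z n → Z m → ℝ)
    (g : Z m → ℝ) (v : ℝ) (hg : ∀ i S, Γ (Pi.single i 1) S = g S) (hv : ∀ l, g (Pi.single l 1) = v)
    {Λ₁ Λ₂ : ℝ}
    (h1 : ∀ (β : Fin m → Z n) (μ : Z n) (η : Z m),
      |∑ A, ∑ S, sg (μ ⬝ᵥ A) * sg (η ⬝ᵥ S) * sg (ip (tens S A) β) * Γ A S| ≤ Λ₁)
    (h2 : ∀ η : Z m, |∑ S, sg (η ⬝ᵥ S) * g S| ≤ Λ₂) :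
    |v| ≤ K1 n m N * Λ₁ + K2 m N * Λ₂ := by
  classical
  set γ : ℕ → ℕ → ℝ := fun i j => ∑ S ∈ univ.filter (fun S : Z m => wt S = j),
    ∑ A ∈ univ.filter (fun A : Z n => wt A = i), Γ A S with hγdef
  set h : ℕ → ℝ := fun j => ∑ S ∈ univ.filter (fun S : Z m => wt S = j), g S with hhdef
  have hγ : ∀ j, γ 1 j = n * h j := by
    intro j
    simp only [hγdef, hhdef, mul_sum]
    refine sum_congr rfl fun S _ => ?_
    rw [sum_wt_one (fun A => Γ A S)]
    simp [hg]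
  have hh1 : h 1 = m * v := by
    simp only [hhdef]
    rw [sum_wt_one g]
    simp [hv]
  have H1 : ∀ w θ τ : ℝ, |w| ≤ 1 → m * |τ| ≤ 1 →
      |∑ j ∈ range (m + 1), w ^ j *
        ∑ i ∈ range (n + 1), γ i j * (Real.sin (θ + j * τ) / 2) ^ i| ≤ Λ₁ := by
    intro w θ τ hw hτ
    obtain ⟨P, hP0, hP1, hP⟩ := wts_eta m hw
    obtain ⟨Q, hQ0, hQ1, hQ⟩ := wts_mat n m θ τ hτ
    have key := scalar_conv P (fun η => ∑ z : (Fin m → Z n) × Z n, Q z *
        ∑ A, ∑ S, sg (z.2 ⬝ᵥ A) * sg (η ⬝ᵥ S) * sg (ip (tens S A) z.1) * Γ A S) hP0 hP1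
      (fun η => scalar_conv Q _ hQ0 hQ1 fun z => h1 z.1 z.2 η)
    have e1 : ∑ η, P η * (∑ z : (Fin m → Z n) × Z n, Q z *
        ∑ A, ∑ S, sg (z.2 ⬝ᵥ A) * sg (η ⬝ᵥ S) * sg (ip (tens S A) z.1) * Γ A S) =
        ∑ S : Z m, ∑ A : Z n, w ^ wt S * (Γ A S * (Real.sin (θ + wt S * τ) / 2) ^ wt A) := by
      have e2 : ∀ (S : Z m) (A : Z n), w ^ wt S * (Γ A S * (Real.sin (θ + wt S * τ) / 2) ^ wt A) =
          ∑ η, ∑ z : (Fin m → Z n) × Z n, P η * (Q z *
            (sg (z.2 ⬝ᵥ A) * sg (η ⬝ᵥ S) * sg (ip (tens S A) z.1) * Γ A S)) := by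
        intro S A
        rw [← hP S, ← hQ A S, sum_mul]
        refine sum_congr rfl fun η _ => ?_
        rw [mul_sum, mul_sum]
        refine sum_congr rfl fun z _ => ?_
        ring
      simp only [e2, mul_sum]
      calc ∑ η, ∑ z : (Fin m → Z n) × Z n, ∑ A : Z n, ∑ S : Z m, P η * (Q z *
            (sg (z.2 ⬝ᵥ A) * sg (η ⬝ᵥ S) * sg (ip (tens S A) z.1) * Γ A S))
          = ∑ η, ∑ A : Z n, ∑ S : Z m, ∑ z : (Fin m → Z n) × Z n, P η * (Q z *
            (sg (z.2 ⬝ᵥ A) * sg (η ⬝ᵥ S) * sg (ip (tens S A) z.1) * Γ A S)) := by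
            refine sum_congr rfl fun η _ => ?_
            rw [sum_comm]
            refine sum_congr rfl fun A _ => ?_
            rw [sum_comm]
        _ = ∑ A : Z n, ∑ S : Z m, ∑ η, ∑ z : (Fin m → Z n) × Z n, P η * (Q z *
            (sg (z.2 ⬝ᵥ A) * sg (η ⬝ᵥ S) * sg (ip (tens S A) z.1) * Γ A S)) := by
            rw [sum_comm]
            refine sum_congr rfl fun A _ => ?_
            rw [sum_comm]
        _ = _ := by rw [sum_comm]
    rw [e1] at key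
    have e3 : ∑ j ∈ range (m + 1), w ^ j *
        ∑ i ∈ range (n + 1), γ i j * (Real.sin (θ + j * τ) / 2) ^ i =
        ∑ S : Z m, ∑ A : Z n, w ^ wt S * (Γ A S * (Real.sin (θ + wt S * τ) / 2) ^ wt A) := by
      rw [← scalar_fiber (fun (j : ℕ) (S : Z m) => ∑ A : Z n,
        w ^ j * (Γ A S * (Real.sin (θ + j * τ) / 2) ^ wt A))]
      refine sum_congr rfl fun j _ => ?_
      simp only [hγdef, sum_mul, mul_sum]
      rw [sum_comm]
      refine sum_congr rfl fun S _ => ?_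
      rw [← scalar_fiber (fun (i : ℕ) (A : Z n) =>
        w ^ j * (Γ A S * (Real.sin (θ + j * τ) / 2) ^ i))]
    rw [e3]; exact key
  have H2 : ∀ w : ℝ, |w| ≤ 1 → |∑ j ∈ range (m + 1), w ^ j * h j| ≤ Λ₂ := by
    intro w hw
    obtain ⟨P, hP0, hP1, hP⟩ := wts_eta m hw
    have key := scalar_conv P (fun η => ∑ S, sg (η ⬝ᵥ S) * g S) hP0 hP1 h2
    have e1 : ∑ η, P η * ∑ S, sg (η ⬝ᵥ S) * g S = ∑ S : Z m, w ^ wt S * g S := by
      simp only [mul_sum]
      rw [sum_comm]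
      refine sum_congr rfl fun S _ => ?_
      rw [← hP S, sum_mul]
      refine sum_congr rfl fun η _ => ?_
      ring
    have e3 : ∑ j ∈ range (m + 1), w ^ j * h j = ∑ S : Z m, w ^ wt S * g S := by
      rw [← scalar_fiber (fun (j : ℕ) (S : Z m) => w ^ j * g S)]
      refine sum_congr rfl fun j _ => ?_
      simp only [hhdef, mul_sum]
    rw [e3, ← e1]; exact key
  have main := oneD hn hm hN γ h hγ H1 H2
  rw [hh1, abs_mul, Nat.abs_cast] at main
  have hm0 : (0 : ℝ) < m := by exact_mod_cast hm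
  have hn0 : (0 : ℝ) < n := by exact_mod_cast hn
  have e : K1 n m N * Λ₁ + K2 m N * Λ₂ =
      (m * (m + 1) * (98 * (m : ℝ) ^ 2 / n * Λ₁) +
      2 * N * (N + 1) * (Λ₂ + 98 * (m : ℝ) ^ 2 / n * Λ₁ + 2 * (n + 1) * Λ₁ / 2 ^ N)) / m := by
    unfold K1 K2
    field_simp
    ring
  rw [e, le_div_iff₀ hm0]
  linarith

end Crest.Agent.R118
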