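import Crest.Agent.R118.Ideal
import Crest.Agent.R118.Scalar
import Crest.Agent.R118.CorrB

/-!
The level recursion.  Given `x` (values in `V`) and `y`, choose (`choose`) `Φ E s` from `Cl` for the tuple
`fun i => x (s + eA m E (Pi.single i 1))` and `Ψ b t` from `corr_dual_of_cot` for `fun l => y (t + bS b (Pi.single l 1))`.
`n2 (uncurried Φ E) ≤ c * n2 x =: Λ` (`n2_prod`, `n2_mul_left`; `avg_s avg_i ‖x (s + e_i)‖² = avg ‖x‖²`), same for `Ψ`, `Λ' = a * n2 y`.
`Γ A S = avg_E avg_b Gam ..`, `g S = avg_b had p3 u x (fun t => fc (Ψ b (t + bS b S)) S)`, `v = had p3 u x y`.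
`Γ (single i 1) S = g S` since `fc (Φ E (s + e_i)) (single i 1) = x (s + e_i + e_i) = x s` (char 2), `g (single l 1) = v` similarly.
`h1` of `scalar` is `ideal`; `h2` is the `b`-average of `TT_expand0` + `TT_bound` (with `Φ s _ = x s ∈ V'`, `E = 0`, `μ = 0`).
-/

set_option autoImplicit false

namespace Crest.Agent.R118

open Matrix Finset

variable {X : Type*} [NormedAddCommGroup X] [NormedSpace ℝ X]


theorem key_H_add_self {n m k : ℕ} (s : H n m k) : s + s = 0 := by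
  obtain ⟨a, b, c⟩ := s
  simp only [Prod.mk_add_mk, Z_add_self]
  rfl

theorem key_n2_shift {G ι Y : Type*} [Fintype G] [AddCommGroup G] [Fintype ι] [Nonempty ι]
    [NormedAddCommGroup Y] (x : G → Y) (e : ι → G) :
    n2 (fun s => n2 fun i => x (s + e i)) = n2 x := by
  rw [← n2_prod (fun z : G × ι => x (z.1 + e z.2))]
  simp only [n2]
  congr 1
  rw [avg_prod, avg_comm]
  have h : ∀ i : ι, (avg fun s : G => ‖x (s + e i)‖ ^ 2) = avg fun s : G => ‖x s‖ ^ 2 :=
    fun i => avg_add_right (fun s => ‖x s‖ ^ 2) (e i)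
  simp only [h]
  exact avg_const _

theorem key_n2_le {G ι κ Y : Type*} [Fintype G] [AddCommGroup G] [Fintype ι] [Nonempty ι]
    [Fintype κ] [NormedAddCommGroup Y] (x : G → Y) (e : ι → G) (Φ : G → κ → Y) {c : ℝ}
    (hc : 0 ≤ c) (h : ∀ s, n2 (Φ s) ≤ c * n2 fun i => x (s + e i)) :
    n2 (fun z : G × κ => Φ z.1 z.2) ≤ c * n2 x := by
  rw [n2_prod, ← key_n2_shift x e]
  refine n2_mul_left hc fun s => ?_
  rw [Real.norm_eq_abs, Real.norm_eq_abs, abs_of_nonneg (n2_nonneg _),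
    abs_of_nonneg (n2_nonneg _)]
  exact h s

theorem key_n2_fst {G κ Y : Type*} [Fintype G] [Fintype κ] [Nonempty κ]
    [NormedAddCommGroup Y] (x : G → Y) : n2 (fun z : G × κ => x z.1) = n2 x := by
  simp only [n2]
  congr 1
  rw [avg_prod]
  simp only [avg_const]

theorem key {n m k N : ℕ} (hn : 1 ≤ n) (hm : 1 ≤ m) (hN : 1 ≤ N) {c a : ℝ} (hc : 0 ≤ c)
    (ha : 0 < a) (hcot : Cot X m a) {V V' : Set X} (hcl : Cl n c V V') (u : X →L[ℝ] X)
    {M₁ M₂ : ℝ} (hM₁ : 0 ≤ M₁) (hM₂ : 0 ≤ M₂) (hW₁ : WB (pk k) u V' M₁)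
    (hW₂ : WB (p4 (n := n) (m := m) (k := k)) u V' M₂) :
    WB (p3 (n := n) (m := m) (k := k)) u V
      ((c * a * K1 n m N + a * K2 m N) * M₁ + c * a * K1 n m N * 2 ^ (n + m + m * n) * M₂) := by
  intro x y hx
  haveI : Nonempty (Fin n) := ⟨⟨0, hn⟩⟩
  haveI : Nonempty (Fin m) := ⟨⟨0, hm⟩⟩
  choose Φ hΦc hΦ1 hΦ2 using fun (E : Fin n → Z k) (s : H n m k) =>
    hcl.2.2 (fun i => x (s + eA m E (Pi.single i 1))) (fun i => hx _)
  choose Ψ hΨ using fun (b : Fin m → Z n × Z k) (t : H n m k) =>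
    corr_dual_of_cot hm ha hcot (fun l => y (t + bS b (Pi.single l 1)))
  have hΛ : ∀ E, n2 (fun z : H n m k × Z n => Φ E z.1 z.2) ≤ c * n2 x := fun E =>
    key_n2_le x (fun i => eA m E (Pi.single i 1)) (Φ E) hc fun s => (hΦc E s).2
  have hΛ' : ∀ b, n2 (fun z : H n m k × Z m => Ψ b z.1 z.2) ≤ a * n2 y := fun b =>
    key_n2_le y (fun l => bS b (Pi.single l 1)) (Ψ b) ha.le fun t => (hΨ b t).2
  have hg : ∀ (i : Fin n) (S : Z m),
      (avg fun E => avg fun b => Gam u (Φ E) (Ψ b) E b (Pi.single i 1) S) =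
        avg fun b => had p3 u x (fun t => fc (Ψ b (t + bS b S)) S) := by
    intro i S
    have h : ∀ E : Fin n → Z k,
        (fun s => fc (Φ E (s + eA m E (Pi.single i 1))) (Pi.single i 1)) = x := by
      intro E
      funext s
      rw [(hΦc E _).1 i]
      simp only [add_assoc, key_H_add_self, add_zero]
    simp only [Gam, h]
    exact avg_const _
  have hv : ∀ l : Fin m,
      (avg fun b => had p3 u x (fun t => fc (Ψ b (t + bS b (Pi.single l 1))) (Pi.single l 1))) =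
        had p3 u x y := by
    intro l
    have h : ∀ b : Fin m → Z n × Z k,
        (fun t => fc (Ψ b (t + bS b (Pi.single l 1))) (Pi.single l 1)) = y := by
      intro b
      funext t
      rw [(hΨ b _).1 l]
      simp only [add_assoc, key_H_add_self, add_zero]
    simp only [h]
    exact avg_const _
  have h2 : ∀ η : Z m, |∑ S, sg (η ⬝ᵥ S) *
      avg fun b => had p3 u x (fun t => fc (Ψ b (t + bS b S)) S)| ≤ M₁ * n2 x * (a * n2 y) := by
    intro η
    have e1 : (∑ S, sg (η ⬝ᵥ S) *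
        avg fun b => had p3 u x (fun t => fc (Ψ b (t + bS b S)) S)) =
        avg fun b => TT u (fun s _ => x s) (Ψ b) (0 : Fin n → Z k) b 0 η := by
      simp only [TT_expand0]
      rw [avg_sum]
      refine sum_congr rfl fun S _ => ?_
      rw [avg_mul_left]
    rw [e1]
    refine abs_avg_le_of_le fun b => ?_
    refine (TT_bound u hcl.2.1 hM₁ hW₁ (fun s _ => x s) (Ψ b) (fun s _ => hcl.1 (hx s)) 0 b 0
      η).trans ?_
    rw [key_n2_fst x]
    exact mul_le_mul_of_nonneg_left (hΛ' b) (mul_nonneg hM₁ (n2_nonneg x))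
  have hs := scalar hn hm hN
    (fun A S => avg fun E => avg fun b => Gam u (Φ E) (Ψ b) E b A S)
    (fun S => avg fun b => had p3 u x (fun t => fc (Ψ b (t + bS b S)) S)) (had p3 u x y) hg hv
    (fun β μ η => ideal u hcl.2.1 hM₁ hM₂ hW₁ hW₂ Φ Ψ hΦ1 hΦ2 hΛ hΛ' β μ η) h2
  refine hs.trans (le_of_eq ?_)
  ring

end Crest.Agent.R118
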