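import Crest.Agent.R118.Basic

/-!
The main bound: the test pairing is an average of Hadamard pairings of rank `k`.
Write `s = (s₁,s₂,s₃)`, `t = (t₁,t₂,t₃)` (`avg_prod`, `avg_comm`).  Put `F t₃ = μ + fun i => E i ⬝ᵥ t₃` and
`F' s₁ s₃ = η + fun l => s₁ ⬝ᵥ (b l).1 + s₃ ⬝ᵥ (b l).2`.  Substitute `t₁ = θ + F t₃`, `s₂ = σ + F' s₁ s₃`
(`avg_add_right`; char 2: `μ + et E t = θ`, `η + bs b s = σ`, `Z_add_self`).  For fixed `(s₁, σ, θ, t₂)` the remaining average over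
`(s₃, t₃)` is `had (pk k) u x' y'` with `x' s₃ = sg ((σ + F' s₁ s₃) ⬝ᵥ t₂) • Φ (s₁, σ + F' s₁ s₃, s₃) θ ∈ V` (`sg_smul_mem`) and
`y' t₃ = sg (s₁ ⬝ᵥ (θ + F t₃)) • Ψ (θ + F t₃, t₂, t₃) σ`.  Then Cauchy–Schwarz (`avg_cs`) over `(s₁,σ,θ,t₂)`, and
`avg (n2 x')² = avg ‖Φ s θ‖²` by undoing the substitution.  (It may be easiest to build one `Equiv` of
`H × H` with `(Z n × Z m × Z n × Z m) × (Z k × Z k)` and use `avg_equiv`.)
-/

set_option autoImplicit false

namespace Crest.Agent.R118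

open Matrix Finset

variable {X : Type*} [NormedAddCommGroup X] [NormedSpace ℝ X]


/-- the substitution on the `s` side (an involution) -/
def mbS {n m k : ℕ} (b : Fin m → Z n × Z k) (η : Z m) (s : H n m k) : H n m k :=
  (s.1, s.2.1 + (η + fun l => s.1 ⬝ᵥ (b l).1 + s.2.2 ⬝ᵥ (b l).2), s.2.2)

/-- the substitution on the `t` side (an involution) -/
def mbT {n m k : ℕ} (E : Fin n → Z k) (μ : Z n) (t : H n m k) : H n m k :=
  (t.1 + (μ + fun i => E i ⬝ᵥ t.2.2), t.2.1, t.2.2)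

theorem mbS_invol {n m k : ℕ} (b : Fin m → Z n × Z k) (η : Z m) :
    Function.Involutive (mbS (n := n) (m := m) (k := k) b η) := by
  rintro ⟨s₁, s₂, s₃⟩
  simp only [mbS, add_assoc s₂, Z_add_self, add_zero]

theorem mbT_invol {n m k : ℕ} (E : Fin n → Z k) (μ : Z n) :
    Function.Involutive (mbT (n := n) (m := m) (k := k) E μ) := by
  rintro ⟨t₁, t₂, t₃⟩
  simp only [mbT, add_assoc t₁, Z_add_self, add_zero]

theorem mb_zmod (a b c d : ZMod 2) : a + (b + (c + (a + (b + d))) + d) = c := by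
  revert a b c d; decide

theorem mb_zmod' (a b c : ZMod 2) : a + (b + (a + c) + c) = b := by
  revert a b c; decide

theorem mb_bs {n m k : ℕ} (b : Fin m → Z n × Z k) (η : Z m) (s : H n m k) :
    η + bs b (mbS b η s) = s.2.1 := by
  funext l
  simp only [bs, mbS, Pi.add_apply]
  exact mb_zmod _ _ _ _

theorem mb_et {n m k : ℕ} (E : Fin n → Z k) (μ : Z n) (t : H n m k) :
    μ + et E (mbT E μ t) = t.1 := by
  funext i
  simp only [et, mbT, Pi.add_apply]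
  exact mb_zmod' _ _ _

theorem mb_n2_snd {α β F : Type*} [Fintype α] [Fintype β] [Nonempty α] [NormedAddCommGroup F]
    (f : β → F) : n2 (fun z : α × β => f z.2) = n2 f := by
  simp only [n2]
  congr 1
  rw [avg_prod]
  exact avg_const (α := α) (avg fun b => ‖f b‖ ^ 2)

/-- rearrangement of `H × H` -/
def mbE (n m k : ℕ) : ((Z n × Z m × Z n × Z m) × (Z k × Z k)) ≃ (H n m k × H n m k) where
  toFun z := ((z.1.1, z.1.2.1, z.2.1), (z.1.2.2.1, z.1.2.2.2, z.2.2))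
  invFun z := ((z.1.1, z.1.2.1, z.2.1, z.2.2.1), (z.1.2.2, z.2.2.2))
  left_inv _ := rfl
  right_inv _ := rfl

/-- rearrangement for the `Φ` side -/
def mbE1 (n m k : ℕ) : ((Z n × Z m × Z n × Z m) × Z k) ≃ (Z m × (H n m k × Z n)) where
  toFun z := (z.1.2.2.2, ((z.1.1, z.1.2.1, z.2), z.1.2.2.1))
  invFun z := ((z.2.1.1, z.2.1.2.1, z.2.2, z.1), z.2.1.2.2)
  left_inv _ := rfl
  right_inv _ := rfl

/-- rearrangement for the `Ψ` side -/
def mbE2 (n m k : ℕ) : ((Z n × Z m × Z n × Z m) × Z k) ≃ (Z n × (H n m k × Z m)) where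
  toFun z := (z.1.1, ((z.1.2.2.1, z.1.2.2.2, z.2), z.1.2.1))
  invFun z := ((z.1, z.2.2, z.2.1.1, z.2.1.2.1), z.2.1.2.2)
  left_inv _ := rfl
  right_inv _ := rfl

theorem TT_bound {n m k : ℕ} (u : X →L[ℝ] X) {V : Set X} (hV : ∀ v ∈ V, -v ∈ V) {M : ℝ}
    (hM : 0 ≤ M) (hW : WB (pk k) u V M) (Φ : H n m k → Z n → X)
    (Ψ : H n m k → Z m → StrongDual ℝ X) (hΦ : ∀ s θ, Φ s θ ∈ V)
    (E : Fin n → Z k) (b : Fin m → Z n × Z k) (μ : Z n) (η : Z m) :
    |TT u Φ Ψ E b μ η| ≤ M * n2 (fun z : H n m k × Z n => Φ z.1 z.2) *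
      n2 (fun z : H n m k × Z m => Ψ z.1 z.2) := by
  classical
  set x' : (Z n × Z m × Z n × Z m) → Z k → X := fun w s₃ =>
    sg ((mbS b η (w.1, w.2.1, s₃)).2.1 ⬝ᵥ w.2.2.2) • Φ (mbS b η (w.1, w.2.1, s₃)) w.2.2.1 with hx'
  set y' : (Z n × Z m × Z n × Z m) → Z k → StrongDual ℝ X := fun w t₃ =>
    sg (w.1 ⬝ᵥ (mbT E μ (w.2.2.1, w.2.2.2, t₃)).1) • Ψ (mbT E μ (w.2.2.1, w.2.2.2, t₃)) w.2.1
    with hy'
  have h1 : TT u Φ Ψ E b μ η = avg fun w => had (pk k) u (x' w) (y' w) := by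
    have e1 : TT u Φ Ψ E b μ η = avg fun s : H n m k => avg fun t : H n m k =>
        sg (p3 (mbS b η s) (mbT E μ t)) * Ψ (mbT E μ t) s.2.1 (u (Φ (mbS b η s) t.1)) := by
      unfold TT
      rw [← avg_equiv (mbS_invol b η).toPerm]
      congr 1; funext s
      rw [← avg_equiv (mbT_invol E μ).toPerm]
      congr 1; funext t
      simp only [Function.Involutive.coe_toPerm, mb_bs, mb_et]
    rw [e1, ← avg_prod (fun z : H n m k × H n m k => sg (p3 (mbS b η z.1) (mbT E μ z.2)) *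
      Ψ (mbT E μ z.2) z.1.2.1 (u (Φ (mbS b η z.1) z.2.1))), ← avg_equiv (mbE n m k), avg_prod]
    congr 1; funext w
    rw [avg_prod]
    unfold had
    congr 1; funext s₃
    congr 1; funext t₃
    simp only [hx', hy', mbE, Equiv.coe_fn_mk, map_smul, _root_.smul_apply,
      smul_eq_mul, p3, pk, sg_add]
    simp only [mbS, mbT]
    ring
  have h2 : ∀ w, |had (pk k) u (x' w) (y' w)| ≤ M * (n2 (x' w) * n2 (y' w)) := fun w => by
    rw [← mul_assoc]
    exact hW _ _ fun a => sg_smul_mem hV _ (hΦ _ _)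
  have h3 : n2 (fun w => n2 (x' w)) = n2 (fun z : H n m k × Z n => Φ z.1 z.2) := by
    rw [← n2_prod (fun z : (Z n × Z m × Z n × Z m) × Z k => x' z.1 z.2),
      ← n2_equiv (((mbS_invol b η).toPerm).prodCongr (Equiv.refl (Z n)))
        (fun z : H n m k × Z n => Φ z.1 z.2)]
    refine Eq.trans ?_ (mb_n2_snd (α := Z m) _)
    refine Eq.trans ?_ (n2_equiv (mbE1 n m k) _)
    exact n2_congr fun z => by simp only [hx', norm_sg_smul]; rfl
  have h4 : n2 (fun w => n2 (y' w)) = n2 (fun z : H n m k × Z m => Ψ z.1 z.2) := by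
    rw [← n2_prod (fun z : (Z n × Z m × Z n × Z m) × Z k => y' z.1 z.2),
      ← n2_equiv (((mbT_invol E μ).toPerm).prodCongr (Equiv.refl (Z m)))
        (fun z : H n m k × Z m => Ψ z.1 z.2)]
    refine Eq.trans ?_ (mb_n2_snd (α := Z n) _)
    refine Eq.trans ?_ (n2_equiv (mbE2 n m k) _)
    exact n2_congr fun z => (norm_sg_smul (E := StrongDual ℝ X) _ _).trans rfl
  rw [h1, mul_assoc, ← h3, ← h4]
  refine (abs_avg_le _).trans ((avg_mono h2).trans ?_)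
  rw [avg_mul_left]
  exact mul_le_mul_of_nonneg_left ((le_abs_self _).trans (avg_cs _ _)) hM

end Crest.Agent.R118
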