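import Crest.Agent.R118.ThreeL

/-!
The one-dimensional core.  `γ i j` = coefficient of `y^i` in `φ_j`.
Put `p j θ = ∑_{i ≤ n} γ i j (sin θ / 2)^i` (complex valued, continuous, `2π`-periodic), `c j k = Fc (p j) k`.
(a) for `|w| ≤ 1`, `m |τ| ≤ 1`: `‖∑_j w^j e^{i k j τ} c j k‖ ≤ Λ₁` (`Fc` of `θ ↦ ∑ w^j p j (θ + jτ)`: `Fc_sum`, `Fc_shift`, `norm_Fc_le`).
(b) for `7m ≤ |k|`: for `φ ∈ [0,2π]` take `τ = φ / k` (`m|τ| ≤ 2π/7 ≤ 1`), `w = 1`: `‖∑_j c j k e^{ijφ}‖ ≤ Λ₁`, so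
    `‖c j k‖ ≤ Λ₁` for `j ≤ m` (`Fc_exp`, `Fc_sum`, `norm_Fc_le`).
(c) `n h j / 2 = γ 1 j / 2 = ∑_{|k| ≤ n} I k c j k` (`Fc_sin_pow`, `Fc_sum`).
Split `h j = lo j + hi j`, `lo j = (2/n) ∑_{|k| ≤ n, |k| < 7m} I k c j k`, `hi` the rest.
`‖∑_j lo j w^j‖ ≤ (2/n) (∑_{|k|<7m} |k|) Λ₁ ≤ 98 m² Λ₁ / n =: ε` by (a) with `τ = 0` (`sum_abs_Icc (7m-1)`: `(7m-1)7m ≤ 49m²`);
`‖hi j‖ ≤ (2/n) n (n+1) Λ₁`; `‖∑ hi j w^j‖ ≤ Λ₂ + ε`.  Finish with `coeff_one_le` for `lo`, `coeff_one_le'` for `hi`.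
-/

set_option autoImplicit false

namespace Crest.Agent.R118

open Matrix Finset

/-- the trigonometric polynomial attached to column `j` -/
noncomputable def odP (n : ℕ) (γ : ℕ → ℕ → ℝ) (j : ℕ) (θ : ℝ) : ℂ :=
  ∑ i ∈ range (n + 1), ((γ i j : ℂ) / 2 ^ i) * ((Real.sin θ : ℝ) : ℂ) ^ i

theorem odP_cont (n : ℕ) (γ : ℕ → ℕ → ℝ) (j : ℕ) : Continuous (odP n γ j) := by
  unfold odP
  fun_prop

theorem odP_per (n : ℕ) (γ : ℕ → ℕ → ℝ) (j : ℕ) :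
    Function.Periodic (odP n γ j) (2 * Real.pi) := by
  intro θ
  simp only [odP, Real.sin_add_two_pi]

theorem odP_eq (n : ℕ) (γ : ℕ → ℕ → ℝ) (j : ℕ) (θ : ℝ) :
    odP n γ j θ = ((∑ i ∈ range (n + 1), γ i j * (Real.sin θ / 2) ^ i : ℝ) : ℂ) := by
  unfold odP
  rw [Complex.ofReal_sum]
  refine sum_congr rfl fun i _ => ?_
  rw [Complex.ofReal_mul, Complex.ofReal_pow, Complex.ofReal_div, div_pow]
  push_cast
  ring

theorem od_a {n m : ℕ} (γ : ℕ → ℕ → ℝ) {Λ₁ : ℝ}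
    (h1 : ∀ w θ τ : ℝ, |w| ≤ 1 → m * |τ| ≤ 1 →
      |∑ j ∈ range (m + 1), w ^ j * ∑ i ∈ range (n + 1), γ i j * (Real.sin (θ + j * τ) / 2) ^ i| ≤ Λ₁)
    (w τ : ℝ) (hw : |w| ≤ 1) (hτ : m * |τ| ≤ 1) (k : ℤ) :
    ‖∑ j ∈ range (m + 1), (w : ℂ) ^ j *
      (Complex.exp (k * ((j * τ : ℝ) : ℂ) * Complex.I) * Fc (odP n γ j) k)‖ ≤ Λ₁ := by
  have e1 : ∑ j ∈ range (m + 1), (w : ℂ) ^ j *
      (Complex.exp (k * ((j * τ : ℝ) : ℂ) * Complex.I) * Fc (odP n γ j) k) =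
      Fc (fun θ => ∑ j ∈ range (m + 1), (w : ℂ) ^ j * odP n γ j (θ + j * τ)) k := by
    rw [Fc_sum (range (m + 1)) (fun j => (w : ℂ) ^ j) (fun j θ => odP n γ j (θ + j * τ))
      (fun j => (odP_cont n γ j).comp (by fun_prop)) k]
    refine sum_congr rfl fun j _ => ?_
    rw [Fc_shift _ (odP_per n γ j)]
  rw [e1]
  apply norm_Fc_le
  intro θ _
  have e2 : ∑ j ∈ range (m + 1), (w : ℂ) ^ j * odP n γ j (θ + j * τ) =
      ((∑ j ∈ range (m + 1), w ^ j * ∑ i ∈ range (n + 1),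
        γ i j * (Real.sin (θ + j * τ) / 2) ^ i : ℝ) : ℂ) := by
    rw [Complex.ofReal_sum]
    refine sum_congr rfl fun j _ => ?_
    rw [odP_eq, Complex.ofReal_mul, Complex.ofReal_pow]
  rw [e2, Complex.norm_real, Real.norm_eq_abs]
  exact h1 w θ τ hw hτ

theorem od_b {n m : ℕ} (hm : 1 ≤ m) (γ : ℕ → ℕ → ℝ) {Λ₁ : ℝ}
    (h1 : ∀ w θ τ : ℝ, |w| ≤ 1 → m * |τ| ≤ 1 →
      |∑ j ∈ range (m + 1), w ^ j * ∑ i ∈ range (n + 1), γ i j * (Real.sin (θ + j * τ) / 2) ^ i| ≤ Λ₁)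
    (k : ℤ) (hk : 7 * (m : ℤ) ≤ |k|) (j0 : ℕ) (hj : j0 ≤ m) :
    ‖Fc (odP n γ j0) k‖ ≤ Λ₁ := by
  have hm' : (1 : ℝ) ≤ m := by exact_mod_cast hm
  have hkR : 7 * (m : ℝ) ≤ |(k : ℝ)| := by exact_mod_cast hk
  have hk0 : (k : ℝ) ≠ 0 := by
    intro h; rw [h, abs_zero] at hkR; linarith
  have e1 : Fc (fun φ : ℝ => ∑ j ∈ range (m + 1),
      Fc (odP n γ j) k * Complex.exp (((j : ℤ) : ℂ) * φ * Complex.I)) (j0 : ℤ) =
      Fc (odP n γ j0) k := by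
    rw [Fc_sum (range (m + 1)) (fun j => Fc (odP n γ j) k)
      (fun j (φ : ℝ) => Complex.exp (((j : ℤ) : ℂ) * φ * Complex.I)) (fun j => by fun_prop)]
    simp only [Fc_exp, Nat.cast_inj, mul_ite, mul_one, mul_zero]
    rw [sum_ite_eq' (range (m + 1)) j0, if_pos (mem_range.mpr (by omega))]
  rw [← e1]
  apply norm_Fc_le
  intro φ hφ
  have hτ : m * |φ / k| ≤ 1 := by
    have hpos : 0 < |(k : ℝ)| := abs_pos.mpr hk0
    rw [abs_div, abs_of_nonneg hφ.1, ← mul_div_assoc, div_le_one hpos]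
    have := Real.pi_lt_d2
    have h2 := hφ.2
    nlinarith
  have := od_a γ h1 1 (φ / k) (by simp) hτ k
  refine le_of_eq_of_le ?_ this
  congr 1
  refine sum_congr rfl fun j _ => ?_
  have e : (k : ℂ) * ((j * (φ / k) : ℝ) : ℂ) = ((j : ℤ) : ℂ) * φ := by
    have hk1 : (k : ℂ) ≠ 0 := by exact_mod_cast hk0
    push_cast
    field_simp
  rw [e]
  simp [mul_comm]

theorem od_c {n : ℕ} (hn : 1 ≤ n) (γ : ℕ → ℕ → ℝ) (j : ℕ) :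
    ∑ k ∈ Icc (-(n : ℤ)) n, Complex.I * k * Fc (odP n γ j) k = (γ 1 j : ℂ) / 2 := by
  have e1 : ∀ k : ℤ, Fc (odP n γ j) k = ∑ i ∈ range (n + 1), ((γ i j : ℂ) / 2 ^ i) *
      Fc (fun θ => ((Real.sin θ : ℝ) : ℂ) ^ i) k := fun k =>
    Fc_sum (range (n + 1)) (fun i => (γ i j : ℂ) / 2 ^ i)
      (fun i θ => ((Real.sin θ : ℝ) : ℂ) ^ i) (fun i => by fun_prop) k
  simp only [e1, mul_sum]
  rw [sum_comm]
  have e2 : ∀ i ∈ range (n + 1), ∑ k ∈ Icc (-(n : ℤ)) n, Complex.I * k *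
      (((γ i j : ℂ) / 2 ^ i) * Fc (fun θ => ((Real.sin θ : ℝ) : ℂ) ^ i) k) =
      if i = 1 then (γ i j : ℂ) / 2 ^ i else 0 := by
    intro i hi
    have := Fc_sin_pow (N := n) (j := i) (by have := mem_range.mp hi; omega)
    have e3 : ∑ k ∈ Icc (-(n : ℤ)) n, Complex.I * k *
        (((γ i j : ℂ) / 2 ^ i) * Fc (fun θ => ((Real.sin θ : ℝ) : ℂ) ^ i) k) =
        ((γ i j : ℂ) / 2 ^ i) * ∑ k ∈ Icc (-(n : ℤ)) n, Complex.I * k *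
          Fc (fun θ => ((Real.sin θ : ℝ) : ℂ) ^ i) k := by
      rw [mul_sum]
      refine sum_congr rfl fun k _ => by ring
    rw [e3, this]
    split_ifs <;> simp
  rw [sum_congr rfl e2, sum_ite_eq' (range (n + 1)) 1, if_pos (mem_range.mpr (by omega))]
  simp

theorem od_norm_sum (S : Finset ℤ) (z : ℤ → ℂ) {Λ B : ℝ} (hΛ : 0 ≤ Λ) (hz : ∀ k ∈ S, ‖z k‖ ≤ Λ)
    (hB : ∑ k ∈ S, |(k : ℝ)| ≤ B) : ‖∑ k ∈ S, Complex.I * k * z k‖ ≤ B * Λ := by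
  refine (norm_sum_le _ _).trans ?_
  calc ∑ k ∈ S, ‖Complex.I * k * z k‖ ≤ ∑ k ∈ S, |(k : ℝ)| * Λ := by
        refine sum_le_sum fun k hk => ?_
        rw [norm_mul, norm_mul, Complex.norm_I, one_mul, Complex.norm_intCast]
        exact mul_le_mul_of_nonneg_left (hz k hk) (abs_nonneg _)
    _ = (∑ k ∈ S, |(k : ℝ)|) * Λ := by rw [sum_mul]
    _ ≤ B * Λ := mul_le_mul_of_nonneg_right hB hΛ

theorem oneD {n m N : ℕ} (hn : 1 ≤ n) (hm : 1 ≤ m) (hN : 1 ≤ N) (γ : ℕ → ℕ → ℝ) (h : ℕ → ℝ)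
    (hγ : ∀ j, γ 1 j = n * h j) {Λ₁ Λ₂ : ℝ}
    (h1 : ∀ w θ τ : ℝ, |w| ≤ 1 → m * |τ| ≤ 1 →
      |∑ j ∈ range (m + 1), w ^ j * ∑ i ∈ range (n + 1), γ i j * (Real.sin (θ + j * τ) / 2) ^ i| ≤ Λ₁)
    (h2 : ∀ w : ℝ, |w| ≤ 1 → |∑ j ∈ range (m + 1), w ^ j * h j| ≤ Λ₂) :
    |h 1| ≤ m * (m + 1) * (98 * (m : ℝ) ^ 2 / n * Λ₁) +
      2 * N * (N + 1) * (Λ₂ + 98 * (m : ℝ) ^ 2 / n * Λ₁ + 2 * (n + 1) * Λ₁ / 2 ^ N) := by
  classical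
  have hn' : (1 : ℝ) ≤ n := by exact_mod_cast hn
  have hm' : (1 : ℝ) ≤ m := by exact_mod_cast hm
  have hn0 : (n : ℂ) ≠ 0 := by exact_mod_cast (by omega : n ≠ 0)
  have hΛ : 0 ≤ Λ₁ := (abs_nonneg _).trans (h1 0 0 0 (by simp) (by simp))
  set S := Icc (-(n : ℤ)) n with hS
  set Slo := S.filter (fun k => |k| < 7 * (m : ℤ)) with hSlo
  set Shi := S.filter (fun k => ¬ |k| < 7 * (m : ℤ)) with hShi
  set lo : ℕ → ℂ := fun j => (2 / n : ℂ) * ∑ k ∈ Slo, Complex.I * k * Fc (odP n γ j) k with hlo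
  set hi : ℕ → ℂ := fun j => (2 / n : ℂ) * ∑ k ∈ Shi, Complex.I * k * Fc (odP n γ j) k with hhi
  have hsplit : ∀ j, (h j : ℂ) = lo j + hi j := by
    intro j
    simp only [hlo, hhi]
    rw [← mul_add, hSlo, hShi, sum_filter_add_sum_filter_not, od_c hn γ j, hγ j]
    push_cast
    field_simp
  have hn2 : ‖(2 / n : ℂ)‖ = 2 / n := by
    rw [norm_div, Complex.norm_natCast]; simp
  have hBlo : ∑ k ∈ Slo, |(k : ℝ)| ≤ 49 * (m : ℝ) ^ 2 := by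
    have hsub : Slo ⊆ Icc (-((7 * m - 1 : ℕ) : ℤ)) (7 * m - 1 : ℕ) := by
      intro k hk
      have := (mem_filter.mp hk).2
      rw [abs_lt] at this
      rw [mem_Icc]
      constructor <;> omega
    refine (sum_le_sum_of_subset_of_nonneg hsub (fun _ _ _ => abs_nonneg _)).trans ?_
    rw [sum_abs_Icc]
    have : ((7 * m - 1 : ℕ) : ℝ) = 7 * m - 1 := by
      rw [Nat.cast_sub (by omega)]; push_cast; ring
    rw [this]
    nlinarith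
  have hBhi : ∑ k ∈ Shi, |(k : ℝ)| ≤ n * (n + 1) := by
    rw [← sum_abs_Icc]
    exact sum_le_sum_of_subset_of_nonneg (filter_subset _ _) (fun _ _ _ => abs_nonneg _)
  have hloB : ∀ w : ℝ, |w| ≤ 1 →
      ‖∑ j ∈ range (m + 1), lo j * (w : ℂ) ^ j‖ ≤ 98 * (m : ℝ) ^ 2 / n * Λ₁ := by
    intro w hw
    have e : ∑ j ∈ range (m + 1), lo j * (w : ℂ) ^ j = (2 / n : ℂ) * ∑ k ∈ Slo, Complex.I * k *
        ∑ j ∈ range (m + 1), (w : ℂ) ^ j * Fc (odP n γ j) k := by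
      simp only [hlo, mul_sum, sum_mul]
      rw [sum_comm]
      refine sum_congr rfl fun k _ => sum_congr rfl fun j _ => by ring
    rw [e, norm_mul, hn2]
    have := od_norm_sum Slo (fun k => ∑ j ∈ range (m + 1), (w : ℂ) ^ j * Fc (odP n γ j) k) hΛ
      (fun k _ => by simpa using od_a γ h1 w 0 hw (by simp) k) hBlo
    calc _ ≤ 2 / (n : ℝ) * (49 * (m : ℝ) ^ 2 * Λ₁) :=
          mul_le_mul_of_nonneg_left this (by positivity)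
      _ = _ := by ring
  have hhiL : ∀ j ≤ m, ‖hi j‖ ≤ 2 * (n + 1) * Λ₁ := by
    intro j hj
    simp only [hhi]
    rw [norm_mul, hn2]
    have := od_norm_sum Shi (fun k => Fc (odP n γ j) k) hΛ
      (fun k hk => od_b hm γ h1 k (not_lt.mp (mem_filter.mp hk).2) j hj) hBhi
    calc _ ≤ 2 / (n : ℝ) * (n * (n + 1) * Λ₁) :=
          mul_le_mul_of_nonneg_left this (by positivity)
      _ = _ := by field_simp
  have hhiB : ∀ w : ℝ, |w| ≤ 1 →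
      ‖∑ j ∈ range (m + 1), hi j * (w : ℂ) ^ j‖ ≤ Λ₂ + 98 * (m : ℝ) ^ 2 / n * Λ₁ := by
    intro w hw
    have e : ∑ j ∈ range (m + 1), hi j * (w : ℂ) ^ j =
        ((∑ j ∈ range (m + 1), w ^ j * h j : ℝ) : ℂ) - ∑ j ∈ range (m + 1), lo j * (w : ℂ) ^ j := by
      rw [Complex.ofReal_sum, ← sum_sub_distrib]
      refine sum_congr rfl fun j _ => ?_
      rw [Complex.ofReal_mul, hsplit j, Complex.ofReal_pow]
      ring
    rw [e]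
    refine (norm_sub_le _ _).trans (add_le_add ?_ (hloB w hw))
    rw [Complex.norm_real, Real.norm_eq_abs]
    exact h2 w hw
  have a1 := coeff_one_le hm lo hloB
  have a2 := coeff_one_le' hm hN hi hhiB hhiL
  have e : |h 1| = ‖lo 1 + hi 1‖ := by
    rw [← hsplit 1, Complex.norm_real, Real.norm_eq_abs]
  rw [e]
  exact (norm_add_le _ _).trans (add_le_add a1 a2)

end Crest.Agent.R118
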