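import Crest.Agent.R118.Basic

/-!
Choice of the parameters.  Let `R : ℕ` with `q, r ≤ R`, `1 ≤ R`; for `p` large put `m = 2^(pR)`, `n = m^(5R) = 2^(5pR²)`,
`N = 11 p R²`.  Then `n^(1-1/r) = n * n^(-1/r) ≤ n / m^5`, `m^(1-1/q) ≤ m / 2^p ≤ m`, `n (n+1) / 2^N ≤ 2 / 2^p`.
With `B = (|C|+1)(|D|+1)`, the quantity is at most
`2B·98·m³(m+1)/m⁵ + 2B·2N(N+1)(98 m²/m⁵ + 2 n(n+1)/2^N) + (|C|+1) 2N(N+1)/2^p ≤ B' (p+1)² / 2^p → 0`
(`tendsto_pow_const_div_const_pow_of_one_lt`).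
-/

set_option autoImplicit false

namespace Crest.Agent.R118

open Matrix Finset

theorem param_rpow {y r : ℝ} (hy : 1 ≤ y) {R : ℕ} (hr : 0 < r) (hrR : r ≤ R) :
    (y ^ R) ^ (1 - 1 / r) ≤ y ^ R / y := by
  have hR : (0 : ℝ) < R := hr.trans_le hrR
  have hR0 : R ≠ 0 := by
    rintro rfl
    simp at hR
  have h1 : (1 : ℝ) ≤ y ^ R := one_le_pow₀ hy
  have h2 : (y ^ R) ^ (1 - 1 / r) ≤ (y ^ R) ^ (1 - 1 / (R : ℝ)) :=
    Real.rpow_le_rpow_of_exponent_le h1 (by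
      have := one_div_le_one_div_of_le hr hrR
      linarith)
  refine h2.trans (le_of_eq ?_)
  rw [Real.rpow_sub (by linarith), Real.rpow_one, one_div,
    Real.pow_rpow_inv_natCast (by linarith) hR0]

theorem param_core {n m P N α β c d : ℝ} (hn : 1 ≤ n) (hm : 1 ≤ m) (hP : 0 < P) (hN : 1 ≤ N)
    (hα0 : 0 ≤ α) (hβ0 : 0 ≤ β) (hα : α ≤ n / m ^ 4) (hβ : β ≤ m / P) (hc : 0 ≤ c) (hd : 0 ≤ d) :
    (2 * (d * α)) * (c * β) * (98 * m ^ 2 / n * (m + 1) +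
        2 * N * (N + 1) * (98 * m ^ 2 / n + 2 * (n + 1) / n ^ 2) / m) +
      (c * β) * (2 * N * (N + 1) / m) ≤ (604 * d * c + 2 * c) * (2 * N ^ 2) / P := by
  have hn0 : 0 < n := by linarith
  have hm0 : 0 < m := by linarith
  set Q := N * (N + 1) with hQ
  have hQ1 : 2 ≤ Q := by nlinarith
  have hQ2 : Q ≤ 2 * N ^ 2 := by nlinarith
  have hm4 : 1 ≤ m ^ 4 := one_le_pow₀ hm
  have hm2 : 1 ≤ m ^ 2 := one_le_pow₀ hm
  have hK0 : 0 ≤ 98 * m ^ 2 / n * (m + 1) +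
      2 * N * (N + 1) * (98 * m ^ 2 / n + 2 * (n + 1) / n ^ 2) / m := by positivity
  have hab : α * β ≤ n / m ^ 4 * (m / P) := mul_le_mul hα hβ hβ0 (by positivity)
  have h1 : n / m ^ 4 * (m / P) * (98 * m ^ 2 / n * (m + 1) +
      2 * N * (N + 1) * (98 * m ^ 2 / n + 2 * (n + 1) / n ^ 2) / m) =
      (98 * ((m + 1) / m) + 2 * Q * (98 / m ^ 2 + 2 * ((n + 1) / n) / m ^ 4)) / P := by
    rw [hQ]; field_simp
  have h2 : (m + 1) / m ≤ 2 := by rw [div_le_iff₀ hm0]; linarith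
  have h3 : (n + 1) / n ≤ 2 := by rw [div_le_iff₀ hn0]; linarith
  have h4 : 98 / m ^ 2 ≤ 98 := div_le_self (by norm_num) hm2
  have h5 : 2 * ((n + 1) / n) / m ^ 4 ≤ 4 :=
    (div_le_self (by positivity) hm4).trans (by linarith)
  have h6 : 98 * ((m + 1) / m) + 2 * Q * (98 / m ^ 2 + 2 * ((n + 1) / n) / m ^ 4) ≤
      302 * (2 * N ^ 2) := by
    have : 2 * Q * (98 / m ^ 2 + 2 * ((n + 1) / n) / m ^ 4) ≤ 2 * Q * 102 :=
      mul_le_mul_of_nonneg_left (by linarith) (by linarith)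
    linarith
  have h7 : α * β * (98 * m ^ 2 / n * (m + 1) +
      2 * N * (N + 1) * (98 * m ^ 2 / n + 2 * (n + 1) / n ^ 2) / m) ≤ 302 * (2 * N ^ 2) / P := by
    refine (mul_le_mul_of_nonneg_right hab hK0).trans ?_
    rw [h1]
    exact div_le_div_of_nonneg_right h6 hP.le
  have h8 : β * (2 * N * (N + 1) / m) ≤ 2 * (2 * N ^ 2) / P := by
    have h9 : β * (2 * N * (N + 1) / m) ≤ m / P * (2 * N * (N + 1) / m) :=
      mul_le_mul_of_nonneg_right hβ (by positivity)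
    refine h9.trans ?_
    have : m / P * (2 * N * (N + 1) / m) = 2 * Q / P := by rw [hQ]; field_simp
    rw [this]
    exact div_le_div_of_nonneg_right (by linarith) hP.le
  have h10 := mul_le_mul_of_nonneg_left h7 (by positivity : 0 ≤ 2 * d * c)
  have h11 := mul_le_mul_of_nonneg_left h8 hc
  calc _ = 2 * d * c * (α * β * (98 * m ^ 2 / n * (m + 1) +
        2 * N * (N + 1) * (98 * m ^ 2 / n + 2 * (n + 1) / n ^ 2) / m)) +
        c * (β * (2 * N * (N + 1) / m)) := by ring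
    _ ≤ 2 * d * c * (302 * (2 * N ^ 2) / P) + c * (2 * (2 * N ^ 2) / P) := add_le_add h10 h11
    _ = _ := by ring

theorem param (q r C D : ℝ) (hq : 2 ≤ q) (hr : 2 ≤ r) :
    ∃ n m N : ℕ, 1 ≤ n ∧ 1 ≤ m ∧ 1 ≤ N ∧
      (2 * ((|D| + 1) * (n : ℝ) ^ (1 - 1 / r))) * ((|C| + 1) * (m : ℝ) ^ (1 - 1 / q)) * K1 n m N +
        ((|C| + 1) * (m : ℝ) ^ (1 - 1 / q)) * K2 m N ≤ 1 / 16 := by
  obtain ⟨R, hR⟩ := exists_nat_ge (max q r)
  have hqR : q ≤ R := (le_max_left _ _).trans hR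
  have hrR : r ≤ R := (le_max_right _ _).trans hR
  have hR1 : 1 ≤ R := by
    have : (1 : ℝ) ≤ R := by linarith
    exact_mod_cast this
  set c : ℝ := |C| + 1 with hc
  set d : ℝ := |D| + 1 with hd
  have hc0 : 0 ≤ c := by positivity
  have hd0 : 0 ≤ d := by positivity
  set L : ℝ := (604 * d * c + 2 * c) * (128 * (R : ℝ) ^ 4) with hL
  have ht : Filter.Tendsto (fun p : ℕ => L * ((p : ℝ) ^ 2 / 2 ^ p)) Filter.atTop (nhds (L * 0)) :=
    (tendsto_pow_const_div_const_pow_of_one_lt 2 (by norm_num : (1 : ℝ) < 2)).const_mul L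
  rw [mul_zero] at ht
  obtain ⟨p, hp, hp1⟩ := ((ht.eventually (ge_mem_nhds (by norm_num : (0 : ℝ) < 1 / 16))).and
    (Filter.eventually_ge_atTop 1)).exists
  refine ⟨(((2 ^ p) ^ R) ^ 4) ^ R, (2 ^ p) ^ R, 8 * p * R ^ 2, Nat.one_le_pow _ _ (by positivity),
    Nat.one_le_pow _ _ (by positivity), Nat.succ_le_of_lt (by positivity), ?_⟩
  have hP1 : (1 : ℝ) ≤ 2 ^ p := one_le_pow₀ (by norm_num)
  have hm1 : (1 : ℝ) ≤ (2 ^ p) ^ R := one_le_pow₀ hP1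
  have hm4 : (1 : ℝ) ≤ ((2 ^ p) ^ R) ^ 4 := one_le_pow₀ hm1
  have hn1 : (1 : ℝ) ≤ (((2 ^ p) ^ R) ^ 4) ^ R := one_le_pow₀ hm4
  have hN1 : (1 : ℝ) ≤ ((8 * p * R ^ 2 : ℕ) : ℝ) := by
    exact_mod_cast Nat.succ_le_of_lt (by positivity : 0 < 8 * p * R ^ 2)
  have hT : (2 : ℝ) ^ (8 * p * R ^ 2) = ((((2 ^ p) ^ R) ^ 4) ^ R) ^ 2 := by
    simp only [← pow_mul]
    congr 1
    ring
  have key := param_core hn1 hm1 (by positivity : (0 : ℝ) < 2 ^ p) hN1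
    (Real.rpow_nonneg (by positivity) (1 - 1 / r)) (Real.rpow_nonneg (by positivity) (1 - 1 / q))
    (param_rpow hm4 (by linarith) hrR) (param_rpow hP1 (by linarith) hqR) hc0 hd0
  unfold K1 K2
  rw [hT]
  push_cast at key ⊢
  refine key.trans (le_trans (le_of_eq ?_) hp)
  rw [hL]
  ring

end Crest.Agent.R118
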