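import Crest.Agent.R118.Trans
import Crest.Agent.R118.Chain

/-!
The potential argument.  `j = n + m`.
`pot_abstract` (pure real analysis): `P d k M` is monotone in `M` and closed under limits from above.  Claim `Q M := ∀ d k, P d k (M ρ^k 2^d)`.
`Q γ` holds; `Q M → Q (max A (M/2))` with `A = 2 / ρ^(k₀+j)`: for `k < k₀ + j` use `hlow` (`2·2^d ≤ A ρ^k 2^d`), for `k = j + k'`, `k' ≥ k₀` use `hrec` with
`M₁ = M ρ^k' 2^(d+1)`, `M₂ = M ρ^(j+k'+k') 2^(d+1)`: `δ M₁ + B M₂ ≤ (1/8 + 1/8) · 2 · M ρ^k 2^d`.  Iterate: `Q (max A (γ/2^p))`, take `p` with `γ/2^p ≤ A`.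
`walsh_of_rec`: choose `ρ ∈ [3/4, 1)` with `ρ^j ≥ 1/2` (e.g. `ρ = 1 - 1/(4(j+1))`, Bernoulli `one_add_mul_le_pow`), `k₀` with `B ρ^k₀ ≤ 1/8`.
Given `k, x, y`, take the chain from `V₀ = range x`, for `0 < ε ≤ 1` the operator `u` of `exists_approx`; `P d k M = WB (pk k) u (V d) M`
(`hlow` from `WB_of_norm_le`: `‖u v‖ ≤ (1 + ε 2^d)‖v‖ ≤ 2·2^d ‖v‖`; base from `WB_finite_rank`).  Then
`had id x y = had u x y + had (id - u) x y`, `|had (id - u) x y| ≤ ε n2 x n2 y` (`WB_of_norm_le`), let `ε → 0`.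
-/

set_option autoImplicit false

namespace Crest.Agent.R118

open Matrix Finset

variable {X : Type*} [NormedAddCommGroup X] [NormedSpace ℝ X]


theorem pot_abstract (P : ℕ → ℕ → ℝ → Prop) (hmono : ∀ d k M M', M ≤ M' → P d k M → P d k M')
    {j k₀ : ℕ} {ρ δ B γ : ℝ} (hρ : 0 < ρ) (hρ1 : ρ ≤ 1) (hδ : 0 ≤ δ) (hB : 0 ≤ B) (hγ : 0 ≤ γ)
    (h1 : δ ≤ ρ ^ j / 8) (h2 : B * ρ ^ k₀ ≤ 1 / 8)
    (hbase : ∀ d k, P d k (γ * ρ ^ k)) (hlow : ∀ d k, P d k (2 * 2 ^ d))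
    (hrec : ∀ d k M₁ M₂, 0 ≤ M₁ → 0 ≤ M₂ → P (d + 1) k M₁ → P (d + 1) (j + k + k) M₂ →
      P d (j + k) (δ * M₁ + B * M₂)) :
    ∀ k, P 0 k (2 / ρ ^ (k₀ + j) * ρ ^ k) := by
  set A : ℝ := 2 / ρ ^ (k₀ + j) with hA
  have hA0 : 0 ≤ A := by positivity
  have step : ∀ M, 0 ≤ M → (∀ d k, P d k (M * ρ ^ k * 2 ^ d)) →
      ∀ d k, P d k (max A (M / 2) * ρ ^ k * 2 ^ d) := by
    intro M hM hQ d k
    by_cases hk : k < k₀ + j
    · refine hmono d k _ _ ?_ (hlow d k)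
      have h3 : ρ ^ (k₀ + j) ≤ ρ ^ k := pow_le_pow_of_le_one hρ.le hρ1 hk.le
      have h4 : 2 ≤ A * ρ ^ k := by
        rw [hA, div_mul_eq_mul_div, le_div_iff₀ (by positivity)]
        linarith
      have h5 : A * ρ ^ k ≤ max A (M / 2) * ρ ^ k :=
        mul_le_mul_of_nonneg_right (le_max_left _ _) (by positivity)
      exact mul_le_mul_of_nonneg_right (h4.trans h5) (by positivity)
    · obtain ⟨k', rfl⟩ : ∃ k', k = j + k' := ⟨k - j, by omega⟩
      have hk' : k₀ ≤ k' := by omega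
      have h3 := hrec d k' _ _ (by positivity) (by positivity) (hQ (d + 1) k') (hQ (d + 1) (j + k' + k'))
      refine hmono _ _ _ _ ?_ h3
      have h4 : B * ρ ^ k' ≤ 1 / 8 :=
        (mul_le_mul_of_nonneg_left (pow_le_pow_of_le_one hρ.le hρ1 hk') hB).trans h2
      have h5 : M / 2 * ρ ^ (j + k') * 2 ^ d ≤ max A (M / 2) * ρ ^ (j + k') * 2 ^ d :=
        mul_le_mul_of_nonneg_right
          (mul_le_mul_of_nonneg_right (le_max_right _ _) (by positivity)) (by positivity)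
      refine le_trans ?_ h5
      have h6 : δ * (M * ρ ^ k' * 2 ^ (d + 1)) ≤ ρ ^ j / 8 * (M * ρ ^ k' * 2 ^ (d + 1)) :=
        mul_le_mul_of_nonneg_right h1 (by positivity)
      have h7 : B * ρ ^ k' * (M * ρ ^ (j + k') * 2 ^ (d + 1)) ≤
          1 / 8 * (M * ρ ^ (j + k') * 2 ^ (d + 1)) := mul_le_mul_of_nonneg_right h4 (by positivity)
      have e1 : B * (M * ρ ^ (j + k' + k') * 2 ^ (d + 1)) =
          B * ρ ^ k' * (M * ρ ^ (j + k') * 2 ^ (d + 1)) := by ring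
      have e2 : ρ ^ j / 8 * (M * ρ ^ k' * 2 ^ (d + 1)) + 1 / 8 * (M * ρ ^ (j + k') * 2 ^ (d + 1)) =
          M / 2 * ρ ^ (j + k') * 2 ^ d := by ring
      linarith
  have iter : ∀ p : ℕ, ∀ d k, P d k (max A (γ / 2 ^ p) * ρ ^ k * 2 ^ d) := by
    intro p
    induction p with
    | zero =>
      intro d k
      refine hmono _ _ _ _ ?_ (hbase d k)
      have h3 : γ * ρ ^ k ≤ max A (γ / 2 ^ 0) * ρ ^ k :=
        mul_le_mul_of_nonneg_right (by simp) (by positivity)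
      have h4 : (1 : ℝ) ≤ 2 ^ d := one_le_pow₀ (by norm_num)
      have h5 : 0 ≤ max A (γ / 2 ^ 0) * ρ ^ k := by positivity
      nlinarith
    | succ p ih =>
      intro d k
      refine hmono _ _ _ _ ?_ (step _ (by positivity) ih d k)
      refine mul_le_mul_of_nonneg_right (mul_le_mul_of_nonneg_right ?_ (by positivity)) (by positivity)
      refine max_le (le_max_left _ _) ?_
      rcases le_total A (γ / 2 ^ p) with h | h
      · rw [max_eq_right h]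
        refine le_trans (le_of_eq ?_) (le_max_right _ _)
        rw [pow_succ, div_div]
      · rw [max_eq_left h]
        exact le_trans (by linarith) (le_max_left _ _)
  have hApos : 0 < A := by positivity
  obtain ⟨p, hp⟩ := pow_unbounded_of_one_lt (γ / A) (by norm_num : (1 : ℝ) < 2)
  intro k
  have h3 := iter p 0 k
  have h4 : γ / 2 ^ p ≤ A := by
    rw [div_le_iff₀ (by positivity)]
    rw [div_lt_iff₀ hApos] at hp
    linarith
  rw [max_eq_left h4] at h3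
  simpa using h3

theorem walsh_of_rec (hAP : Crest.AnalysisR.HasApproximationProperty X) {n j : ℕ} {c δ B : ℝ}
    (hδ : 0 ≤ δ) (hδ' : δ ≤ 1 / 16) (hB : 0 ≤ B)
    (hcorr : ∀ x : Fin n → X, ∃ Φ : Z n → X, IsCorr x Φ c)
    (hrec : ∀ (V V' : Set X), Cl n c V V' → ∀ (u : X →L[ℝ] X) (k : ℕ) (M₁ M₂ : ℝ), 0 ≤ M₁ → 0 ≤ M₂ →
      WB (pk k) u V' M₁ → WB (pk (j + k + k)) u V' M₂ → WB (pk (j + k)) u V (δ * M₁ + B * M₂)) :
    ∃ A ρ : ℝ, 0 ≤ A ∧ 0 ≤ ρ ∧ ρ < 1 ∧ Walsh X A ρ := by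
  set ρ : ℝ := 1 - 1 / (4 * ((j : ℝ) + 1)) with hρdef
  have hj : (0 : ℝ) ≤ j := Nat.cast_nonneg j
  have hx1 : 1 / (4 * ((j : ℝ) + 1)) ≤ 1 / 4 := by
    apply one_div_le_one_div_of_le <;> linarith
  have hx0 : 0 < 1 / (4 * ((j : ℝ) + 1)) := by positivity
  have hρ34 : 3 / 4 ≤ ρ := by linarith
  have hρ1 : ρ < 1 := by linarith
  have hρ0 : 0 < ρ := by linarith
  have hρj : 1 / 2 ≤ ρ ^ j := by
    have h := one_add_mul_le_pow (a := -(1 / (4 * ((j : ℝ) + 1)))) (by linarith) j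
    have h2 : (j : ℝ) * (1 / (4 * ((j : ℝ) + 1))) ≤ 1 / 2 := by
      rw [mul_one_div, div_le_iff₀ (by positivity)]; linarith
    rw [hρdef, sub_eq_add_neg]
    linarith
  have hρ2 : 1 / 2 ≤ ρ ^ 2 := by nlinarith
  obtain ⟨k₀, hk₀⟩ : ∃ k₀ : ℕ, B * ρ ^ k₀ ≤ 1 / 8 := by
    obtain ⟨k₀, hk₀⟩ := exists_pow_lt_of_lt_one (x := 1 / (8 * (B + 1))) (by positivity) hρ1
    refine ⟨k₀, ?_⟩
    rw [lt_div_iff₀ (by positivity)] at hk₀
    have : 0 ≤ ρ ^ k₀ := by positivity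
    nlinarith
  refine ⟨2 / ρ ^ (k₀ + j), ρ, by positivity, hρ0.le, hρ1, fun k x y _ => ?_⟩
  obtain ⟨V, hV0, hVfin, hVcl⟩ := exists_chain hcorr (Set.finite_range x)
  have hxV : ∀ a, x a ∈ V 0 := fun a => hV0 ▸ Set.mem_range_self a
  have main : ∀ ε : ℝ, 0 < ε → ε ≤ 1 → |had (pk k) (ContinuousLinearMap.id ℝ X) x y| ≤
      (2 / ρ ^ (k₀ + j) * ρ ^ k + ε) * n2 x * n2 y := by
    intro ε hε hε1
    obtain ⟨u, hu, huV⟩ := exists_approx hAP V hVfin hε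
    obtain ⟨γ, hγ, hγW⟩ := WB_finite_rank u hu hρ0.le hρ2
    have h1 := pot_abstract (fun d k M => WB (pk k) u (V d) M)
      (fun d k M M' h hW => WB_mono h hW) (j := j) (k₀ := k₀) hρ0 hρ1.le hδ hB hγ
      (by linarith) hk₀ (fun d k x y _ => hγW k x y fun _ => Set.mem_univ _)
      (fun d k => WB_of_norm_le _ u (by positivity) fun v hv => by
        have h3 := huV d v hv
        have h4 : ‖u v‖ ≤ ‖u v - v‖ + ‖v‖ := by simpa using norm_add_le (u v - v) v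
        have h5 : (1 : ℝ) ≤ 2 ^ d := one_le_pow₀ (by norm_num)
        have h6 : ε * 2 ^ d * ‖v‖ ≤ 1 * 2 ^ d * ‖v‖ := by gcongr
        nlinarith [norm_nonneg v])
      (fun d k M₁ M₂ h₁ h₂ hW₁ hW₂ => hrec _ _ (hVcl d) u k M₁ M₂ h₁ h₂ hW₁ hW₂) k x y hxV
    have h2 := WB_of_norm_le (pk k) (ContinuousLinearMap.id ℝ X - u) (V := V 0) hε.le
      (fun v hv => by
        have h3 := huV 0 v hv
        rw [norm_sub_rev] at h3
        simpa using h3) x y hxV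
    have h3 : had (pk k) (ContinuousLinearMap.id ℝ X) x y =
        had (pk k) u x y + had (pk k) (ContinuousLinearMap.id ℝ X - u) x y := by
      simp only [had, ← avg_add]
      congr 1; ext a; congr 1; ext b
      simp only [ContinuousLinearMap.id_apply, ContinuousLinearMap.sub_apply, map_sub]
      ring
    rw [h3]
    refine (abs_add_le _ _).trans ?_
    linarith
  refine le_of_forall_pos_le_add fun η hη => ?_
  have hn : 0 ≤ n2 x * n2 y := mul_nonneg (n2_nonneg x) (n2_nonneg y)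
  have h1 := main (min 1 (η / (n2 x * n2 y + 1))) (by positivity) (min_le_left _ _)
  have h2 : min 1 (η / (n2 x * n2 y + 1)) * (n2 x * n2 y) ≤ η := by
    refine (mul_le_mul_of_nonneg_right (min_le_right _ _) hn).trans ?_
    rw [div_mul_eq_mul_div, div_le_iff₀ (by positivity)]
    nlinarith
  nlinarith

end Crest.Agent.R118
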