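import Crest.Agent.R118.Trig

/-!
Linear "three lines" bounds for the linear coefficient of a polynomial.
Let `ℓ_N F = ∑_{|k| ≤ N} I k Fc (F ∘ sin) k`; `‖ℓ_N F‖ ≤ N (N+1) sup_{[-1,1]} ‖F‖` (`∑_{|k| ≤ N} |k| = N(N+1)`, `norm_Fc_le`),
`ℓ_N (x^j) = [j=1]` for `j ≤ N` (`Fc_sin_pow`), linear (`Fc_sum`).
* `coeff_one_le`: `N = m`.
* `coeff_one_le'`: apply `ℓ_N` to `F x = ∑ a j (x/2)^j`: `ℓ_N F = a 1 / 2 + ∑_{N < j ≤ m} a j 2^{-j} ℓ_N(x^j)`,
  `∑_{j > N} 2^{-j} ≤ 2^{-N}`.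
-/

set_option autoImplicit false

namespace Crest.Agent.R118

open Matrix Finset

theorem sum_abs_Icc (N : ℕ) : ∑ k ∈ Icc (-(N : ℤ)) N, |(k : ℝ)| = N * (N + 1) := by
  induction N with
  | zero => simp
  | succ n ih =>
    have h1 : Icc (-((n + 1 : ℕ) : ℤ)) ((n + 1 : ℕ) : ℤ) =
        insert (-((n + 1 : ℕ) : ℤ)) (insert ((n + 1 : ℕ) : ℤ) (Icc (-(n : ℤ)) n)) := by
      ext k
      simp only [mem_Icc, mem_insert]
      push_cast
      omega
    rw [h1, sum_insert, sum_insert, ih]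
    · push_cast
      have h2 : |(-((n : ℝ) + 1))| = n + 1 := by
        rw [abs_neg]; exact abs_of_nonneg (by positivity)
      have h3 : |((n : ℝ) + 1)| = n + 1 := abs_of_nonneg (by positivity)
      rw [h2, h3]; ring
    · simp only [mem_Icc]; push_cast; omega
    · simp only [mem_Icc, mem_insert]; push_cast; omega

/-- the derivative functional -/
noncomputable def tlEll (N : ℕ) (p : ℝ → ℂ) : ℂ :=
  ∑ k ∈ Icc (-(N : ℤ)) N, Complex.I * k * Fc p k

theorem tl_norm_ell (N : ℕ) (p : ℝ → ℂ) {c : ℝ} (h : ∀ θ, ‖p θ‖ ≤ c) :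
    ‖tlEll N p‖ ≤ N * (N + 1) * c := by
  unfold tlEll
  calc ‖∑ k ∈ Icc (-(N : ℤ)) N, Complex.I * k * Fc p k‖
      ≤ ∑ k ∈ Icc (-(N : ℤ)) N, ‖Complex.I * k * Fc p k‖ := norm_sum_le _ _
    _ ≤ ∑ k ∈ Icc (-(N : ℤ)) N, |(k : ℝ)| * c := by
        refine sum_le_sum fun k _ => ?_
        rw [norm_mul, norm_mul, Complex.norm_I, one_mul, Complex.norm_intCast]
        exact mul_le_mul_of_nonneg_left (norm_Fc_le p (fun θ _ => h θ) k) (abs_nonneg _)
    _ = N * (N + 1) * c := by rw [← sum_mul, sum_abs_Icc]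

theorem tl_ell_sum (N : ℕ) (s : Finset ℕ) (c : ℕ → ℂ) :
    tlEll N (fun θ => ∑ j ∈ s, c j * ((Real.sin θ : ℝ) : ℂ) ^ j) =
      ∑ j ∈ s, c j * tlEll N (fun θ => ((Real.sin θ : ℝ) : ℂ) ^ j) := by
  unfold tlEll
  have hc : ∀ j : ℕ, Continuous (fun θ : ℝ => ((Real.sin θ : ℝ) : ℂ) ^ j) := fun j =>
    (Complex.continuous_ofReal.comp Real.continuous_sin).pow j
  simp_rw [Fc_sum s c (fun j θ => ((Real.sin θ : ℝ) : ℂ) ^ j) hc, mul_sum]
  rw [sum_comm]
  refine sum_congr rfl fun j _ => sum_congr rfl fun k _ => ?_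
  ring

theorem tl_ell_pow {N j : ℕ} (hj : j ≤ N) :
    tlEll N (fun θ => ((Real.sin θ : ℝ) : ℂ) ^ j) = if j = 1 then 1 else 0 :=
  Fc_sin_pow hj

theorem tl_norm_ell_pow (N j : ℕ) :
    ‖tlEll N (fun θ => ((Real.sin θ : ℝ) : ℂ) ^ j)‖ ≤ N * (N + 1) := by
  have := tl_norm_ell N (fun θ => ((Real.sin θ : ℝ) : ℂ) ^ j) (c := 1) (fun θ => by
    rw [norm_pow, Complex.norm_real, Real.norm_eq_abs]
    exact pow_le_one₀ (abs_nonneg _) (Real.abs_sin_le_one θ))
  simpa using this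

theorem tl_geom (N m : ℕ) :
    ∑ j ∈ range (m + 1), (if j ≤ N then (0 : ℝ) else 1 / 2 ^ j) ≤ 1 / 2 ^ N := by
  have key : ∀ m : ℕ, ∑ j ∈ range m, (if j ≤ N then (0 : ℝ) else 1 / 2 ^ j) ≤
      1 / 2 ^ N - (if m ≤ N + 1 then 1 / 2 ^ N else 2 / 2 ^ m) := by
    intro m
    induction m with
    | zero => simp
    | succ k ih =>
      rw [sum_range_succ]
      by_cases h1 : k ≤ N
      · have h2 : k ≤ N + 1 := by omega
        have h3 : k + 1 ≤ N + 1 := by omega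
        simp only [h1, h2, h3, if_true] at ih ⊢
        linarith
      · by_cases h2 : k ≤ N + 1
        · have h3 : ¬ k + 1 ≤ N + 1 := by omega
          have h4 : k = N + 1 := by omega
          simp only [h1, h2, h3, if_true, if_false] at ih ⊢
          subst h4
          have : (1 : ℝ) / 2 ^ (N + 1) + 2 / 2 ^ (N + 1 + 1) = 1 / 2 ^ N := by
            field_simp; ring
          linarith
        · have h3 : ¬ k + 1 ≤ N + 1 := by omega
          simp only [h1, h2, h3, if_false] at ih ⊢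
          have : (2 : ℝ) / 2 ^ k = 1 / 2 ^ k + 2 / 2 ^ (k + 1) := by
            field_simp; ring
          linarith
  refine (key (m + 1)).trans ?_
  have : (0 : ℝ) ≤ (if m + 1 ≤ N + 1 then 1 / 2 ^ N else 2 / 2 ^ (m + 1)) := by
    split_ifs <;> positivity
  linarith

theorem coeff_one_le {m : ℕ} (hm : 1 ≤ m) (a : ℕ → ℂ) {Λ : ℝ}
    (h : ∀ w : ℝ, |w| ≤ 1 → ‖∑ j ∈ range (m + 1), a j * (w : ℂ) ^ j‖ ≤ Λ) :
    ‖a 1‖ ≤ m * (m + 1) * Λ := by
  have h1 := tl_norm_ell m (fun θ => ∑ j ∈ range (m + 1), a j * ((Real.sin θ : ℝ) : ℂ) ^ j)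
    (fun θ => h _ (Real.abs_sin_le_one θ))
  rw [tl_ell_sum] at h1
  have h2 : ∑ j ∈ range (m + 1), a j * tlEll m (fun θ => ((Real.sin θ : ℝ) : ℂ) ^ j) = a 1 := by
    rw [sum_congr rfl (g := fun j => if j = 1 then a j else 0)]
    · rw [sum_ite_eq' (range (m + 1)) 1 a, if_pos (by simp; omega)]
    · intro j hj
      rw [tl_ell_pow (by simpa [Nat.lt_succ_iff] using hj)]
      split_ifs <;> simp
  rwa [h2] at h1

theorem coeff_one_le' {m N : ℕ} (hm : 1 ≤ m) (hN : 1 ≤ N) (a : ℕ → ℂ) {Λ L : ℝ}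
    (h : ∀ w : ℝ, |w| ≤ 1 → ‖∑ j ∈ range (m + 1), a j * (w : ℂ) ^ j‖ ≤ Λ)
    (hL : ∀ j ≤ m, ‖a j‖ ≤ L) :
    ‖a 1‖ ≤ 2 * N * (N + 1) * (Λ + L / 2 ^ N) := by
  have hL0 : 0 ≤ L := (norm_nonneg _).trans (hL 0 (Nat.zero_le _))
  have h1 := tl_norm_ell N
    (fun θ => ∑ j ∈ range (m + 1), (a j / 2 ^ j) * ((Real.sin θ : ℝ) : ℂ) ^ j) (c := Λ)
    (fun θ => by
      have := h (Real.sin θ / 2) (by
        rw [abs_div, abs_two]
        have := Real.abs_sin_le_one θ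
        linarith [abs_nonneg (Real.sin θ)])
      convert this using 2
      refine sum_congr rfl fun j _ => ?_
      push_cast
      rw [div_pow]; ring)
  rw [tl_ell_sum] at h1
  set e : ℕ → ℂ := fun j => tlEll N (fun θ => ((Real.sin θ : ℝ) : ℂ) ^ j) with he
  have h2 : ∑ j ∈ range (m + 1), a j / 2 ^ j * e j =
      a 1 / 2 + ∑ j ∈ range (m + 1), (if j ≤ N then 0 else a j / 2 ^ j * e j) := by
    have h3 : a 1 / 2 = ∑ j ∈ range (m + 1), (if j = 1 then a j / 2 ^ j else 0) := by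
      rw [sum_ite_eq' (range (m + 1)) 1 (fun j => a j / 2 ^ j), if_pos (by simp; omega)]
      simp
    rw [h3, ← sum_add_distrib]
    refine sum_congr rfl fun j _ => ?_
    by_cases hj : j ≤ N
    · have : e j = if j = 1 then 1 else 0 := tl_ell_pow hj
      rw [this]
      simp only [hj, if_true]
      split_ifs <;> simp
    · have : j ≠ 1 := by omega
      simp [hj, this]
  have h4 : ‖∑ j ∈ range (m + 1), (if j ≤ N then 0 else a j / 2 ^ j * e j)‖ ≤
      N * (N + 1) * (L / 2 ^ N) := by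
    calc ‖∑ j ∈ range (m + 1), (if j ≤ N then 0 else a j / 2 ^ j * e j)‖
        ≤ ∑ j ∈ range (m + 1), ‖(if j ≤ N then 0 else a j / 2 ^ j * e j)‖ := norm_sum_le _ _
      _ ≤ ∑ j ∈ range (m + 1), (N * (N + 1) * L) * (if j ≤ N then (0 : ℝ) else 1 / 2 ^ j) := by
          refine sum_le_sum fun j hj => ?_
          split_ifs with hjN
          · simp
          · rw [norm_mul, norm_div, norm_pow, Complex.norm_two]
            have ha := hL j (by simpa [Nat.lt_succ_iff] using hj)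
            have hb : ‖e j‖ ≤ N * (N + 1) := tl_norm_ell_pow N j
            calc ‖a j‖ / 2 ^ j * ‖e j‖ ≤ L / 2 ^ j * (N * (N + 1)) := by gcongr
              _ = _ := by ring
      _ = (N * (N + 1) * L) * ∑ j ∈ range (m + 1), (if j ≤ N then (0 : ℝ) else 1 / 2 ^ j) := by
          rw [mul_sum]
      _ ≤ (N * (N + 1) * L) * (1 / 2 ^ N) :=
          mul_le_mul_of_nonneg_left (tl_geom N m) (by positivity)
      _ = _ := by ring
  change ‖∑ j ∈ range (m + 1), a j / 2 ^ j * e j‖ ≤ _ at h1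
  rw [h2] at h1
  have h5 : ‖a 1 / 2‖ ≤ N * (N + 1) * Λ + N * (N + 1) * (L / 2 ^ N) := by
    have := norm_sub_le (a 1 / 2 + ∑ j ∈ range (m + 1), (if j ≤ N then 0 else a j / 2 ^ j * e j))
      (∑ j ∈ range (m + 1), (if j ≤ N then 0 else a j / 2 ^ j * e j))
    rw [add_sub_cancel_right] at this
    linarith
  rw [norm_div, Complex.norm_two] at h5
  linarith

end Crest.Agent.R118
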