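import Crest.Agent.R118.Basic

/-!
Transport of `WB` along equivalences of index sets, monotonicity, and the finite-rank decay.
`Z (n + m) ≃ Z n × Z m` by `Fin.append` / `Fin.appendEquiv` / `(Equiv.arrowCongr finSumFinEquiv.symm (Equiv.refl _)).trans (Equiv.sumArrowEquivProdArrow ..)`,
with `Fin.sum_univ_add` for the dot product.
`had_scalar`: `|avg_a avg_b sg (a ⬝ b) f a g b| ≤ n2 (fun b => fc f b) * n2 g` and Parseval `∑_b (fc f b)² = avg f²`
(from `fc_inv`), so `n2 (fc f) ² = 2^{-k} (n2 f)²`.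
`WB_finite_rank`: take a basis `z i` of the range of `u` (`Module.finBasis`), `φ i = coord i ∘ u` continuous
(`LinearMap.continuous_of_finiteDimensional`), `u x = ∑ φ i x • z i`; `γ = ∑ ‖φ i‖ ‖z i‖`; `(1/2)^k ≤ (ρ²)^k`.
-/

set_option autoImplicit false

namespace Crest.Agent.R118

open Matrix Finset

variable {X : Type*} [NormedAddCommGroup X] [NormedSpace ℝ X]


theorem trans_had_equiv {α β : Type*} [Fintype α] [Fintype β] (e : α ≃ β) {p : α → α → ZMod 2}
    {p' : β → β → ZMod 2} (h : ∀ a b, p a b = p' (e a) (e b)) (u : X →L[ℝ] X) (x : β → X)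
    (y : β → StrongDual ℝ X) :
    had p u (fun a => x (e a)) (fun a => y (e a)) = had p' u x y := by
  unfold had
  rw [← avg_equiv e (fun a => avg fun b => sg (p' a b) * y b (u (x a)))]
  congr 1; ext a
  rw [← avg_equiv e (fun b => sg (p' (e a) b) * y b (u (x (e a))))]
  simp only [h]

theorem trans_WB_imp {α β : Type*} [Fintype α] [Fintype β] (e : α ≃ β) {p : α → α → ZMod 2}
    {p' : β → β → ZMod 2} (h : ∀ a b, p a b = p' (e a) (e b)) {u : X →L[ℝ] X} {V : Set X} {M : ℝ}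
    (hW : WB p u V M) : WB p' u V M := by
  intro x y hx
  rw [← trans_had_equiv e h u x y, ← n2_equiv e x, ← n2_equiv e y]
  exact hW _ _ fun a => hx _

theorem WB_equiv {α β : Type*} [Fintype α] [Fintype β] (e : α ≃ β) {p : α → α → ZMod 2}
    {p' : β → β → ZMod 2} (h : ∀ a b, p a b = p' (e a) (e b)) {u : X →L[ℝ] X} {V : Set X} {M : ℝ} :
    WB p u V M ↔ WB p' u V M :=
  ⟨trans_WB_imp e h, trans_WB_imp e.symm fun a b => by rw [h]; simp⟩

theorem WB_mono {α : Type*} [Fintype α] {p : α → α → ZMod 2} {u : X →L[ℝ] X} {V : Set X}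
    {M M' : ℝ} (h : M ≤ M') (hW : WB p u V M) : WB p u V M' := fun x y hx =>
  (hW x y hx).trans (mul_le_mul_of_nonneg_right
    (mul_le_mul_of_nonneg_right h (n2_nonneg x)) (n2_nonneg y))

/-- concatenation of bit vectors -/
def transApp (n m : ℕ) : Z n × Z m ≃ Z (n + m) := Fin.appendEquiv n m

theorem transApp_dot {n m : ℕ} (s t : Z n × Z m) :
    transApp n m s ⬝ᵥ transApp n m t = s.1 ⬝ᵥ t.1 + s.2 ⬝ᵥ t.2 := by
  simp [transApp, dotProduct, Fin.sum_univ_add, Fin.appendEquiv]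

/-- flattening of `H n m k` -/
def transH (n m k : ℕ) : H n m k ≃ Z (n + m + k) :=
  (Equiv.prodAssoc _ _ _).symm.trans
    ((Equiv.prodCongr (transApp n m) (Equiv.refl _)).trans (transApp (n + m) k))

theorem transH_dot {n m k : ℕ} (s t : H n m k) : p3 s t = transH n m k s ⬝ᵥ transH n m k t := by
  simp only [transH, Equiv.trans_apply, transApp_dot, Equiv.prodCongr_apply, Prod.map_fst,
    Prod.map_snd, Equiv.prodAssoc_symm_apply, Equiv.refl_apply, p3]

theorem WB_p3 {n m k : ℕ} {u : X →L[ℝ] X} {V : Set X} {M : ℝ} :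
    WB (p3 (n := n) (m := m) (k := k)) u V M ↔ WB (pk (n + m + k)) u V M :=
  WB_equiv (transH n m k) fun a b => transH_dot a b

theorem WB_p4 {n m k : ℕ} {u : X →L[ℝ] X} {V : Set X} {M : ℝ} :
    WB (p4 (n := n) (m := m) (k := k)) u V M ↔ WB (pk (n + m + k + k)) u V M := by
  refine WB_equiv ((Equiv.prodCongr (transH n m k) (Equiv.refl _)).trans
    (transApp (n + m + k) k)) fun a b => ?_
  simp only [p4, pk, Equiv.trans_apply, transApp_dot, Equiv.prodCongr_apply, Prod.map_fst,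
    Prod.map_snd, Equiv.refl_apply, transH_dot]

/-- trivial bound -/
theorem WB_of_norm_le {α : Type*} [Fintype α] [Nonempty α] (p : α → α → ZMod 2) (u : X →L[ℝ] X)
    {V : Set X} {M : ℝ} (hM : 0 ≤ M) (h : ∀ v ∈ V, ‖u v‖ ≤ M * ‖v‖) : WB p u V M := by
  intro x y hx
  unfold had
  have h1 : ∀ a, |avg fun b => sg (p a b) * y b (u (x a))| ≤ ‖x a‖ * (M * n2 y) := by
    intro a
    refine (abs_avg_le _).trans ?_
    have h2 : (avg fun b => |sg (p a b) * y b (u (x a))|) ≤ avg fun b => (‖x a‖ * M) * ‖y b‖ := by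
      refine avg_mono fun b => ?_
      rw [abs_mul, abs_sg, one_mul]
      have h3 := (y b).le_opNorm (u (x a))
      rw [Real.norm_eq_abs] at h3
      have h4 := mul_le_mul_of_nonneg_left (h _ (hx a)) (norm_nonneg (y b))
      linarith
    refine h2.trans ?_
    rw [avg_mul_left, mul_assoc]
    exact mul_le_mul_of_nonneg_left (mul_le_mul_of_nonneg_left (avg_norm_le_n2 y) hM)
      (norm_nonneg _)
  refine (abs_avg_le _).trans ((avg_mono h1).trans ?_)
  rw [avg_mul_right]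
  have h5 := mul_le_mul_of_nonneg_right (avg_norm_le_n2 x) (mul_nonneg hM (n2_nonneg y))
  linarith

theorem trans_parseval {k : ℕ} (f : Z k → ℝ) : ∑ A, fc f A ^ 2 = avg fun a => f a ^ 2 := by
  have h1 : (fun a => f a ^ 2) = fun a => ∑ A, fc f A * (sg (a ⬝ᵥ A) • f a) := by
    ext a
    conv_lhs => rw [sq]; enter [1]; rw [← fc_inv f a]
    rw [sum_mul]
    refine sum_congr rfl fun A _ => ?_
    simp only [smul_eq_mul]; ring
  rw [h1, avg_sum]
  refine sum_congr rfl fun A _ => ?_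
  rw [avg_mul_left, sq]; rfl

theorem trans_n2_fc {k : ℕ} (f : Z k → ℝ) {ρ : ℝ} (hρ : 0 ≤ ρ) (hρ2 : 1 / 2 ≤ ρ ^ 2) :
    n2 (fc f) ≤ ρ ^ k * n2 f := by
  apply n2_le_of_sq_le (mul_nonneg (pow_nonneg hρ k) (n2_nonneg f))
  rw [mul_pow, n2_sq]
  simp only [Real.norm_eq_abs, sq_abs]
  rw [← trans_parseval f, avg, card_Z, smul_eq_mul]
  refine mul_le_mul_of_nonneg_right ?_ (sum_nonneg fun A _ => sq_nonneg (fc f A))
  rw [← pow_mul, mul_comm, pow_mul]
  push_cast
  rw [← inv_pow]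
  exact pow_le_pow_left₀ (by norm_num) (by linarith) k

theorem had_scalar (k : ℕ) (f g : Z k → ℝ) {ρ : ℝ} (hρ : 0 ≤ ρ) (hρ2 : 1 / 2 ≤ ρ ^ 2) :
    |avg fun a => avg fun b => sg (a ⬝ᵥ b) * (f a * g b)| ≤ ρ ^ k * n2 f * n2 g := by
  rw [avg_comm]
  have h1 : (fun b => avg fun a => sg (a ⬝ᵥ b) * (f a * g b)) = fun b => fc f b * g b := by
    ext b
    rw [fc, ← avg_mul_right]
    congr 1; ext a
    simp only [smul_eq_mul]; ring
  rw [h1]
  exact (avg_cs _ _).trans
    (mul_le_mul_of_nonneg_right (trans_n2_fc f hρ hρ2) (n2_nonneg g))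

theorem trans_decomp (u : X →L[ℝ] X)
    (hu : FiniteDimensional ℝ (LinearMap.range (u : X →ₗ[ℝ] X))) :
    ∃ (d : ℕ) (φ : Fin d → StrongDual ℝ X) (z : Fin d → X), ∀ x, u x = ∑ i, φ i x • z i := by
  set R := LinearMap.range (u : X →ₗ[ℝ] X)
  let bs := Module.finBasis ℝ R
  let u' : X →L[ℝ] R := u.codRestrict R fun x => LinearMap.mem_range_self _ x
  refine ⟨Module.finrank ℝ R,
    fun i => (LinearMap.toContinuousLinearMap (bs.coord i)).comp u', fun i => (bs i : X), ?_⟩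
  intro x
  have h1 := congrArg (fun v : R => (v : X)) (bs.sum_repr (u' x))
  simp only [Submodule.coe_sum, Submodule.coe_smul] at h1
  have h2 : ((u' x : R) : X) = u x := rfl
  rw [← h2, ← h1]
  simp

theorem WB_finite_rank (u : X →L[ℝ] X)
    (hu : FiniteDimensional ℝ (LinearMap.range (u : X →ₗ[ℝ] X))) {ρ : ℝ} (hρ : 0 ≤ ρ)
    (hρ2 : 1 / 2 ≤ ρ ^ 2) : ∃ γ : ℝ, 0 ≤ γ ∧ ∀ k, WB (pk k) u Set.univ (γ * ρ ^ k) := by
  obtain ⟨d, φ, z, hz⟩ := trans_decomp u hu
  refine ⟨∑ i, ‖φ i‖ * ‖z i‖, sum_nonneg fun i _ => by positivity, fun k x y _ => ?_⟩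
  have h1 : had (pk k) u x y =
      ∑ i, avg fun a => avg fun b => sg (a ⬝ᵥ b) * (φ i (x a) * y b (z i)) := by
    unfold had
    rw [← avg_sum]
    congr 1; ext a
    rw [← avg_sum]
    congr 1; ext b
    rw [hz, map_sum, mul_sum]
    refine sum_congr rfl fun i _ => ?_
    simp [pk]
  rw [h1]
  refine (abs_sum_le_sum_abs _ _).trans ?_
  rw [sum_mul, sum_mul, sum_mul]
  refine sum_le_sum fun i _ => ?_
  refine (had_scalar k (fun a => φ i (x a)) (fun b => y b (z i)) hρ hρ2).trans ?_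
  have h2 : n2 (fun a => φ i (x a)) ≤ ‖φ i‖ * n2 x :=
    n2_mul_left (norm_nonneg _) fun a => (φ i).le_opNorm _
  have h3 : n2 (fun b => y b (z i)) ≤ ‖z i‖ * n2 y :=
    n2_mul_left (norm_nonneg _) fun b => by rw [mul_comm]; exact (y b).le_opNorm _
  have h4 := mul_le_mul h2 h3 (n2_nonneg _) (mul_nonneg (norm_nonneg _) (n2_nonneg _))
  have h5 := mul_le_mul_of_nonneg_left h4 (pow_nonneg hρ k)
  calc _ = ρ ^ k * (n2 (fun a => φ i (x a)) * n2 fun b => y b (z i)) := by ring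
    _ ≤ _ := h5
    _ = _ := by ring

end Crest.Agent.R118
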