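import Crest.Agent.R118.Basic

/-!
Trigonometric polynomials and the derivative functional.
`Fc p k = (1/2π) ∫₀^{2π} e^{-ikθ} p θ dθ`.
-/

set_option autoImplicit false

namespace Crest.Agent.R118

open Matrix Finset

theorem Fc_exp (j k : ℤ) :
    Fc (fun θ => Complex.exp (j * θ * Complex.I)) k = if j = k then 1 else 0 := by
  have hpi : ((2 * Real.pi : ℝ) : ℂ) ≠ 0 := by
    exact_mod_cast (by positivity : (2 * Real.pi : ℝ) ≠ 0)
  unfold Fc
  have e : (fun θ : ℝ => Complex.exp (-(k * θ * Complex.I)) * Complex.exp (j * θ * Complex.I)) =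
      fun θ : ℝ => Complex.exp ((((j - k : ℤ) : ℂ) * Complex.I) * θ) := by
    funext θ
    rw [← Complex.exp_add]
    congr 1
    push_cast
    ring
  rw [e]
  split_ifs with h
  · subst h
    simp only [sub_self, Int.cast_zero, zero_mul, Complex.exp_zero, intervalIntegral.integral_const,
      sub_zero, Complex.real_smul, mul_one]
    have e2 : (2 * (Real.pi : ℂ)) = ((2 * Real.pi : ℝ) : ℂ) := by push_cast; ring
    rw [e2, one_div]
    exact inv_mul_cancel₀ hpi
  · have hc : (((j - k : ℤ) : ℂ) * Complex.I) ≠ 0 := by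
      refine mul_ne_zero ?_ Complex.I_ne_zero
      exact_mod_cast sub_ne_zero.mpr h
    rw [integral_exp_mul_complex hc]
    have h1 : Complex.exp ((((j - k : ℤ) : ℂ) * Complex.I) * ((2 * Real.pi : ℝ) : ℂ)) = 1 := by
      rw [← Complex.exp_int_mul_two_pi_mul_I (j - k)]
      congr 1
      push_cast
      ring
    rw [h1]
    simp

theorem Fc_sum {ι : Type*} (s : Finset ι) (c : ι → ℂ) (p : ι → ℝ → ℂ) (hp : ∀ i, Continuous (p i))
    (k : ℤ) : Fc (fun θ => ∑ i ∈ s, c i * p i θ) k = ∑ i ∈ s, c i * Fc (p i) k := by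
  unfold Fc
  have e : (fun θ : ℝ => Complex.exp (-(k * θ * Complex.I)) * ∑ i ∈ s, c i * p i θ) =
      fun θ : ℝ => ∑ i ∈ s, c i * (Complex.exp (-(k * θ * Complex.I)) * p i θ) := by
    funext θ
    rw [Finset.mul_sum]
    refine Finset.sum_congr rfl fun i _ => by ring
  rw [e, intervalIntegral.integral_finsetSum, Finset.mul_sum]
  · refine Finset.sum_congr rfl fun i _ => ?_
    rw [intervalIntegral.integral_const_mul]
    ring
  · intro i _
    refine Continuous.intervalIntegrable ?_ _ _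
    have := hp i
    fun_prop

theorem norm_Fc_le (p : ℝ → ℂ) {c : ℝ} (h : ∀ θ ∈ Set.Icc 0 (2 * Real.pi), ‖p θ‖ ≤ c) (k : ℤ) :
    ‖Fc p k‖ ≤ c := by
  have hpi : (0 : ℝ) < 2 * Real.pi := by positivity
  unfold Fc
  have h1 : ‖∫ θ in (0 : ℝ)..(2 * Real.pi), Complex.exp (-(k * θ * Complex.I)) * p θ‖ ≤
      c * |2 * Real.pi - 0| := by
    refine intervalIntegral.norm_integral_le_of_norm_le_const fun θ hθ => ?_
    rw [Set.uIoc_of_le hpi.le] at hθ
    have e : Complex.exp (-(k * θ * Complex.I)) = Complex.exp (((-(k * θ) : ℝ) : ℂ) * Complex.I) := by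
      congr 1
      push_cast
      ring
    rw [norm_mul, e, Complex.norm_exp_ofReal_mul_I, one_mul]
    exact h θ ⟨hθ.1.le, hθ.2⟩
  rw [sub_zero, abs_of_pos hpi] at h1
  have e2 : (2 * (Real.pi : ℂ)) = ((2 * Real.pi : ℝ) : ℂ) := by push_cast; ring
  rw [e2, one_div, norm_mul, norm_inv, Complex.norm_real, Real.norm_eq_abs, abs_of_pos hpi,
    inv_mul_le_iff₀ hpi]
  linarith

theorem Fc_shift (p : ℝ → ℂ) (hper : Function.Periodic p (2 * Real.pi)) (c : ℝ) (k : ℤ) :
    Fc (fun θ => p (θ + c)) k = Complex.exp (k * c * Complex.I) * Fc p k := by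
  unfold Fc
  set q : ℝ → ℂ := fun θ => Complex.exp (-(k * θ * Complex.I)) * p θ with hq
  have hqper : Function.Periodic q (2 * Real.pi) := by
    intro θ
    simp only [hq, hper θ]
    congr 1
    have : -((k : ℂ) * ((θ + 2 * Real.pi : ℝ) : ℂ) * Complex.I) =
        -(k * θ * Complex.I) + ((-k : ℤ) : ℂ) * (2 * Real.pi * Complex.I) := by
      push_cast
      ring
    rw [this, Complex.exp_add, Complex.exp_int_mul_two_pi_mul_I, mul_one]
  have e : (fun θ : ℝ => Complex.exp (-(k * θ * Complex.I)) * p (θ + c)) =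
      fun θ : ℝ => Complex.exp (k * c * Complex.I) * q (θ + c) := by
    funext θ
    simp only [hq]
    rw [← mul_assoc, ← Complex.exp_add]
    congr 2
    push_cast
    ring
  rw [e, intervalIntegral.integral_const_mul, intervalIntegral.integral_comp_add_right q c]
  have h2 := hqper.intervalIntegral_add_eq c 0
  rw [zero_add, add_comm (2 * Real.pi) c, h2, zero_add]
  ring

theorem Trig_two_sin_pow (j : ℕ) (θ : ℝ) :
    ((Real.sin θ : ℝ) : ℂ) ^ j = ∑ m ∈ range (j + 1),
      ((Complex.I / 2) ^ j * (-1) ^ (j - m) * (j.choose m : ℂ)) *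
        Complex.exp ((((j : ℤ) - 2 * m : ℤ) : ℂ) * θ * Complex.I) := by
  have h1 : ((Real.sin θ : ℝ) : ℂ) =
      (Complex.I / 2) * (Complex.exp (-θ * Complex.I) + -Complex.exp (θ * Complex.I)) := by
    rw [Complex.ofReal_sin, Complex.sin]
    ring
  rw [h1, mul_pow, add_pow, Finset.mul_sum]
  refine Finset.sum_congr rfl fun m hm => ?_
  have hm' : m ≤ j := Nat.lt_succ_iff.mp (Finset.mem_range.mp hm)
  rw [neg_pow (Complex.exp (θ * Complex.I)), ← Complex.exp_nat_mul, ← Complex.exp_nat_mul]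
  have e : Complex.exp ((((j : ℤ) - 2 * m : ℤ) : ℂ) * θ * Complex.I) =
      Complex.exp ((m : ℂ) * (-θ * Complex.I)) * Complex.exp (((j - m : ℕ) : ℂ) * (θ * Complex.I)) := by
    rw [← Complex.exp_add]
    congr 1
    push_cast [hm']
    ring
  rw [e]
  ring

theorem Fc_sin_pow {N j : ℕ} (hj : j ≤ N) :
    ∑ k ∈ Icc (-(N : ℤ)) N, Complex.I * k * Fc (fun θ => ((Real.sin θ : ℝ) : ℂ) ^ j) k =
      if j = 1 then 1 else 0 := by
  set a : ℕ → ℂ := fun m => (Complex.I / 2) ^ j * (-1) ^ (j - m) * (j.choose m : ℂ) with ha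
  set f : ℕ → ℤ := fun m => (j : ℤ) - 2 * m with hf
  have e : (fun θ : ℝ => ((Real.sin θ : ℝ) : ℂ) ^ j) =
      fun θ : ℝ => ∑ m ∈ range (j + 1), a m * Complex.exp ((f m : ℂ) * θ * Complex.I) := by
    funext θ
    exact Trig_two_sin_pow j θ
  have h1 : ∀ k : ℤ, Fc (fun θ => ((Real.sin θ : ℝ) : ℂ) ^ j) k =
      ∑ m ∈ range (j + 1), a m * (if f m = k then 1 else 0) := by
    intro k
    rw [e, Fc_sum (range (j + 1)) a (fun m θ => Complex.exp ((f m : ℂ) * θ * Complex.I))
      (fun m => by fun_prop) k]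
    refine Finset.sum_congr rfl fun m _ => ?_
    rw [Fc_exp]
  have h2 : ∑ k ∈ Icc (-(N : ℤ)) N, Complex.I * k * Fc (fun θ => ((Real.sin θ : ℝ) : ℂ) ^ j) k =
      ∑ m ∈ range (j + 1), a m * (f m * Complex.I) := by
    simp only [h1, Finset.mul_sum]
    rw [Finset.sum_comm]
    refine Finset.sum_congr rfl fun m hm => ?_
    have hm' : m ≤ j := Nat.lt_succ_iff.mp (Finset.mem_range.mp hm)
    have hmem : f m ∈ Icc (-(N : ℤ)) N := by
      simp only [hf, Finset.mem_Icc]
      omega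
    rw [Finset.sum_eq_single (f m)]
    · simp only [if_true]
      ring
    · intro k _ hk
      rw [if_neg (Ne.symm hk)]
      ring
    · intro h
      exact absurd hmem h
  rw [h2]
  have d1 : HasDerivAt (fun θ : ℝ => ∑ m ∈ range (j + 1),
      a m * Complex.exp ((f m : ℂ) * θ * Complex.I)) (∑ m ∈ range (j + 1), a m * (f m * Complex.I)) 0 := by
    refine HasDerivAt.fun_sum fun m _ => ?_
    refine HasDerivAt.const_mul _ ?_
    have h0 : HasDerivAt (fun θ : ℝ => (f m : ℂ) * θ * Complex.I) ((f m : ℂ) * 1 * Complex.I) 0 :=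
      ((Complex.ofRealCLM.hasDerivAt (x := (0 : ℝ))).const_mul (f m : ℂ)).mul_const Complex.I
    have h3 := h0.cexp
    simpa using h3
  have d2 : HasDerivAt (fun θ : ℝ => ((Real.sin θ : ℝ) : ℂ) ^ j) (if j = 1 then 1 else 0) 0 := by
    have h0 : HasDerivAt (fun θ : ℝ => ((Real.sin θ : ℝ) : ℂ)) ((Real.cos 0 : ℝ) : ℂ) 0 :=
      (Real.hasDerivAt_sin 0).ofReal_comp
    have h3 := h0.fun_pow j
    have e3 : (if j = 1 then (1 : ℂ) else 0) =
        (j : ℂ) * ((Real.sin 0 : ℝ) : ℂ) ^ (j - 1) * ((Real.cos 0 : ℝ) : ℂ) := by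
      rcases j with _ | _ | j
      · simp
      · simp
      · simp
    rw [e3]
    exact h3
  rw [e] at d2
  exact d1.unique d2

end Crest.Agent.R118
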