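import Crest.Agent.R118.Dual
import Crest.Agent.R118.Cot

/-!
Type decay from the Walsh bound (input of the alternative Pisier step `R118P.isKConvex_of_typeDecay`).
Choose `J0` with `A ρ^J0 ≤ 1/128`.  For `x : Z J → X`, `n2_le_of_dual` and `Walsh` (`had (pk J) id x y = avg_b y b (avg_a sg (a ⬝ b) • x a)`,
`clm_avg`) give `n2 (fun b => avg_a sg (a ⬝ b) • x a) ≤ A ρ^J n2 x`, i.e. `avg_b ‖∑_a sg (a ⬝ b) • x a‖² ≤ (1/128)² 2^J ∑ ‖x a‖²`.
Index by `e : Fin (2^J) ≃ Z J` (`Fintype.equivFinOfCardEq`, `card_Z`), use `signAverage_eq`, `sg_bz`; for every `b` the translation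
`θ ↦ θ + (fun i => e i ⬝ᵥ b)` preserves the average over `θ : Z (2^J)` (`avg_add_right`, `sg_add`); average over `b` (`avg_const`, `avg_comm`)
and apply the bound to `fun a => sg (θ (e.symm a)) • x (e.symm a)` (`norm_sg_smul`).
-/

set_option autoImplicit false

namespace Crest.Agent.R118

open Matrix Finset

variable {X : Type*} [NormedAddCommGroup X] [NormedSpace ℝ X]

theorem TypeD_had {A ρ : ℝ} (hA : 0 ≤ A) (hρ : 0 ≤ ρ) (hW : Walsh X A ρ) (J : ℕ) (x : Z J → X) :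
    n2 (fun b : Z J => avg fun a => sg (a ⬝ᵥ b) • x a) ≤ A * ρ ^ J * n2 x := by
  apply n2_le_of_dual _ (mul_nonneg (by positivity) (n2_nonneg _))
  intro g
  have h := hW J x g (fun _ => Set.mem_univ _)
  refine le_trans (le_of_eq ?_) ((le_abs_self _).trans h)
  unfold had
  rw [avg_comm]
  congr 1; funext b
  rw [clm_avg]
  simp [pk]

theorem TypeD_sq {A ρ : ℝ} (hA : 0 ≤ A) (hρ : 0 ≤ ρ) (hW : Walsh X A ρ) (J : ℕ)
    (hJ : A * ρ ^ J ≤ 1 / 128) (x : Z J → X) :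
    (avg fun b : Z J => ‖∑ a, sg (a ⬝ᵥ b) • x a‖ ^ 2) ≤ (1 / 128) ^ 2 * 2 ^ J * ∑ a, ‖x a‖ ^ 2 := by
  have h := (TypeD_had hA hρ hW J x).trans (mul_le_mul_of_nonneg_right hJ (n2_nonneg _))
  have h2 := pow_le_pow_left₀ (n2_nonneg _) h 2
  rw [mul_pow, n2_sq, n2_sq] at h2
  have h2J : (0 : ℝ) < 2 ^ J := by positivity
  have h3 : ∀ b : Z J, ‖∑ a, sg (a ⬝ᵥ b) • x a‖ ^ 2
      = (2 ^ J) ^ 2 * ‖avg fun a => sg (a ⬝ᵥ b) • x a‖ ^ 2 := by
    intro b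
    rw [avg, norm_smul, card_Z, Real.norm_eq_abs, abs_of_pos (by positivity)]
    push_cast
    field_simp
  simp only [h3]
  rw [avg_mul_left]
  refine (mul_le_mul_of_nonneg_left h2 (by positivity)).trans (le_of_eq ?_)
  rw [avg, card_Z, smul_eq_mul]
  push_cast
  field_simp

open Crest.AnalysisR in
theorem typeDecay_of_walsh {A ρ : ℝ} (hA : 0 ≤ A) (hρ : 0 ≤ ρ) (hρ1 : ρ < 1) (hW : Walsh X A ρ) :
    ∃ J0 : ℕ, ∀ J, J0 ≤ J → ∀ x : Fin (2 ^ J) → X,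
      signAverage (fun ε : Fin (2 ^ J) → Bool => ‖∑ i, signVal (ε i) • x i‖ ^ 2) ≤
        (1 / 128) ^ 2 * 2 ^ J * ∑ i, ‖x i‖ ^ 2 := by
  have h1 : Filter.Tendsto (fun k : ℕ => A * ρ ^ k) Filter.atTop (nhds (A * 0)) :=
    (tendsto_pow_atTop_nhds_zero_of_lt_one hρ hρ1).const_mul A
  rw [mul_zero] at h1
  obtain ⟨J0, hJ0⟩ := Filter.eventually_atTop.mp
    (h1.eventually (ge_mem_nhds (show (0 : ℝ) < 1 / 128 by norm_num)))
  refine ⟨J0, fun J hJ x => ?_⟩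
  have e : Z J ≃ Fin (2 ^ J) := Fintype.equivFinOfCardEq (card_Z J)
  rw [signAverage_eq]
  have hs : ∀ (θ : Z (2 ^ J)) i, signVal (bz.symm θ i) = sg (θ i) := by
    intro θ i
    rw [← sg_bz, Equiv.apply_symm_apply]
  simp only [hs]
  have h2 : ∀ b : Z J, (avg fun θ : Z (2 ^ J) => ‖∑ i, sg (θ i) • x i‖ ^ 2)
      = avg fun θ : Z (2 ^ J) => ‖∑ a, sg (a ⬝ᵥ b) • (sg (θ (e a)) • x (e a))‖ ^ 2 := by
    intro b
    rw [← avg_add_right _ (fun i => e.symm i ⬝ᵥ b)]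
    congr 1; funext θ
    rw [← Equiv.sum_comp e]
    congr 2
    apply Finset.sum_congr rfl
    intro a _
    simp only [Pi.add_apply, Equiv.symm_apply_apply, sg_add, smul_smul, mul_comm]
  calc _ = avg fun b : Z J => avg fun θ : Z (2 ^ J) =>
        ‖∑ a, sg (a ⬝ᵥ b) • (sg (θ (e a)) • x (e a))‖ ^ 2 := by
        simp only [← h2]; rw [avg_const]
    _ = avg fun θ : Z (2 ^ J) => avg fun b : Z J =>
        ‖∑ a, sg (a ⬝ᵥ b) • (sg (θ (e a)) • x (e a))‖ ^ 2 := avg_comm _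
    _ ≤ avg fun _ : Z (2 ^ J) => (1 / 128 : ℝ) ^ 2 * 2 ^ J * ∑ i, ‖x i‖ ^ 2 := by
        apply avg_mono
        intro θ
        refine (TypeD_sq hA hρ hW J (hJ0 J hJ) _).trans (le_of_eq ?_)
        simp only [norm_sg_smul]
        rw [Equiv.sum_comp e (fun i => ‖x i‖ ^ 2)]
    _ = _ := avg_const _

end Crest.Agent.R118
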