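import Crest.Agent.R118.Key
import Crest.Agent.R118.Param
import Crest.Agent.R118.Pot
import Crest.Agent.R118.CorrA
import Crest.Agent.R118.Cot

/-!
Exponential Walsh bound from the two cotypes and AP.
-/

set_option autoImplicit false

namespace Crest.Agent.R118

open Matrix Finset

variable {X : Type*} [NormedAddCommGroup X] [NormedSpace ℝ X]


theorem K1_nonneg (n m N : ℕ) : 0 ≤ K1 n m N := by unfold K1; positivity

theorem K2_nonneg (m N : ℕ) : 0 ≤ K2 m N := by unfold K2; positivity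

open Crest.AnalysisR in
theorem walsh (hAP : HasApproximationProperty X) (q r C D : ℝ) (hq : 2 ≤ q) (hr : 2 ≤ r)
    (hX : HasRademacherCotype X q C) (hX' : HasRademacherCotype (StrongDual ℝ X) r D) :
    ∃ A ρ : ℝ, 0 ≤ A ∧ 0 ≤ ρ ∧ ρ < 1 ∧ Walsh X A ρ := by
  obtain ⟨n, m, N, hn, hm, hN, hδ⟩ := param q r C D hq hr
  have hn' : (0 : ℝ) < n := by exact_mod_cast hn
  have hm' : (0 : ℝ) < m := by exact_mod_cast hm
  have ha : 0 < (|D| + 1) * (n : ℝ) ^ (1 - 1 / r) := by positivity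
  have ha' : 0 < (|C| + 1) * (m : ℝ) ^ (1 - 1 / q) := by positivity
  have hK1 := K1_nonneg n m N
  have hK2 := K2_nonneg m N
  refine walsh_of_rec hAP (n := n) (j := n + m) (c := 2 * ((|D| + 1) * (n : ℝ) ^ (1 - 1 / r)))
    (B := 2 * ((|D| + 1) * (n : ℝ) ^ (1 - 1 / r)) * ((|C| + 1) * (m : ℝ) ^ (1 - 1 / q)) * K1 n m N *
      2 ^ (n + m + m * n)) (by positivity) hδ (by positivity)
    (corr_of_cot_dual hn ha (cot_of_cotype hr hX' hn)) ?_
  intro V V' hcl u k M₁ M₂ hM₁ hM₂ hW₁ hW₂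
  exact WB_p3.mp (key hn hm hN (by positivity) ha' (cot_of_cotype hq hX hm) hcl u hM₁ hM₂ hW₁
    (WB_p4.mpr hW₂))

end Crest.Agent.R118
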